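import Mathlib

/-!
P328 (contingency tables).  Definitions for the hub chain.

`x : Fin m → Fin n → ℕ` is the configuration of the non-hub rows, `c` the column sums of the whole
table, `R` the row sums of the non-hub rows; the hub row is `c a - ∑ j, x j a`.
-/

namespace Vale.Agent.P328

open Finset

variable {m n : ℕ}

/-- one unit in row `j`, column `b` -/
def E (j : Fin m) (b : Fin n) : Fin m → Fin n → ℕ := fun i a => if i = j ∧ a = b then 1 else 0

/-- one unit at `j` -/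
def e1 {k : ℕ} (j : Fin k) : Fin k → ℕ := fun i => if i = j then 1 else 0

/-- configurations of the non-hub rows: row sums `R`, column caps `c` -/
def Om (c : Fin n → ℕ) (R : Fin m → ℕ) : Finset (Fin m → Fin n → ℕ) :=
  (Fintype.piFinset fun _ => Fintype.piFinset fun a => Finset.range (c a + 1)).filter
    fun x => (∀ j, ∑ a, x j a = R j) ∧ ∀ a, ∑ j, x j a ≤ c a

/-- one row: `0 ≤ y ≤ d`, sum `r` -/
def X (d : Fin n → ℕ) (r : ℕ) : Finset (Fin n → ℕ) :=
  (Fintype.piFinset fun a => Finset.range (d a + 1)).filter fun y => ∑ a, y a = r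

/-- the flux of row `j` into column `b` at `x` (weights `t (t+1)`) -/
noncomputable def V (u : (Fin m → Fin n → ℕ) → ℝ) (j : Fin m) (b : Fin n)
    (x : Fin m → Fin n → ℕ) : ℝ :=
  ((x j b : ℝ) + 1) * ∑ a, ((x + E j b) j a : ℝ) * (u (x + E j b - E j a) - u x)

/-- the generator of the hub chain -/
noncomputable def LL (c : Fin n → ℕ) (u : (Fin m → Fin n → ℕ) → ℝ) (x : Fin m → Fin n → ℕ) : ℝ :=
  ∑ j, ∑ b, if ∑ i, x i b < c b then V u j b x else 0

/-- non-conflict part of `⟨L_j u, L_k u⟩` -/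
noncomputable def NN (c : Fin n → ℕ) (R : Fin m → ℕ) (u : (Fin m → Fin n → ℕ) → ℝ)
    (j k : Fin m) : ℝ :=
  ∑ x ∈ Om c R, ∑ b, ∑ b', if (∀ a, ∑ i, (x + E j b + E k b') i a ≤ c a) then
    V u j b x * V u k b' x else 0

/-- edge energy of the fluxes of row `j` -/
noncomputable def HH (c : Fin n → ℕ) (R : Fin m → ℕ) (u : (Fin m → Fin n → ℕ) → ℝ)
    (j : Fin m) : ℝ :=
  ∑ x ∈ Om c R, ∑ b, ∑ a, if a ≠ b ∧ ∑ i, x i b < c b ∧ ∑ i, x i a < c a then
    (V u j b x - (if x j b = 0 then 0 else V u j b (x + E j a - E j b))) ^ 2 else 0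

/-- total squared flux of row `j` -/
noncomputable def VV (c : Fin n → ℕ) (R : Fin m → ℕ) (u : (Fin m → Fin n → ℕ) → ℝ)
    (j : Fin m) : ℝ :=
  ∑ x ∈ Om c R, ∑ b, if ∑ i, x i b < c b then (V u j b x) ^ 2 else 0

/-- Dirichlet form of row `j` -/
noncomputable def DD (c : Fin n → ℕ) (R : Fin m → ℕ) (u : (Fin m → Fin n → ℕ) → ℝ)
    (j : Fin m) : ℝ :=
  (1 / 2) * ∑ x ∈ Om c (R + e1 j), ∑ a, ∑ b, (x j a : ℝ) * (x j b : ℝ) *
    (u (x - E j a) - u (x - E j b)) ^ 2

end Vale.Agent.P328
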