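import Vale.Agent.Lib.P328.Std

/-!
P328: the heat-bath chain on 2 by 2 blocks, the northwest corner table, and an explicit sampler
which uses random words.
-/

namespace Vale.Agent.P328

open Finset

variable {m n : ℕ}

/-- `X` and `Y` have the same entries outside the block with rows `i, k` and columns `a, b` -/
def agreeOff {r : Fin m → ℕ} {c : Fin n → ℕ} (i k : Fin m) (a b : Fin n) (X Y : Tab r c) : Prop :=
  ∀ j x, ¬ ((j = i ∨ j = k) ∧ (x = a ∨ x = b)) → X.1 j x = Y.1 j x

open Classical in
/-- transition matrix of the heat-bath chain: stay with probability `1/2`; otherwise choose rows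
`i, k` and columns `a, b` uniformly and replace the entries in these rows and columns by a
uniformly random choice among those with the same margins -/
noncomputable def HB (r : Fin m → ℕ) (c : Fin n → ℕ) : Matrix (Tab r c) (Tab r c) ℝ := fun X Y =>
  (if X = Y then 1 / 2 else 0) + (1 / 2) * (1 / ((m : ℝ) ^ 2 * (n : ℝ) ^ 2)) *
    ∑ i : Fin m, ∑ k : Fin m, ∑ a : Fin n, ∑ b : Fin n,
      if agreeOff i k a b X Y then
        1 / ((univ.filter fun Z : Tab r c => agreeOff i k a b X Z).card : ℝ) else 0

/-- the northwest corner table: cell `(i, a)` receives the length of the intersection of the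
`i`-th interval of the row partition and the `a`-th interval of the column partition of `[0, N)` -/
def nwTab (r : Fin m → ℕ) (c : Fin n → ℕ) : Fin m → Fin n → ℕ := fun i a =>
  min (∑ j ∈ univ.filter (fun j : Fin m => j ≤ i), r j) (∑ x ∈ univ.filter (fun x : Fin n => x ≤ a), c x)
    - max (∑ j ∈ univ.filter (fun j : Fin m => j < i), r j)
        (∑ x ∈ univ.filter (fun x : Fin n => x < a), c x)

/-- resample the block with rows `i, k` and columns `a, b`, using the number `w` modulo the number
of possible values -/
def resample (i k : Fin m) (a b : Fin n) (w : ℕ) (X : Fin m → Fin n → ℕ) : Fin m → Fin n → ℕ :=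
  if i = k ∨ a = b then X else
    let lo := min (X i a) (X k b)
    let s := w % (lo + min (X i b) (X k a) + 1)
    fun j x =>
      if (j = i ∧ x = a) ∨ (j = k ∧ x = b) then X j x - lo + s
      else if (j = i ∧ x = b) ∨ (j = k ∧ x = a) then X j x + lo - s
      else X j x

/-- one step of the sampler; the six numbers `w 0, ..., w 5` are independent random words: a coin
(parity of `w 0`), two rows, two columns, and the new position in the block -/
def sampleStep (hm : 0 < m) (hn : 0 < n) (w : Fin 6 → ℕ) (X : Fin m → Fin n → ℕ) :
    Fin m → Fin n → ℕ :=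
  if w 0 % 2 = 0 then X else
    resample ⟨w 1 % m, Nat.mod_lt _ hm⟩ ⟨w 2 % m, Nat.mod_lt _ hm⟩
      ⟨w 3 % n, Nat.mod_lt _ hn⟩ ⟨w 4 % n, Nat.mod_lt _ hn⟩ (w 5) X

/-- the sampler: start at the northwest corner table and make one step for each entry of the list
of random words -/
def sampleRun (hm : 0 < m) (hn : 0 < n) (r : Fin m → ℕ) (c : Fin n → ℕ) :
    List (Fin 6 → ℕ) → Fin m → Fin n → ℕ
  | [] => nwTab r c
  | w :: l => sampleStep hm hn w (sampleRun hm hn r c l)

end Vale.Agent.P328
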