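import Vale.Agent.Lib.P328.Lvl

/-!
P328, module M2: the cross terms of two different rows are nonnegative (double centering).
-/

namespace Vale.Agent.P328

open Finset

variable {m n : ℕ}

/-- the algebraic inequality behind M2 (double centering) -/
theorem M2_alg (α β : Fin n → ℝ) (hα : ∀ b, 0 ≤ α b) (hβ : ∀ b, 0 ≤ β b) (q : Fin n → Fin n → ℝ) :
    0 ≤ ∑ b, ∑ b', α b * β b' * ((∑ a, α a * (q a b' - q b b')) * (∑ a', β a' * (q b a' - q b b'))) := by
  have hsA0 : 0 ≤ ∑ a, α a := Finset.sum_nonneg fun a _ => hα a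
  have hsB0 : 0 ≤ ∑ a, β a := Finset.sum_nonneg fun a _ => hβ a
  rcases hsA0.eq_or_lt with hA | hA
  · have h1 : ∀ b, α b = 0 := by
      intro b
      exact (Finset.sum_eq_zero_iff_of_nonneg fun a _ => hα a).1 hA.symm b (Finset.mem_univ b)
    simp [h1]
  rcases hsB0.eq_or_lt with hB | hB
  · have h1 : ∀ b, β b = 0 := by
      intro b
      exact (Finset.sum_eq_zero_iff_of_nonneg fun a _ => hβ a).1 hB.symm b (Finset.mem_univ b)
    simp [h1]
  set sA := ∑ a, α a with hsA
  set sB := ∑ a, β a with hsB
  set A : Fin n → ℝ := fun b' => ∑ a, α a * q a b' with hAdef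
  set C : Fin n → ℝ := fun b => ∑ a', β a' * q b a' with hCdef
  set T : ℝ := ∑ b, ∑ b', α b * β b' * q b b' with hT
  have e1 : ∀ b b', ∑ a, α a * (q a b' - q b b') = A b' - sA * q b b' := by
    intro b b'
    simp only [hAdef, hsA, mul_sub, Finset.sum_sub_distrib, Finset.sum_mul]
  have e2 : ∀ b b', ∑ a', β a' * (q b a' - q b b') = C b - sB * q b b' := by
    intro b b'
    simp only [hCdef, hsB, mul_sub, Finset.sum_sub_distrib, Finset.sum_mul]
  simp only [e1, e2]
  -- moments
  have hqA : ∑ b, ∑ b', α b * β b' * (q b b' * A b') = ∑ b', β b' * (A b' * A b') := by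
    rw [Finset.sum_comm]
    refine Finset.sum_congr rfl fun b' _ => ?_
    simp only [hAdef, Finset.sum_mul, Finset.mul_sum]
    refine Finset.sum_congr rfl fun b _ => Finset.sum_congr rfl fun a _ => ?_
    ring
  have hAA : ∑ b, ∑ b', α b * β b' * (A b' * A b') = sA * ∑ b', β b' * (A b' * A b') := by
    rw [hsA, Finset.sum_mul]
    refine Finset.sum_congr rfl fun b _ => ?_
    rw [Finset.mul_sum]
    refine Finset.sum_congr rfl fun b' _ => ?_
    ring
  have hqC : ∑ b, ∑ b', α b * β b' * (q b b' * C b) = ∑ b, α b * (C b * C b) := by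
    refine Finset.sum_congr rfl fun b _ => ?_
    simp only [hCdef, Finset.sum_mul, Finset.mul_sum]
    refine Finset.sum_congr rfl fun b' _ => Finset.sum_congr rfl fun a _ => ?_
    ring
  have hCC : ∑ b, ∑ b', α b * β b' * (C b * C b) = sB * ∑ b, α b * (C b * C b) := by
    rw [hsB, Finset.sum_mul, Finset.sum_comm]
    refine Finset.sum_congr rfl fun b _ => ?_
    rw [Finset.mul_sum]
    refine Finset.sum_congr rfl fun b' _ => ?_
    ring
  have hTA : ∑ b', β b' * A b' = T := by
    rw [hT, Finset.sum_comm]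
    refine Finset.sum_congr rfl fun b' _ => ?_
    simp only [hAdef, Finset.mul_sum]
    refine Finset.sum_congr rfl fun b _ => ?_
    ring
  have hTC : ∑ b, α b * C b = T := by
    rw [hT]
    refine Finset.sum_congr rfl fun b _ => ?_
    simp only [hCdef, Finset.mul_sum]
    refine Finset.sum_congr rfl fun b' _ => ?_
    ring
  have hAC : ∑ b, ∑ b', α b * β b' * (A b' * C b) = T * T := by
    nth_rewrite 1 [← hTC]
    rw [← hTA, Finset.sum_mul_sum]
    refine Finset.sum_congr rfl fun b _ => Finset.sum_congr rfl fun b' _ => ?_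
    ring
  have hA1 : ∑ b, ∑ b', α b * β b' * A b' = sA * T := by
    rw [hsA, ← hTA, Finset.sum_mul_sum]
    refine Finset.sum_congr rfl fun b _ => Finset.sum_congr rfl fun b' _ => ?_
    ring
  have hC1 : ∑ b, ∑ b', α b * β b' * C b = sB * T := by
    rw [hsB, ← hTC, Finset.sum_mul_sum, Finset.sum_comm]
    refine Finset.sum_congr rfl fun b _ => Finset.sum_congr rfl fun b' _ => ?_
    ring
  have h11 : ∑ b, ∑ b', α b * β b' = sA * sB := by
    rw [hsA, hsB, Finset.sum_mul_sum]
  -- the original sum
  have hP : ∑ b, ∑ b', α b * β b' * ((A b' - sA * q b b') * (C b - sB * q b b')) =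
      T * T - sB * (∑ b', β b' * (A b' * A b')) - sA * (∑ b, α b * (C b * C b)) +
      sA * sB * ∑ b, ∑ b', α b * β b' * (q b b' * q b b') := by
    rw [← hAC, ← hqA, ← hqC]
    simp only [Finset.mul_sum, ← Finset.sum_add_distrib, ← Finset.sum_sub_distrib]
    refine Finset.sum_congr rfl fun b _ => Finset.sum_congr rfl fun b' _ => ?_
    ring
  have hS : ∑ b, ∑ b', α b * β b' * (sA * sB * q b b' - sB * A b' - sA * C b + T) ^ 2 =
      sA * sB * ∑ b, ∑ b', α b * β b' * ((A b' - sA * q b b') * (C b - sB * q b b')) := by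
    have h1 : ∑ b, ∑ b', α b * β b' * (sA * sB * q b b' - sB * A b' - sA * C b + T) ^ 2 =
        (sA * sB) ^ 2 * (∑ b, ∑ b', α b * β b' * (q b b' * q b b')) +
        sB ^ 2 * (∑ b, ∑ b', α b * β b' * (A b' * A b')) +
        sA ^ 2 * (∑ b, ∑ b', α b * β b' * (C b * C b)) +
        T ^ 2 * (∑ b, ∑ b', α b * β b') -
        (2 * sA * sB ^ 2) * (∑ b, ∑ b', α b * β b' * (q b b' * A b')) -
        (2 * sA ^ 2 * sB) * (∑ b, ∑ b', α b * β b' * (q b b' * C b)) +
        (2 * sA * sB * T) * (∑ b, ∑ b', α b * β b' * q b b') +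
        (2 * sA * sB) * (∑ b, ∑ b', α b * β b' * (A b' * C b)) -
        (2 * sB * T) * (∑ b, ∑ b', α b * β b' * A b') -
        (2 * sA * T) * (∑ b, ∑ b', α b * β b' * C b) := by
      simp only [Finset.mul_sum, ← Finset.sum_add_distrib, ← Finset.sum_sub_distrib]
      refine Finset.sum_congr rfl fun b _ => Finset.sum_congr rfl fun b' _ => ?_
      ring
    rw [h1, hP, hAA, hCC, h11, hqA, hqC, hAC, hA1, hC1, ← hT]
    ring
  have hnn : 0 ≤ sA * sB * ∑ b, ∑ b', α b * β b' * ((A b' - sA * q b b') * (C b - sB * q b b')) := by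
    rw [← hS]
    exact Finset.sum_nonneg fun b _ => Finset.sum_nonneg fun b' _ =>
      mul_nonneg (mul_nonneg (hα b) (hβ b')) (sq_nonneg _)
  exact nonneg_of_mul_nonneg_right hnn (mul_pos hA hB)

/-- M2 -/
theorem M2_cross (c : Fin n → ℕ) (R : Fin m → ℕ) (u : (Fin m → Fin n → ℕ) → ℝ) {j k : Fin m}
    (hjk : j ≠ k) : 0 ≤ NN c R u j k := by
  have h0 : NN c R u j k = ∑ b, ∑ b', ∑ x ∈ Om c R,
      (if (∀ a, ∑ i, (x + E j b + E k b') i a ≤ c a) then V u j b x * V u k b' x else 0) := by
    unfold NN
    rw [Finset.sum_comm]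
    refine Finset.sum_congr rfl fun b _ => ?_
    rw [Finset.sum_comm]
  rw [h0]
  have h1 : ∀ b b', ∑ x ∈ Om c R,
      (if (∀ a, ∑ i, (x + E j b + E k b') i a ≤ c a) then V u j b x * V u k b' x else 0) =
      ∑ X ∈ Om c (R + e1 j + e1 k), if (∀ i a, (E j b + E k b') i a ≤ X i a) then
        V u j b (X - E j b - E k b') * V u k b' (X - E j b - E k b') else 0 :=
    fun b b' => level2 c R j k b b' (fun x => V u j b x * V u k b' x)
  simp only [h1]
  have h2 : ∑ b, ∑ b', ∑ X ∈ Om c (R + e1 j + e1 k), (if (∀ i a, (E j b + E k b') i a ≤ X i a) then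
        V u j b (X - E j b - E k b') * V u k b' (X - E j b - E k b') else 0) =
      ∑ X ∈ Om c (R + e1 j + e1 k), ∑ b, ∑ b', (if (∀ i a, (E j b + E k b') i a ≤ X i a) then
        V u j b (X - E j b - E k b') * V u k b' (X - E j b - E k b') else 0) := by
    have h3 : ∀ b : Fin n, ∑ b', ∑ X ∈ Om c (R + e1 j + e1 k),
        (if (∀ i a, (E j b + E k b') i a ≤ X i a) then
        V u j b (X - E j b - E k b') * V u k b' (X - E j b - E k b') else 0) =
        ∑ X ∈ Om c (R + e1 j + e1 k), ∑ b', (if (∀ i a, (E j b + E k b') i a ≤ X i a) then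
        V u j b (X - E j b - E k b') * V u k b' (X - E j b - E k b') else 0) :=
      fun b => Finset.sum_comm
    simp only [h3]
    rw [Finset.sum_comm]
  rw [h2]
  refine Finset.sum_nonneg fun X _ => ?_
  have h4 : ∀ b b', (if (∀ i a, (E j b + E k b') i a ≤ X i a) then
        V u j b (X - E j b - E k b') * V u k b' (X - E j b - E k b') else 0) =
      (X j b : ℝ) * (X k b' : ℝ) *
        ((∑ a, (X j a : ℝ) * (u (X - E j a - E k b') - u (X - E j b - E k b'))) *
        (∑ a', (X k a' : ℝ) * (u (X - E j b - E k a') - u (X - E j b - E k b')))) := by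
    intro b b'
    by_cases hb : X j b = 0
    · rw [if_neg]
      · rw [hb]; simp
      · intro h
        have := h j b
        rw [hb] at this
        simp only [Pi.add_apply, E_self] at this
        omega
    by_cases hb' : X k b' = 0
    · rw [if_neg]
      · rw [hb']; simp
      · intro h
        have := h k b'
        rw [hb'] at this
        simp only [Pi.add_apply, E_self] at this
        omega
    rw [if_pos]
    · have ecomm : X - E j b - E k b' = X - E k b' - E j b := by
        funext i a
        simp only [Pi.sub_apply]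
        omega
      have hj : (X - E k b') j b ≠ 0 := by
        simp only [Pi.sub_apply, E_ne_row hjk]
        exact hb
      have hk : (X - E j b) k b' ≠ 0 := by
        simp only [Pi.sub_apply, E_ne_row (Ne.symm hjk)]
        exact hb'
      have v1 : V u j b (X - E j b - E k b') = (X j b : ℝ) *
          ∑ a, (X j a : ℝ) * (u (X - E j a - E k b') - u (X - E j b - E k b')) := by
        rw [ecomm, V_level u hj]
        have hr : ∀ a, (X - E k b') j a = X j a := fun a => by
          simp only [Pi.sub_apply, E_ne_row hjk]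
          exact Nat.sub_zero _
        simp only [hr]
        congr 1
        refine Finset.sum_congr rfl fun a _ => ?_
        have e3 : X - E k b' - E j a = X - E j a - E k b' := by
          funext i a'
          simp only [Pi.sub_apply]
          omega
        rw [e3, ← ecomm]
      have v2 : V u k b' (X - E j b - E k b') = (X k b' : ℝ) *
          ∑ a', (X k a' : ℝ) * (u (X - E j b - E k a') - u (X - E j b - E k b')) := by
        rw [V_level u hk]
        have hr : ∀ a, (X - E j b) k a = X k a := fun a => by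
          simp only [Pi.sub_apply, E_ne_row (Ne.symm hjk)]
          exact Nat.sub_zero _
        simp only [hr]
      rw [v1, v2]
      ring
    · intro i a
      simp only [Pi.add_apply, E_apply]
      by_cases c1 : i = j ∧ a = b
      · have c2 : ¬ (i = k ∧ a = b') := fun h => hjk (c1.1.symm.trans h.1)
        rw [if_pos c1, if_neg c2, c1.1, c1.2]
        omega
      · by_cases c2 : i = k ∧ a = b'
        · rw [if_neg c1, if_pos c2, c2.1, c2.2]
          omega
        · rw [if_neg c1, if_neg c2]
          omega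
  simp only [h4]
  exact M2_alg (fun b => (X j b : ℝ)) (fun b => (X k b : ℝ)) (fun b => Nat.cast_nonneg _)
    (fun b => Nat.cast_nonneg _) (fun a b' => u (X - E j a - E k b'))

end Vale.Agent.P328
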