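import Vale.Agent.Lib.P328.Defs

/-!
P328: level reindexing.
-/

namespace Vale.Agent.P328

open Finset

variable {m n : ℕ}

theorem mem_Om {c : Fin n → ℕ} {R : Fin m → ℕ} {x : Fin m → Fin n → ℕ} :
    x ∈ Om c R ↔ (∀ j, ∑ a, x j a = R j) ∧ ∀ a, ∑ j, x j a ≤ c a := by
  unfold Om
  rw [Finset.mem_filter]
  constructor
  · exact fun h => h.2
  · intro h
    refine ⟨?_, h⟩
    rw [Fintype.mem_piFinset]
    intro j
    rw [Fintype.mem_piFinset]
    intro a
    rw [Finset.mem_range]
    have h1 : x j a ≤ ∑ i, x i a := Finset.single_le_sum (f := fun i => x i a) (fun i _ => Nat.zero_le _) (Finset.mem_univ j)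
    have h2 := h.2 a
    omega

theorem E_apply (j : Fin m) (b : Fin n) (i : Fin m) (a : Fin n) :
    E j b i a = if i = j ∧ a = b then 1 else 0 := rfl

theorem E_self (j : Fin m) (b : Fin n) : E j b j b = 1 := by simp [E]

theorem E_ne_row {i j : Fin m} (h : i ≠ j) (b a : Fin n) : E j b i a = 0 := by simp [E, h]

theorem E_ne_col {j : Fin m} {a b : Fin n} (h : a ≠ b) (i : Fin m) : E j b i a = 0 := by simp [E, h]

theorem E_row_sum (j i : Fin m) (b : Fin n) : ∑ a, E j b i a = e1 j i := by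
  unfold E e1
  by_cases h : i = j
  · simp [h]
  · simp [h]

theorem E_col_sum (j : Fin m) (b a : Fin n) : ∑ i, E j b i a = e1 b a := by
  unfold E e1
  by_cases h : a = b
  · simp [h]
  · simp [h]

theorem E_le_iff {x : Fin m → Fin n → ℕ} {j : Fin m} {b : Fin n} :
    (∀ i a, E j b i a ≤ x i a) ↔ x j b ≠ 0 := by
  constructor
  · intro h h0
    have h1 : E j b j b ≤ x j b := h j b
    rw [E_self, h0] at h1
    exact absurd h1 (by norm_num)
  · intro h i a
    rw [E_apply]
    split_ifs with hc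
    · rw [hc.1, hc.2]; exact Nat.one_le_iff_ne_zero.2 h
    · exact Nat.zero_le _

theorem sub_add_of_le {D X : Fin m → Fin n → ℕ} (h : ∀ i a, D i a ≤ X i a) : X - D + D = X := by
  funext i a
  simp only [Pi.add_apply, Pi.sub_apply]
  exact Nat.sub_add_cancel (h i a)

theorem add_E_mem {c : Fin n → ℕ} {R : Fin m → ℕ} {x : Fin m → Fin n → ℕ} {j : Fin m} {b : Fin n} :
    x + E j b ∈ Om c (R + e1 j) ↔
      (∀ i, ∑ a, x i a = R i) ∧ ∀ a, ∑ i, (x + E j b) i a ≤ c a := by
  rw [mem_Om]
  refine and_congr ?_ Iff.rfl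
  refine forall_congr' fun i => ?_
  simp only [Pi.add_apply, Finset.sum_add_distrib, E_row_sum]
  omega

theorem avail_iff {c : Fin n → ℕ} {R : Fin m → ℕ} {x : Fin m → Fin n → ℕ} (hx : x ∈ Om c R)
    (j : Fin m) (b : Fin n) : ∑ i, x i b < c b ↔ x + E j b ∈ Om c (R + e1 j) := by
  rw [add_E_mem]
  rw [mem_Om] at hx
  constructor
  · intro h
    refine ⟨hx.1, fun a => ?_⟩
    simp only [Pi.add_apply, Finset.sum_add_distrib, E_col_sum]
    have := hx.2 a
    unfold e1
    split_ifs with hab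
    · rw [hab]; omega
    · omega
  · intro h
    have := h.2 b
    simp only [Pi.add_apply, Finset.sum_add_distrib, E_col_sum] at this
    have h1 : e1 b b = 1 := by simp [e1]
    omega

/-- general level reindexing: `x ↦ x + D` -/
theorem level_gen (c : Fin n → ℕ) (R S : Fin m → ℕ) (D : Fin m → Fin n → ℕ)
    (hD : ∀ j, ∑ a, D j a = S j) (F : (Fin m → Fin n → ℕ) → ℝ) :
    ∑ x ∈ Om c R, (if (∀ a, ∑ i, (x + D) i a ≤ c a) then F x else 0) =
      ∑ X ∈ Om c (R + S), if (∀ i a, D i a ≤ X i a) then F (X - D) else 0 := by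
  rw [← Finset.sum_filter, ← Finset.sum_filter]
  refine Finset.sum_bij' (fun x _ => x + D) (fun X _ => X - D) ?_ ?_ ?_ ?_ ?_
  · intro x hx
    rw [Finset.mem_filter, mem_Om] at hx ⊢
    refine ⟨⟨fun j => ?_, hx.2⟩, fun i a => by simp⟩
    simp only [Pi.add_apply, Finset.sum_add_distrib, hx.1.1 j, hD j]
  · intro X hX
    rw [Finset.mem_filter, mem_Om] at hX ⊢
    have he : X - D + D = X := sub_add_of_le hX.2
    refine ⟨⟨fun j => ?_, fun a => ?_⟩, ?_⟩
    · have h1 := hX.1.1 j
      have h2 : ∑ a, (X - D + D) j a = R j + S j := by rw [he]; exact h1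
      simp only [Pi.add_apply, Finset.sum_add_distrib, hD j] at h2
      omega
    · refine le_trans (Finset.sum_le_sum fun i _ => ?_) (hX.1.2 a)
      simp only [Pi.sub_apply]
      omega
    · rw [he]; exact hX.1.2
  · intro x hx
    funext i a
    simp
  · intro X hX
    rw [Finset.mem_filter] at hX
    exact sub_add_of_le hX.2
  · intro x hx
    congr 1
    funext i a
    simp

/-- one level up -/
theorem level1 (c : Fin n → ℕ) (R : Fin m → ℕ) (j : Fin m) (b : Fin n)
    (F : (Fin m → Fin n → ℕ) → ℝ) :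
    ∑ x ∈ Om c R, (if ∑ i, x i b < c b then F x else 0) =
      ∑ X ∈ Om c (R + e1 j), if X j b ≠ 0 then F (X - E j b) else 0 := by
  have h := level_gen c R (e1 j) (E j b) (fun i => E_row_sum j i b) F
  simp only [E_le_iff] at h
  rw [← h]
  refine Finset.sum_congr rfl fun x hx => ?_
  refine if_congr ?_ rfl rfl
  rw [avail_iff hx j b, add_E_mem]
  rw [mem_Om] at hx
  constructor
  · exact fun h => h.2
  · exact fun h => ⟨hx.1, h⟩

/-- two levels up -/
theorem level2 (c : Fin n → ℕ) (R : Fin m → ℕ) (j k : Fin m) (b b' : Fin n)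
    (F : (Fin m → Fin n → ℕ) → ℝ) :
    ∑ x ∈ Om c R, (if (∀ a, ∑ i, (x + E j b + E k b') i a ≤ c a) then F x else 0) =
      ∑ X ∈ Om c (R + e1 j + e1 k),
        if (∀ i a, (E j b + E k b') i a ≤ X i a) then F (X - E j b - E k b') else 0 := by
  have h := level_gen c R (e1 j + e1 k) (E j b + E k b')
    (fun i => by simp only [Pi.add_apply, Finset.sum_add_distrib, E_row_sum]) F
  simp only [← add_assoc] at h
  rw [h]
  refine Finset.sum_congr rfl fun x hx => ?_
  refine if_congr Iff.rfl ?_ rfl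
  congr 1
  funext i a
  simp only [Pi.add_apply, Pi.sub_apply]
  omega

/-- the flux seen from the upper level -/
theorem V_level (u : (Fin m → Fin n → ℕ) → ℝ) {j : Fin m} {b : Fin n} {X : Fin m → Fin n → ℕ}
    (hb : X j b ≠ 0) :
    V u j b (X - E j b) = (X j b : ℝ) * ∑ a, (X j a : ℝ) * (u (X - E j a) - u (X - E j b)) := by
  have he : X - E j b + E j b = X := sub_add_of_le (E_le_iff.2 hb)
  unfold V
  rw [he]
  congr 1
  have h1 : (X - E j b) j b = X j b - 1 := by simp [E_self]
  rw [h1]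
  have : 1 ≤ X j b := Nat.one_le_iff_ne_zero.2 hb
  push_cast [Nat.cast_sub this]
  ring

/-- the fluxes at an upper level state add up to zero -/
theorem V_level_sum (u : (Fin m → Fin n → ℕ) → ℝ) (j : Fin m) (X : Fin m → Fin n → ℕ) :
    ∑ b, (if X j b ≠ 0 then V u j b (X - E j b) else 0) = 0 := by
  have h : ∀ b, (if X j b ≠ 0 then V u j b (X - E j b) else 0) =
      (X j b : ℝ) * ∑ a, (X j a : ℝ) * (u (X - E j a) - u (X - E j b)) := by
    intro b
    split_ifs with hb
    · exact V_level u hb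
    · rw [not_not] at hb
      rw [hb]; simp
  simp only [h]
  have h2 : ∑ b, (X j b : ℝ) * ∑ a, (X j a : ℝ) * (u (X - E j a) - u (X - E j b)) =
      ∑ b, ∑ a, (X j b : ℝ) * ((X j a : ℝ) * u (X - E j a)) -
      ∑ b, ∑ a, (X j b : ℝ) * ((X j a : ℝ) * u (X - E j b)) := by
    rw [← Finset.sum_sub_distrib]
    refine Finset.sum_congr rfl fun b _ => ?_
    rw [Finset.mul_sum, ← Finset.sum_sub_distrib]
    refine Finset.sum_congr rfl fun a _ => ?_
    ring
  rw [h2, sub_eq_zero, Finset.sum_comm]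
  refine Finset.sum_congr rfl fun b _ => Finset.sum_congr rfl fun a _ => ?_
  ring

end Vale.Agent.P328
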