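import Vale.Agent.Lib.P328.Defs
import Vale.Agent.Lib.P328.Lvl

/-!
P328 M3: the own term of a row dominates the edge energy of the fluxes (Hilbert-Schmidt identity).
-/

namespace Vale.Agent.P328

open Finset

section abstract_part

variable {ι : Type*} [Fintype ι] [DecidableEq ι]

/-- weighted variance bound -/
theorem M3_var (w : ι → ℝ) (hw : ∀ a, 0 ≤ w a) (f : ι → ℝ) (hf : ∑ a, w a * f a = 0) (c : ι) :
    ∑ a, w a * w c * (f a - f c) ^ 2 ≤ (∑ a, w a) * ∑ a, w a * f a ^ 2 := by
  have h1 : ∑ a, ∑ b, w a * w b * (f a - f b) ^ 2 = 2 * ((∑ a, w a) * ∑ a, w a * f a ^ 2) := by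
    have e : ∀ a b, w a * w b * (f a - f b) ^ 2 =
        (w a * f a ^ 2) * w b + w a * (w b * f b ^ 2) - 2 * ((w a * f a) * (w b * f b)) := by
      intro a b; ring
    simp only [e, Finset.sum_sub_distrib, Finset.sum_add_distrib, ← Finset.mul_sum,
      ← Finset.sum_mul, hf]
    ring
  have h2 : ∀ a b, 0 ≤ w a * w b * (f a - f b) ^ 2 := fun a b =>
    mul_nonneg (mul_nonneg (hw a) (hw b)) (sq_nonneg _)
  have h3 : 2 * ∑ a, w a * w c * (f a - f c) ^ 2 ≤ ∑ a, ∑ b, w a * w b * (f a - f b) ^ 2 := by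
    have h7 := Finset.add_sum_erase Finset.univ (fun a => ∑ b, w a * w b * (f a - f b) ^ 2)
      (Finset.mem_univ c)
    have h4 : ∑ b, w c * w b * (f c - f b) ^ 2 = ∑ a, w a * w c * (f a - f c) ^ 2 :=
      Finset.sum_congr rfl fun b _ => by ring
    have h5 : ∑ a, w a * w c * (f a - f c) ^ 2 ≤
        ∑ a ∈ Finset.univ.erase c, ∑ b, w a * w b * (f a - f b) ^ 2 := by
      rw [← Finset.add_sum_erase _ _ (Finset.mem_univ c)]
      have h6 : w c * w c * (f c - f c) ^ 2 = 0 := by ring
      rw [h6, zero_add]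
      refine Finset.sum_le_sum fun a _ => ?_
      exact Finset.single_le_sum (f := fun b => w a * w b * (f a - f b) ^ 2)
        (fun b _ => h2 a b) (Finset.mem_univ c)
    linarith
  linarith

/-- n_c minus the indicator of b = c -/
noncomputable def M3_M (w : ι → ℕ) (b c : ι) : ℝ := (w c : ℝ) - if b = c then 1 else 0

noncomputable def M3_S (w : ι → ℕ) (U : ι → ι → ℝ) (b : ι) : ℝ := ∑ a, M3_M w b a * U b a

noncomputable def M3_D (w : ι → ℕ) (U : ι → ι → ℝ) (b c : ι) : ℝ :=
  if w b = 0 then 0 else M3_M w b c * (M3_S w U b - ((∑ a, (w a : ℝ)) - 1) * U b c)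

theorem M3_M_sum (w : ι → ℕ) (b : ι) : ∑ c, M3_M w b c = (∑ a, (w a : ℝ)) - 1 := by
  unfold M3_M
  rw [Finset.sum_sub_distrib]
  simp

theorem M3_D_sum (w : ι → ℕ) (U : ι → ι → ℝ) (b : ι) : ∑ c, M3_D w U b c = 0 := by
  unfold M3_D
  by_cases hb : w b = 0
  · simp [hb]
  · simp only [hb, if_false, mul_sub, Finset.sum_sub_distrib]
    rw [← Finset.sum_mul, M3_M_sum]
    have : ∑ x, M3_M w b x * (((∑ a, (w a : ℝ)) - 1) * U b x) =
        ((∑ a, (w a : ℝ)) - 1) * M3_S w U b := by
      unfold M3_S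
      rw [Finset.mul_sum]
      exact Finset.sum_congr rfl fun x _ => by ring
    rw [this]
    ring

theorem M3_D_zero_right (w : ι → ℕ) (U : ι → ι → ℝ) {b c : ι} (hc : w c = 0) :
    M3_D w U b c = 0 := by
  unfold M3_D
  by_cases hb : w b = 0
  · simp [hb]
  · have hbc : b ≠ c := by
      rintro rfl; exact hb hc
    simp [hb, M3_M, hc, hbc]

theorem M3_mu (w : ι → ℕ) (U : ι → ι → ℝ) (hU : ∀ b c, U b c = U c b) (c : ι) :
    ∑ a, (w a : ℝ) * M3_D w U a c =
      (w c : ℝ) * ((∑ a, (w a : ℝ) * M3_S w U a) - (∑ a, (w a : ℝ)) * M3_S w U c) := by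
  by_cases hc : w c = 0
  · have : ∀ a, (w a : ℝ) * M3_D w U a c = 0 := fun a => by
      rw [M3_D_zero_right w U hc, mul_zero]
    simp [this, hc]
  · have key : ∀ a, (w a : ℝ) * M3_D w U a c =
        (w c : ℝ) * (M3_M w c a * (M3_S w U a - ((∑ a, (w a : ℝ)) - 1) * U c a)) := by
      intro a
      unfold M3_D
      by_cases ha : w a = 0
      · have hca : c ≠ a := by
          rintro rfl; exact hc ha
        simp [ha, M3_M, hca]
      · simp only [ha, if_false]
        unfold M3_M
        by_cases hac : a = c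
        · subst hac; simp
        · have hca : c ≠ a := fun h => hac h.symm
          simp only [hac, hca, if_false, hU a c]
          ring
    simp only [key, ← Finset.mul_sum]
    congr 1
    have h1 : ∑ a, M3_M w c a * (M3_S w U a - ((∑ a, (w a : ℝ)) - 1) * U c a) =
        ∑ a, M3_M w c a * M3_S w U a - ((∑ a, (w a : ℝ)) - 1) * M3_S w U c := by
      conv_rhs => rw [show M3_S w U c = ∑ a, M3_M w c a * U c a from rfl]
      rw [Finset.mul_sum, ← Finset.sum_sub_distrib]
      exact Finset.sum_congr rfl fun a _ => by ring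
    have h2 : ∑ a, M3_M w c a * M3_S w U a = (∑ a, (w a : ℝ) * M3_S w U a) - M3_S w U c := by
      unfold M3_M
      simp only [sub_mul, Finset.sum_sub_distrib]
      simp
    rw [h1, h2]
    ring

theorem M3_abs (w : ι → ℕ) (U : ι → ι → ℝ) (hU : ∀ b c, U b c = U c b) :
    ∑ c, ∑ a, (if a ≠ c ∧ w a ≠ 0 ∧ w c ≠ 0 then (M3_D w U a c - M3_D w U c c) ^ 2 else 0) ≤
      (∑ a, (w a : ℝ)) * ∑ b, ∑ c, M3_D w U b c * M3_D w U c b := by
  set N : ℝ := ∑ a, (w a : ℝ) with hN
  have hN0 : 0 ≤ N := Finset.sum_nonneg fun a _ => Nat.cast_nonneg _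
  rcases hN0.eq_or_lt with hz | hpos
  · have hw : ∀ a, w a = 0 := by
      intro a
      have := (Finset.sum_eq_zero_iff_of_nonneg (fun a _ => Nat.cast_nonneg (w a))).1 hz.symm a (Finset.mem_univ a)
      exact_mod_cast this
    rw [← hz, zero_mul]
    refine le_of_eq ?_
    refine Finset.sum_eq_zero fun c _ => Finset.sum_eq_zero fun a _ => ?_
    simp [hw]
  set D := M3_D w U with hD
  set S := M3_S w U with hS
  set σ : ℝ := ∑ a, (w a : ℝ) * S a with hσ
  set μ : ι → ℝ := fun c => (w c : ℝ) * (σ / N - S c) with hμ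
  have hmu : ∀ c, ∑ a, (w a : ℝ) * D a c = N * μ c := by
    intro c
    have h := M3_mu w U hU c
    rw [← hN, ← hD, ← hS, ← hσ] at h
    rw [h]
    simp only [hμ]
    field_simp
  have hμ0 : ∀ c, w c = 0 → μ c = 0 := by
    intro c hc; simp [hμ, hc]
  have hDb : ∀ b c, w b = 0 → D b c = 0 := by
    intro b c hb; simp [hD, M3_D, hb]
  have hDc : ∀ b c, w c = 0 → D b c = 0 := fun b c hc => M3_D_zero_right w U hc
  have hμsum : ∑ c, μ c = 0 := by
    have h1 : N * ∑ c, μ c = 0 := by
      rw [Finset.mul_sum]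
      simp only [← hmu]
      rw [Finset.sum_comm]
      refine Finset.sum_eq_zero fun a _ => ?_
      rw [← Finset.mul_sum, hD, M3_D_sum, mul_zero]
    rcases mul_eq_zero.1 h1 with h | h
    · exact absurd h hpos.ne'
    · exact h
  set Z : ι → ι → ℝ := fun b c => if w b = 0 then 0 else D b c - μ c with hZ
  have hZc : ∀ b c, w c = 0 → Z b c = 0 := by
    intro b c hc
    simp only [hZ, hDc b c hc, hμ0 c hc]
    simp
  have hprod : ∀ b c, Z b c * Z c b = (D b c - μ c) * (D c b - μ b) := by
    intro b c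
    by_cases hb : w b = 0
    · rw [hZc c b hb, mul_zero, hDb b c hb, hDc c b hb, hμ0 b hb]
      ring
    · by_cases hc : w c = 0
      · rw [hZc b c hc, zero_mul, hDc b c hc, hμ0 c hc]
        ring
      · simp [hZ, hb, hc]
  have hZZ : ∑ b, ∑ c, Z b c * Z c b = ∑ b, ∑ c, D b c * D c b := by
    simp only [hprod]
    have e : ∀ b c, (D b c - μ c) * (D c b - μ b) =
        D b c * D c b - μ b * D b c - μ c * D c b + μ c * μ b := by
      intro b c; ring
    simp only [e, Finset.sum_sub_distrib, Finset.sum_add_distrib]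
    have h1 : ∑ b, ∑ c, μ b * D b c = 0 := by
      refine Finset.sum_eq_zero fun b _ => ?_
      rw [← Finset.mul_sum, hD, M3_D_sum, mul_zero]
    have h2 : ∑ b, ∑ c, μ c * D c b = 0 := by
      rw [Finset.sum_comm]; exact h1
    have h3 : ∑ b, ∑ c, μ c * μ b = 0 := by
      refine Finset.sum_eq_zero fun b _ => ?_
      rw [← Finset.sum_mul, hμsum, zero_mul]
    rw [h1, h2, h3]
    ring
  have hsym : ∀ b c, (w b : ℝ) * Z b c = (w c : ℝ) * Z c b := by
    intro b c
    by_cases hb : w b = 0
    · rw [hZc c b hb]; simp [hb]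
    · by_cases hc : w c = 0
      · rw [hZc b c hc]; simp [hc]
      · by_cases hbc : b = c
        · subst hbc; rfl
        · have hcb : c ≠ b := fun h => hbc h.symm
          simp only [hZ, hb, hc, if_false, hD, M3_D, M3_M, hbc, hcb, hμ, hU c b]
          rw [← hN, ← hS]
          ring
  have hcol : ∀ c, ∑ b, (w b : ℝ) * Z b c = 0 := by
    intro c
    have h1 : ∀ b, (w b : ℝ) * Z b c = (w b : ℝ) * D b c - (w b : ℝ) * μ c := by
      intro b
      by_cases hb : w b = 0
      · simp [hb]
      · simp [hZ, hb]; ring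
    simp only [h1, Finset.sum_sub_distrib]
    rw [hmu c, ← Finset.sum_mul, ← hN]
    ring
  have hT : ∀ c, w c ≠ 0 → ∑ b, Z b c * Z c b = (1 / (w c : ℝ)) * ∑ b, (w b : ℝ) * Z b c ^ 2 := by
    intro c hc
    rw [Finset.mul_sum]
    refine Finset.sum_congr rfl fun b _ => ?_
    have hc' : (w c : ℝ) ≠ 0 := by exact_mod_cast hc
    have h1 : Z c b = (w b : ℝ) * Z b c / (w c : ℝ) := by
      rw [eq_div_iff hc', mul_comm, ← hsym b c]
    rw [h1]
    field_simp
  rw [← hZZ, Finset.sum_comm (f := fun b c => Z b c * Z c b), Finset.mul_sum]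
  refine Finset.sum_le_sum fun c _ => ?_
  by_cases hc : w c = 0
  · have h1 : ∑ a, (if a ≠ c ∧ w a ≠ 0 ∧ w c ≠ 0 then (D a c - D c c) ^ 2 else 0) = 0 := by
      refine Finset.sum_eq_zero fun a _ => ?_
      simp [hc]
    rw [h1]
    have h2 : ∑ b, Z b c * Z c b = 0 := by
      refine Finset.sum_eq_zero fun b _ => ?_
      rw [hZc b c hc, zero_mul]
    rw [h2, mul_zero]
  · have hcpos : (1 : ℝ) ≤ (w c : ℝ) := by exact_mod_cast Nat.one_le_iff_ne_zero.2 hc
    have hv := M3_var (fun a => (w a : ℝ)) (fun a => Nat.cast_nonneg _) (fun a => Z a c) (hcol c) c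
    rw [hT c hc]
    have h3 : N * (1 / (w c : ℝ) * ∑ b, (w b : ℝ) * Z b c ^ 2) =
        (1 / (w c : ℝ)) * (N * ∑ b, (w b : ℝ) * Z b c ^ 2) := by ring
    rw [h3]
    have h4 : ∑ a, (if a ≠ c ∧ w a ≠ 0 ∧ w c ≠ 0 then (D a c - D c c) ^ 2 else 0) ≤
        (1 / (w c : ℝ)) * ∑ a, (w a : ℝ) * (w c : ℝ) * (Z a c - Z c c) ^ 2 := by
      rw [Finset.mul_sum]
      refine Finset.sum_le_sum fun a _ => ?_
      have h5 : 1 / (w c : ℝ) * ((w a : ℝ) * (w c : ℝ) * (Z a c - Z c c) ^ 2) =
          (w a : ℝ) * (Z a c - Z c c) ^ 2 := by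
        field_simp
      rw [h5]
      split_ifs with h
      · have ha : (1 : ℝ) ≤ (w a : ℝ) := by exact_mod_cast Nat.one_le_iff_ne_zero.2 h.2.1
        have h6 : Z a c - Z c c = D a c - D c c := by
          simp only [hZ, h.2.1, hc, if_false]
          ring
        rw [h6]
        nlinarith [sq_nonneg (D a c - D c c)]
      · exact mul_nonneg (Nat.cast_nonneg _) (sq_nonneg _)
    refine h4.trans ?_
    exact mul_le_mul_of_nonneg_left hv (by positivity)

end abstract_part

variable {m n : ℕ}

theorem M3_D_eq (u : (Fin m → Fin n → ℕ) → ℝ) (j : Fin m) (X : Fin m → Fin n → ℕ) (b c : Fin n)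
    (h : ∀ i a, (E j b + E j c) i a ≤ X i a) :
    V u j c (X - E j b - E j c) = M3_D (X j) (fun b c => u (X - E j b - E j c)) b c := by
  have hb : 1 ≤ X j b := by
    have := h j b
    simp only [Pi.add_apply, E_self] at this
    omega
  have hc : (X - E j b) j c ≠ 0 := by
    have := h j c
    simp only [Pi.add_apply, E_self] at this
    simp only [Pi.sub_apply]
    omega
  have hb0 : X j b ≠ 0 := by omega
  have hcast : ∀ a, (((X - E j b) j a : ℕ) : ℝ) = M3_M (X j) b a := by
    intro a
    unfold M3_M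
    simp only [Pi.sub_apply, E_apply, true_and]
    by_cases hab : a = b
    · subst hab
      simp only [if_true]
      push_cast [Nat.cast_sub hb]
      ring
    · have hba : b ≠ a := fun h => hab h.symm
      simp [hab, hba]
  rw [V_level u hc]
  unfold M3_D
  rw [if_neg hb0, hcast c]
  congr 1
  simp only [hcast, mul_sub, Finset.sum_sub_distrib]
  rw [← Finset.sum_mul, M3_M_sum]
  rfl

theorem M3_cond_false (X : Fin m → Fin n → ℕ) (U : Fin n → Fin n → ℝ) (j : Fin m) (b c : Fin n)
    (h : ¬ ∀ i a, (E j b + E j c) i a ≤ X i a) :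
    M3_D (X j) U b c = 0 := by
  by_cases hb : X j b = 0
  · simp [M3_D, hb]
  by_cases hc : X j c = 0
  · exact M3_D_zero_right _ _ hc
  by_cases hbc : b = c
  · subst hbc
    have h1 : X j b = 1 := by
      by_contra h1
      apply h
      intro i a
      simp only [Pi.add_apply, E_apply]
      by_cases hi : i = j ∧ a = b
      · rw [hi.1, hi.2]; simp; omega
      · simp [hi]
    simp [M3_D, M3_M, h1]
  · exfalso
    apply h
    intro i a
    simp only [Pi.add_apply, E_apply]
    by_cases hi : i = j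
    · subst hi
      by_cases hab : a = b
      · subst hab; simp [hbc]; omega
      · by_cases hac : a = c
        · subst hac; simp [hab]; omega
        · simp [hab, hac]
    · simp [hi]

theorem M3_NN (c : Fin n → ℕ) (R : Fin m → ℕ) (u : (Fin m → Fin n → ℕ) → ℝ) (j : Fin m) :
    NN c R u j j = ∑ X ∈ Om c (R + e1 j + e1 j), ∑ b, ∑ b',
      M3_D (X j) (fun b c => u (X - E j b - E j c)) b b' *
        M3_D (X j) (fun b c => u (X - E j b - E j c)) b' b := by
  unfold NN
  rw [Finset.sum_comm, Finset.sum_comm (s := Om c (R + e1 j + e1 j))]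
  refine Finset.sum_congr rfl fun b _ => ?_
  rw [Finset.sum_comm, Finset.sum_comm (s := Om c (R + e1 j + e1 j))]
  refine Finset.sum_congr rfl fun b' _ => ?_
  rw [level2 c R j j b b' (fun x => V u j b x * V u j b' x)]
  refine Finset.sum_congr rfl fun X _ => ?_
  split_ifs with h
  · have h' : ∀ i a, (E j b' + E j b) i a ≤ X i a := by
      intro i a; rw [add_comm (E j b')]; exact h i a
    rw [M3_D_eq u j X b b' h]
    have hcomm : X - E j b - E j b' = X - E j b' - E j b := by
      funext i a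
      simp only [Pi.sub_apply]
      omega
    rw [hcomm, M3_D_eq u j X b' b h']
    ring
  · rw [M3_cond_false X _ j b b' h, zero_mul]

theorem M3_HH (c : Fin n → ℕ) (R : Fin m → ℕ) (u : (Fin m → Fin n → ℕ) → ℝ) (j : Fin m) :
    HH c R u j = ∑ X ∈ Om c (R + e1 j + e1 j), ∑ b, ∑ a,
      if a ≠ b ∧ X j a ≠ 0 ∧ X j b ≠ 0 then
        (M3_D (X j) (fun b c => u (X - E j b - E j c)) a b -
          M3_D (X j) (fun b c => u (X - E j b - E j c)) b b) ^ 2 else 0 := by
  unfold HH
  rw [Finset.sum_comm, Finset.sum_comm (s := Om c (R + e1 j + e1 j))]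
  refine Finset.sum_congr rfl fun b _ => ?_
  rw [Finset.sum_comm, Finset.sum_comm (s := Om c (R + e1 j + e1 j))]
  refine Finset.sum_congr rfl fun a _ => ?_
  by_cases hab : a = b
  · simp [hab]
  have h1 : ∑ x ∈ Om c R, (if a ≠ b ∧ ∑ i, x i b < c b ∧ ∑ i, x i a < c a then
      (V u j b x - (if x j b = 0 then 0 else V u j b (x + E j a - E j b))) ^ 2 else 0) =
      ∑ x ∈ Om c R, (if (∀ a', ∑ i, (x + E j a + E j b) i a' ≤ c a') then
      (V u j b x - (if x j b = 0 then 0 else V u j b (x + E j a - E j b))) ^ 2 else 0) := by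
    refine Finset.sum_congr rfl fun x hx => ?_
    refine if_congr ?_ rfl rfl
    rw [mem_Om] at hx
    have hs : ∀ a', ∑ i, (x + E j a + E j b) i a' = ∑ i, x i a' + e1 a a' + e1 b a' := by
      intro a'
      simp only [Pi.add_apply, Finset.sum_add_distrib, E_col_sum]
    simp only [hs]
    constructor
    · rintro ⟨_, h2, h3⟩ a'
      have h4 := hx.2 a'
      unfold e1
      by_cases ha : a' = a
      · subst ha; simp [hab]; omega
      · by_cases hb : a' = b
        · subst hb; simp [ha]; omega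
        · simp [ha, hb]; omega
    · intro h
      refine ⟨hab, ?_, ?_⟩
      · have := h b
        unfold e1 at this
        simp at this
        omega
      · have := h a
        unfold e1 at this
        simp at this
        omega
  rw [h1, level2 c R j j a b
    (fun x => (V u j b x - (if x j b = 0 then 0 else V u j b (x + E j a - E j b))) ^ 2)]
  refine Finset.sum_congr rfl fun X _ => ?_
  have hcond : (∀ i a', (E j a + E j b) i a' ≤ X i a') ↔ (a ≠ b ∧ X j a ≠ 0 ∧ X j b ≠ 0) := by
    constructor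
    · intro h
      refine ⟨hab, ?_, ?_⟩
      · have := h j a
        simp only [Pi.add_apply, E_self] at this
        omega
      · have := h j b
        simp only [Pi.add_apply, E_self] at this
        omega
    · rintro ⟨_, h2, h3⟩ i a'
      simp only [Pi.add_apply, E_apply]
      by_cases hi : i = j
      · subst hi
        by_cases ha : a' = a
        · subst ha; simp [hab]; omega
        · by_cases hb : a' = b
          · subst hb; simp [ha]; omega
          · simp [ha, hb]
      · simp [hi]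
  rw [if_congr hcond rfl rfl]
  by_cases h : a ≠ b ∧ X j a ≠ 0 ∧ X j b ≠ 0
  · have h' := hcond.2 h
    rw [if_pos h, if_pos h, M3_D_eq u j X a b h']
    congr 2
    have hXb : (X - E j a - E j b) j b = X j b - 1 := by
      simp only [Pi.sub_apply, E_self, E_ne_col (fun h => hab h.symm : b ≠ a)]
      omega
    rw [hXb]
    by_cases h2 : X j b - 1 = 0
    · rw [if_pos h2, M3_cond_false]
      intro h3
      have := h3 j b
      simp only [Pi.add_apply, E_self] at this
      omega
    · rw [if_neg h2]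
      have h4 : X - E j a - E j b + E j a - E j b = X - E j b - E j b := by
        funext i a'
        have := h' i a'
        simp only [Pi.add_apply, Pi.sub_apply] at this ⊢
        omega
      rw [h4]
      refine M3_D_eq u j X b b ?_
      intro i a'
      simp only [Pi.add_apply, E_apply]
      by_cases hi : i = j ∧ a' = b
      · rw [hi.1, hi.2]; simp; omega
      · simp [hi]
  · rw [if_neg h, if_neg h]

/-- M3 -/
theorem M3_own (c : Fin n → ℕ) (R : Fin m → ℕ) (u : (Fin m → Fin n → ℕ) → ℝ) (j : Fin m) :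
    HH c R u j ≤ ((R j : ℝ) + 2) * NN c R u j j := by
  rw [M3_HH, M3_NN, Finset.mul_sum]
  refine Finset.sum_le_sum fun X hX => ?_
  have hN : ∑ a, ((X j a : ℕ) : ℝ) = (R j : ℝ) + 2 := by
    rw [mem_Om] at hX
    have := hX.1 j
    have h1 : (R + e1 j + e1 j) j = R j + 2 := by simp [e1]
    rw [h1] at this
    rw [← Nat.cast_sum, this]
    push_cast
    ring
  have h := M3_abs (X j) (fun b c => u (X - E j b - E j c)) (fun b c => by
    congr 1
    funext i a
    simp only [Pi.sub_apply]
    omega)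
  rw [hN] at h
  exact h

end Vale.Agent.P328
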