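import Vale.Agent.Lib.P328.M5

/-!
P328, module M4, part 2 of the one-row Hardy inequality.
-/

namespace Vale.Agent.P328

open Finset

variable {n : ℕ}

theorem M4b_inj {ι : Type*} [DecidableEq ι] (s t : Finset ι) (φ : ι → ι) (hmaps : ∀ y ∈ s, φ y ∈ t)
    (hinj : Set.InjOn φ s) (F : ι → ℝ) (hF : ∀ y ∈ t, 0 ≤ F y) :
    ∑ y ∈ s, F (φ y) ≤ ∑ y ∈ t, F y := by
  rw [← Finset.sum_image hinj]
  exact Finset.sum_le_sum_of_subset_of_nonneg (Finset.image_subset_iff.2 hmaps)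
    (fun y hy _ => hF y hy)

/-- edge energy -/
noncomputable def M4H (d : Fin n → ℕ) (r : ℕ) (b : Fin n) (W : (Fin n → ℕ) → ℝ) : ℝ :=
  ∑ y ∈ X d r, ∑ a, if a ≠ b ∧ y b < d b ∧ y a < d a then
        (W y - (if y b = 0 then 0 else W (y + e1 a - e1 b))) ^ 2 else 0

noncomputable def M4T (d : Fin n → ℕ) (r : ℕ) (b p : Fin n) (W : (Fin n → ℕ) → ℝ) (s : ℕ) : ℝ :=
  ∑ y ∈ X d r, if y b < d b ∧ y b + y p = s then
    (∑ a, if a ≠ b ∧ a ≠ p then ((y a : ℝ) + 1) * ((d a : ℝ) - y a) else 0) * W y ^ 2 else 0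

noncomputable def M4T' (d : Fin n → ℕ) (r : ℕ) (b p : Fin n) (W : (Fin n → ℕ) → ℝ) (s : ℕ) : ℝ :=
  ∑ y ∈ X d r, if y b < d b ∧ y b + y p = s then
    (∑ a, if a ≠ b ∧ a ≠ p then (y a : ℝ) * ((d a : ℝ) - y a + 1) else 0) * W y ^ 2 else 0

theorem M4H_nonneg (d : Fin n → ℕ) (r : ℕ) (b : Fin n) (W : (Fin n → ℕ) → ℝ) : 0 ≤ M4H d r b W := by
  unfold M4H
  refine Finset.sum_nonneg fun y _ => Finset.sum_nonneg fun a _ => ?_
  split_ifs
  · exact sq_nonneg _
  · exact sq_nonneg _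
  · exact le_refl _

theorem M4b_sum_off (b p : Fin n) (hbp : b ≠ p) (f : Fin n → ℝ) :
    ∑ a, (if a ≠ b ∧ a ≠ p then f a else 0) = ∑ a, f a - f b - f p := by
  have h1 : ∀ a, (if a ≠ b ∧ a ≠ p then f a else 0) =
      f a - (if a = b then f a else 0) - (if a = p then f a else 0) := by
    intro a
    by_cases hab : a = b
    · subst hab
      simp [hbp]
    · by_cases hap : a = p
      · subst hap
        simp [hab]
      · simp [hab, hap]
  simp only [h1, Finset.sum_sub_distrib, Finset.sum_ite_eq', Finset.mem_univ, if_true]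

theorem M4b_B_le_A (d : Fin n → ℕ) (r : ℕ) (hr : 2 * r + 1 ≤ ∑ a, d a) (b p : Fin n) (hbp : b ≠ p)
    (hd : d b ≤ d p) (y : Fin n → ℕ) (hy : y ∈ X d r) (hs : d p ≤ y b + y p) :
    (∑ a, if a ≠ b ∧ a ≠ p then (y a : ℝ) * ((d a : ℝ) - y a + 1) else 0) ≤
    (∑ a, if a ≠ b ∧ a ≠ p then ((y a : ℝ) + 1) * ((d a : ℝ) - y a) else 0) ∧
    1 ≤ (∑ a, if a ≠ b ∧ a ≠ p then ((y a : ℝ) + 1) * ((d a : ℝ) - y a) else 0) := by
  rw [M5_mem_X] at hy
  have hsum : (∑ a, (y a : ℝ)) = r := by exact_mod_cast hy.2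
  have hrR : 2 * (r : ℝ) + 1 ≤ ∑ a, (d a : ℝ) := by exact_mod_cast hr
  have hdR : (d b : ℝ) ≤ d p := by exact_mod_cast hd
  have hsR : (d p : ℝ) ≤ y b + y p := by exact_mod_cast hs
  have e1 : (∑ a, if a ≠ b ∧ a ≠ p then ((d a : ℝ) - 2 * y a) else 0) =
      ∑ a, (d a : ℝ) - 2 * r - ((d b : ℝ) - 2 * y b) - ((d p : ℝ) - 2 * y p) := by
    rw [M4b_sum_off b p hbp, Finset.sum_sub_distrib, ← Finset.mul_sum, hsum]
  have e2 : (∑ a, if a ≠ b ∧ a ≠ p then ((d a : ℝ) - y a) else 0) =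
      ∑ a, (d a : ℝ) - r - ((d b : ℝ) - y b) - ((d p : ℝ) - y p) := by
    rw [M4b_sum_off b p hbp, Finset.sum_sub_distrib, hsum]
  have hyr : y b + y p ≤ r := by
    rw [← hy.2]
    have h1 := Finset.add_le_sum (s := Finset.univ) (f := y) (fun i _ => Nat.zero_le _)
      (Finset.mem_univ b) (Finset.mem_univ p) hbp
    exact h1
  have hyrR : (y b : ℝ) + y p ≤ r := by exact_mod_cast hyr
  constructor
  · have e3 : (∑ a, if a ≠ b ∧ a ≠ p then ((y a : ℝ) + 1) * ((d a : ℝ) - y a) else 0) -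
        (∑ a, if a ≠ b ∧ a ≠ p then (y a : ℝ) * ((d a : ℝ) - y a + 1) else 0) =
        (∑ a, if a ≠ b ∧ a ≠ p then ((d a : ℝ) - 2 * y a) else 0) := by
      rw [← Finset.sum_sub_distrib]
      refine Finset.sum_congr rfl fun a _ => ?_
      split_ifs
      · ring
      · ring
    have : 0 ≤ (∑ a, if a ≠ b ∧ a ≠ p then ((d a : ℝ) - 2 * y a) else 0) := by
      rw [e1]; linarith
    linarith
  · have h3 : (∑ a, if a ≠ b ∧ a ≠ p then ((d a : ℝ) - y a) else 0) ≤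
        (∑ a, if a ≠ b ∧ a ≠ p then ((y a : ℝ) + 1) * ((d a : ℝ) - y a) else 0) := by
      refine Finset.sum_le_sum fun a _ => ?_
      split_ifs
      · have h4 : (y a : ℝ) ≤ d a := by exact_mod_cast hy.1 a
        have h5 : (0 : ℝ) ≤ y a := Nat.cast_nonneg _
        nlinarith [mul_nonneg h5 (sub_nonneg.2 h4)]
      · exact le_refl _
    rw [e2] at h3
    linarith

theorem M4b_B_le (d : Fin n → ℕ) (r N : ℕ) (hN : ∑ a, d a ≤ N) (b p : Fin n)
    (y : Fin n → ℕ) (hy : y ∈ X d r) :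
    (∑ a, if a ≠ b ∧ a ≠ p then (y a : ℝ) * ((d a : ℝ) - y a + 1) else 0) ≤ (r : ℝ) * N := by
  rw [M5_mem_X] at hy
  have hsum : (∑ a, (y a : ℝ)) = r := by exact_mod_cast hy.2
  rw [← hsum, Finset.sum_mul]
  refine Finset.sum_le_sum fun a _ => ?_
  have h1 : (y a : ℝ) ≤ d a := by exact_mod_cast hy.1 a
  have h2 : d a ≤ N := le_trans (Finset.single_le_sum (f := d) (fun i _ => Nat.zero_le _)
    (Finset.mem_univ a)) hN
  have h2R : (d a : ℝ) ≤ N := by exact_mod_cast h2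
  have h5 : (0 : ℝ) ≤ y a := Nat.cast_nonneg _
  split_ifs
  · rcases Nat.eq_zero_or_pos (y a) with h0 | h0
    · rw [h0]; simp
    · have h6 : (1 : ℝ) ≤ y a := by exact_mod_cast h0
      refine mul_le_mul_of_nonneg_left ?_ h5
      linarith
  · exact mul_nonneg h5 (le_trans (le_trans h5 h1) h2R)

/-- one step of the recursion -/
theorem M4b_step (d : Fin n → ℕ) (r N : ℕ) (hN : ∑ a, d a ≤ N) (b p : Fin n) (hbp : b ≠ p)
    (W : (Fin n → ℕ) → ℝ) (s : ℕ) :
    M4T d r b p W (s + 1) ≤ (1 + 1 / ((r : ℝ) + 1)) * M4T' d r b p W s +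
      ((r : ℝ) + 2) * (((r : ℝ) + 1) * N) * M4H d r b W := by
  classical
  have hr1 : (0 : ℝ) < (r : ℝ) + 1 := by positivity
  -- pointwise inequality
  have hpt : ∀ v w : ℝ, v ^ 2 ≤ (1 + 1 / ((r : ℝ) + 1)) * w ^ 2 + ((r : ℝ) + 2) * (v - w) ^ 2 := by
    intro v w
    have h1 : (1 + 1 / ((r : ℝ) + 1)) * w ^ 2 + ((r : ℝ) + 2) * (v - w) ^ 2 - v ^ 2 =
        (w - ((r : ℝ) + 1) * (v - w)) ^ 2 / ((r : ℝ) + 1) := by
      field_simp
      ring
    have h2 : 0 ≤ (w - ((r : ℝ) + 1) * (v - w)) ^ 2 / ((r : ℝ) + 1) := by positivity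
    linarith
  -- expand
  have e1' : M4T d r b p W (s + 1) = ∑ a, ∑ y ∈ X d r,
      if (a ≠ b ∧ a ≠ p) ∧ y b < d b ∧ y b + y p = s + 1 then
        ((y a : ℝ) + 1) * ((d a : ℝ) - y a) * W y ^ 2 else 0 := by
    unfold M4T
    rw [Finset.sum_comm]
    refine Finset.sum_congr rfl fun y _ => ?_
    by_cases hy : y b < d b ∧ y b + y p = s + 1
    · rw [if_pos hy, Finset.sum_mul]
      refine Finset.sum_congr rfl fun a _ => ?_
      by_cases ha : a ≠ b ∧ a ≠ p
      · rw [if_pos ha, if_pos ⟨ha, hy⟩]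
      · rw [if_neg ha, if_neg (fun h => ha h.1), zero_mul]
    · rw [if_neg hy]
      symm
      refine Finset.sum_eq_zero fun a _ => ?_
      rw [if_neg (fun h => hy h.2)]
  have e2' : M4T' d r b p W s = ∑ a, ∑ y ∈ X d r,
      if (a ≠ b ∧ a ≠ p) ∧ y b < d b ∧ y b + y p = s then
        (y a : ℝ) * ((d a : ℝ) - y a + 1) * W y ^ 2 else 0 := by
    unfold M4T'
    rw [Finset.sum_comm]
    refine Finset.sum_congr rfl fun y _ => ?_
    by_cases hy : y b < d b ∧ y b + y p = s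
    · rw [if_pos hy, Finset.sum_mul]
      refine Finset.sum_congr rfl fun a _ => ?_
      by_cases ha : a ≠ b ∧ a ≠ p
      · rw [if_pos ha, if_pos ⟨ha, hy⟩]
      · rw [if_neg ha, if_neg (fun h => ha h.1), zero_mul]
    · rw [if_neg hy]
      symm
      refine Finset.sum_eq_zero fun a _ => ?_
      rw [if_neg (fun h => hy h.2)]
  have e3' : M4H d r b W = ∑ a, ∑ y ∈ X d r, if a ≠ b ∧ y b < d b ∧ y a < d a then
        (W y - (if y b = 0 then 0 else W (y + e1 a - e1 b))) ^ 2 else 0 := by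
    unfold M4H
    rw [Finset.sum_comm]
  rw [e1', e2', e3', Finset.mul_sum, Finset.mul_sum, ← Finset.sum_add_distrib]
  refine Finset.sum_le_sum fun a _ => ?_
  by_cases ha : a ≠ b ∧ a ≠ p
  swap
  · have h0 : ∑ y ∈ X d r, (if (a ≠ b ∧ a ≠ p) ∧ y b < d b ∧ y b + y p = s + 1 then
        ((y a : ℝ) + 1) * ((d a : ℝ) - y a) * W y ^ 2 else 0) = 0 :=
      Finset.sum_eq_zero fun y _ => by rw [if_neg (fun h => ha h.1)]
    have h0' : ∑ y ∈ X d r, (if (a ≠ b ∧ a ≠ p) ∧ y b < d b ∧ y b + y p = s then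
        (y a : ℝ) * ((d a : ℝ) - y a + 1) * W y ^ 2 else 0) = 0 :=
      Finset.sum_eq_zero fun y _ => by rw [if_neg (fun h => ha h.1)]
    rw [h0, h0', mul_zero, zero_add]
    refine mul_nonneg (by positivity) (Finset.sum_nonneg fun y _ => ?_)
    split_ifs
    · exact sq_nonneg _
    · exact sq_nonneg _
    · exact le_refl _
  -- split
  have hsplit : ∑ y ∈ X d r, (if (a ≠ b ∧ a ≠ p) ∧ y b < d b ∧ y b + y p = s + 1 then
        ((y a : ℝ) + 1) * ((d a : ℝ) - y a) * W y ^ 2 else 0) ≤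
      (1 + 1 / ((r : ℝ) + 1)) * ∑ y ∈ X d r,
        (if (y b < d b ∧ y b + y p = s + 1 ∧ y a < d a ∧ y b ≠ 0) then
        ((y a : ℝ) + 1) * ((d a : ℝ) - y a) * (W (y + e1 a - e1 b)) ^ 2 else 0) +
      ((r : ℝ) + 2) * (((r : ℝ) + 1) * N) * ∑ y ∈ X d r, if a ≠ b ∧ y b < d b ∧ y a < d a then
        (W y - (if y b = 0 then 0 else W (y + e1 a - e1 b))) ^ 2 else 0 := by
    rw [Finset.mul_sum, Finset.mul_sum, ← Finset.sum_add_distrib]
    refine Finset.sum_le_sum fun y hy => ?_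
    rw [M5_mem_X] at hy
    have hyd : (y a : ℝ) ≤ d a := by exact_mod_cast hy.1 a
    have hyr : y a ≤ r := by
      rw [← hy.2]
      exact Finset.single_le_sum (f := y) (fun i _ => Nat.zero_le _) (Finset.mem_univ a)
    have hyrR : (y a : ℝ) ≤ r := by exact_mod_cast hyr
    have hda : d a ≤ N := le_trans (Finset.single_le_sum (f := d) (fun i _ => Nat.zero_le _)
      (Finset.mem_univ a)) hN
    have hdaR : (d a : ℝ) ≤ N := by exact_mod_cast hda
    have hy0 : (0 : ℝ) ≤ y a := Nat.cast_nonneg _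
    have hsecond : 0 ≤ (if a ≠ b ∧ y b < d b ∧ y a < d a then
        (W y - (if y b = 0 then 0 else W (y + e1 a - e1 b))) ^ 2 else 0) := by
      split_ifs
      · exact sq_nonneg _
      · exact sq_nonneg _
      · exact le_refl _
    have hK0 : (0 : ℝ) ≤ ((r : ℝ) + 2) * (((r : ℝ) + 1) * N) := by positivity
    have hfirst : 0 ≤ (if (y b < d b ∧ y b + y p = s + 1 ∧ y a < d a ∧ y b ≠ 0) then
        ((y a : ℝ) + 1) * ((d a : ℝ) - y a) * (W (y + e1 a - e1 b)) ^ 2 else 0) := by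
      split_ifs
      · exact mul_nonneg (mul_nonneg (by positivity) (sub_nonneg.2 hyd)) (sq_nonneg _)
      · exact le_refl _
    by_cases hc : y b < d b ∧ y b + y p = s + 1
    swap
    · rw [if_neg (fun h => hc h.2)]
      exact add_nonneg (mul_nonneg (by positivity) hfirst) (mul_nonneg hK0 hsecond)
    rw [if_pos ⟨ha, hc⟩]
    by_cases hda' : y a < d a
    swap
    · have : (d a : ℝ) - y a = 0 := by
        have h1 : y a = d a := le_antisymm (hy.1 a) (not_lt.1 hda')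
        rw [h1]; ring
      rw [this, mul_zero, zero_mul]
      exact add_nonneg (mul_nonneg (by positivity) (by rw [if_neg (fun h => hda' h.2.2.1)]))
        (mul_nonneg hK0 hsecond)
    have hI2 : (if a ≠ b ∧ y b < d b ∧ y a < d a then
        (W y - (if y b = 0 then 0 else W (y + e1 a - e1 b))) ^ 2 else 0) =
        (W y - (if y b = 0 then 0 else W (y + e1 a - e1 b))) ^ 2 := if_pos ⟨ha.1, hc.1, hda'⟩
    rw [hI2]
    have hkap0 : 0 ≤ ((y a : ℝ) + 1) * ((d a : ℝ) - y a) :=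
      mul_nonneg (by positivity) (sub_nonneg.2 hyd)
    have hkap : ((y a : ℝ) + 1) * ((d a : ℝ) - y a) ≤ ((r : ℝ) + 1) * N := by
      refine mul_le_mul (by linarith) (by linarith) (sub_nonneg.2 hyd) (by positivity)
    by_cases h0 : y b = 0
    · rw [if_neg (fun h => h.2.2.2 h0), if_pos h0, mul_zero, zero_add, sub_zero]
      have h1 := hpt (W y) 0
      have h2 : W y ^ 2 ≤ ((r : ℝ) + 2) * W y ^ 2 := by nlinarith [sq_nonneg (W y)]
      calc ((y a : ℝ) + 1) * ((d a : ℝ) - y a) * W y ^ 2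
          ≤ ((r : ℝ) + 1) * N * (((r : ℝ) + 2) * W y ^ 2) :=
            mul_le_mul hkap h2 (sq_nonneg _) (by positivity)
        _ = ((r : ℝ) + 2) * (((r : ℝ) + 1) * N) * W y ^ 2 := by ring
    · rw [if_pos ⟨hc.1, hc.2, hda', h0⟩, if_neg h0]
      have h1 := hpt (W y) (W (y + e1 a - e1 b))
      calc ((y a : ℝ) + 1) * ((d a : ℝ) - y a) * W y ^ 2
          ≤ ((y a : ℝ) + 1) * ((d a : ℝ) - y a) * ((1 + 1 / ((r : ℝ) + 1)) *
            (W (y + e1 a - e1 b)) ^ 2 + ((r : ℝ) + 2) * (W y - W (y + e1 a - e1 b)) ^ 2) :=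
            mul_le_mul_of_nonneg_left h1 hkap0
        _ = (1 + 1 / ((r : ℝ) + 1)) * (((y a : ℝ) + 1) * ((d a : ℝ) - y a) *
            (W (y + e1 a - e1 b)) ^ 2) + (((y a : ℝ) + 1) * ((d a : ℝ) - y a)) *
            (((r : ℝ) + 2) * (W y - W (y + e1 a - e1 b)) ^ 2) := by ring
        _ ≤ (1 + 1 / ((r : ℝ) + 1)) * (((y a : ℝ) + 1) * ((d a : ℝ) - y a) *
            (W (y + e1 a - e1 b)) ^ 2) + (((r : ℝ) + 1) * N) *
            (((r : ℝ) + 2) * (W y - W (y + e1 a - e1 b)) ^ 2) := by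
            have h3 : (((y a : ℝ) + 1) * ((d a : ℝ) - y a)) *
              (((r : ℝ) + 2) * (W y - W (y + e1 a - e1 b)) ^ 2) ≤ (((r : ℝ) + 1) * N) *
              (((r : ℝ) + 2) * (W y - W (y + e1 a - e1 b)) ^ 2) :=
              mul_le_mul_of_nonneg_right hkap (by positivity)
            linarith
        _ = _ := by ring
  refine le_trans hsplit (add_le_add (mul_le_mul_of_nonneg_left ?_ (by positivity)) (le_refl _))
  -- reindex
  rw [← Finset.sum_filter, ← Finset.sum_filter]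
  have hre : ∑ y ∈ (X d r).filter (fun y => y b < d b ∧ y b + y p = s + 1 ∧ y a < d a ∧ y b ≠ 0),
      ((y a : ℝ) + 1) * ((d a : ℝ) - y a) * (W (y + e1 a - e1 b)) ^ 2 =
      ∑ y ∈ (X d r).filter (fun y => y b < d b ∧ y b + y p = s + 1 ∧ y a < d a ∧ y b ≠ 0),
      (fun Y : Fin n → ℕ => (Y a : ℝ) * ((d a : ℝ) - Y a + 1) * W Y ^ 2) (y + e1 a - e1 b) := by
    refine Finset.sum_congr rfl fun y _ => ?_
    have h1 : (y + e1 a - e1 b) a = y a + 1 := by simp [e1, ha.1]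
    simp only [h1]
    push_cast
    ring
  rw [hre]
  refine M4b_inj _ _ (fun y => y + e1 a - e1 b) ?_ ?_
    (fun Y : Fin n → ℕ => (Y a : ℝ) * ((d a : ℝ) - Y a + 1) * W Y ^ 2) ?_
  · intro y hy
    rw [Finset.mem_filter, M5_mem_X] at hy ⊢
    obtain ⟨⟨h1, h2⟩, h3, h4, h5, h6⟩ := hy
    have hb' : (y + e1 a - e1 b) b = y b - 1 := by
      simp [e1, Ne.symm ha.1]
    have hp' : (y + e1 a - e1 b) p = y p := by
      simp [e1, Ne.symm ha.2, Ne.symm hbp]
    have hadd : y + e1 a - e1 b + e1 b = y + e1 a := by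
      funext i
      simp only [Pi.add_apply, Pi.sub_apply, e1]
      by_cases hib : i = b
      · rw [hib]; simp only [if_true]; omega
      · simp [hib]
    refine ⟨⟨fun i => ?_, ?_⟩, ha, ?_, ?_⟩
    · simp only [Pi.add_apply, Pi.sub_apply, e1]
      have := h1 i
      by_cases hia : i = a
      · rw [hia]; simp only [if_true]; omega
      · simp only [hia, if_false]; omega
    · have h7 : ∑ i, (y + e1 a - e1 b + e1 b) i = ∑ i, (y + e1 a) i := by rw [hadd]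
      simp only [Pi.add_apply, Finset.sum_add_distrib, M5_e1_sum] at h7
      omega
    · rw [hb']; omega
    · rw [hb', hp']; omega
  · intro y hy z hz hyz
    rw [Finset.mem_coe, Finset.mem_filter] at hy hz
    simp only at hyz
    funext i
    have h1 := congrFun hyz i
    simp only [Pi.add_apply, Pi.sub_apply, e1] at h1
    by_cases hib : i = b
    · rw [hib] at h1 ⊢
      have h2 := hy.2.2.2.2
      have h3 := hz.2.2.2.2
      simp only [if_true] at h1
      omega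
    · simp only [hib, if_false] at h1
      omega
  · intro Y hY
    rw [Finset.mem_filter, M5_mem_X] at hY
    have h1 : (Y a : ℝ) ≤ d a := by exact_mod_cast hY.1.1 a
    exact mul_nonneg (mul_nonneg (Nat.cast_nonneg _) (by linarith)) (sq_nonneg _)

theorem M4T'_le (d : Fin n → ℕ) (r : ℕ) (hr : 2 * r + 1 ≤ ∑ a, d a) (b p : Fin n) (hbp : b ≠ p)
    (hd : d b ≤ d p) (W : (Fin n → ℕ) → ℝ) (s : ℕ) (hs : d p ≤ s) :
    M4T' d r b p W s ≤ M4T d r b p W s := by
  unfold M4T' M4T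
  refine Finset.sum_le_sum fun y hy => ?_
  by_cases hc : y b < d b ∧ y b + y p = s
  · rw [if_pos hc, if_pos hc]
    exact mul_le_mul_of_nonneg_right (M4b_B_le_A d r hr b p hbp hd y hy (by omega)).1 (sq_nonneg _)
  · rw [if_neg hc, if_neg hc]

theorem M4T'_nonneg (d : Fin n → ℕ) (r : ℕ) (b p : Fin n) (W : (Fin n → ℕ) → ℝ) (s : ℕ) :
    0 ≤ M4T' d r b p W s := by
  unfold M4T'
  refine Finset.sum_nonneg fun y hy => ?_
  rw [M5_mem_X] at hy
  split_ifs
  · refine mul_nonneg (Finset.sum_nonneg fun a _ => ?_) (sq_nonneg _)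
    have h1 : (y a : ℝ) ≤ d a := by exact_mod_cast hy.1 a
    split_ifs
    · exact mul_nonneg (Nat.cast_nonneg _) (by linarith)
    · exact le_refl _
  · exact le_refl _

theorem M4b_iter (d : Fin n → ℕ) (r N : ℕ) (hN : ∑ a, d a ≤ N) (hr : 2 * r + 1 ≤ ∑ a, d a)
    (b p : Fin n) (hbp : b ≠ p) (hd : d b ≤ d p) (W : (Fin n → ℕ) → ℝ) (s0 : ℕ)
    (hs0 : d p ≤ s0 + 1) (i : ℕ) :
    M4T' d r b p W (s0 + i) ≤ (1 + 1 / ((r : ℝ) + 1)) ^ i * (M4T' d r b p W s0 +
      i * (((r : ℝ) + 2) * (((r : ℝ) + 1) * N) * M4H d r b W)) := by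
  have hH := M4H_nonneg d r b W
  have hc : 0 ≤ ((r : ℝ) + 2) * (((r : ℝ) + 1) * N) * M4H d r b W := by positivity
  induction i with
  | zero => simp
  | succ i ih =>
    have h1 := M4T'_le d r hr b p hbp hd W (s0 + (i + 1)) (by omega)
    have h2 := M4b_step d r N hN b p hbp W (s0 + i)
    have hlam : (1 : ℝ) ≤ 1 + 1 / ((r : ℝ) + 1) := by
      have : (0 : ℝ) ≤ 1 / ((r : ℝ) + 1) := by positivity
      linarith
    have h3 : (1 : ℝ) ≤ (1 + 1 / ((r : ℝ) + 1)) ^ (i + 1) := one_le_pow₀ hlam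
    have h4 := mul_le_mul_of_nonneg_left ih (le_trans zero_le_one hlam)
    have h5 := mul_le_mul_of_nonneg_right h3 hc
    rw [one_mul] at h5
    push_cast
    calc M4T' d r b p W (s0 + (i + 1)) ≤ M4T d r b p W (s0 + (i + 1)) := h1
      _ ≤ (1 + 1 / ((r : ℝ) + 1)) * M4T' d r b p W (s0 + i) +
          ((r : ℝ) + 2) * (((r : ℝ) + 1) * N) * M4H d r b W := h2
      _ ≤ (1 + 1 / ((r : ℝ) + 1)) * ((1 + 1 / ((r : ℝ) + 1)) ^ i * (M4T' d r b p W s0 +
            i * (((r : ℝ) + 2) * (((r : ℝ) + 1) * N) * M4H d r b W))) +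
          (1 + 1 / ((r : ℝ) + 1)) ^ (i + 1) *
            (((r : ℝ) + 2) * (((r : ℝ) + 1) * N) * M4H d r b W) := by linarith
      _ = _ := by ring

theorem M4b_lam (r i : ℕ) (hi : i ≤ r + 1) : (1 + 1 / ((r : ℝ) + 1)) ^ i ≤ 3 := by
  have hlam : (1 : ℝ) ≤ 1 + 1 / ((r : ℝ) + 1) := by
    have : (0 : ℝ) ≤ 1 / ((r : ℝ) + 1) := by positivity
    linarith
  have h1 : (1 + 1 / ((r : ℝ) + 1)) ^ i ≤ (1 + 1 / ((r : ℝ) + 1)) ^ (r + 1) :=
    pow_le_pow_right₀ hlam hi
  have h2 : 1 + 1 / ((r : ℝ) + 1) ≤ Real.exp (1 / ((r : ℝ) + 1)) := by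
    have := Real.add_one_le_exp (1 / ((r : ℝ) + 1))
    linarith
  have h3 : (1 + 1 / ((r : ℝ) + 1)) ^ (r + 1) ≤ Real.exp (1 / ((r : ℝ) + 1)) ^ (r + 1) :=
    pow_le_pow_left₀ (by positivity) h2 _
  have h4 : Real.exp (1 / ((r : ℝ) + 1)) ^ (r + 1) = Real.exp 1 := by
    rw [← Real.exp_nat_mul]
    congr 1
    push_cast
    field_simp
  have h5 := Real.exp_one_lt_d9
  rw [h4] at h3
  linarith

/-- part 2 -/
theorem M4_part2 (d : Fin n → ℕ) (r N : ℕ) (hN : ∑ a, d a ≤ N) (hr : 2 * r + 1 ≤ ∑ a, d a)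
    (b p : Fin n) (hbp : b ≠ p) (hd : d b ≤ d p) (W : (Fin n → ℕ) → ℝ) :
    ∑ y ∈ X d r, (if y b < d b ∧ d p ≤ y b + y p then W y ^ 2 else 0) ≤
      ((r : ℝ) + 1) * (3 * ((r : ℝ) * N *
        (∑ y ∈ X d r, (if y b < d b ∧ y b + y p < d p then W y ^ 2 else 0)) +
        ((r : ℝ) + 1) * (((r : ℝ) + 2) * (((r : ℝ) + 1) * N) * M4H d r b W))) := by
  classical
  have hH := M4H_nonneg d r b W
  set P1 := ∑ y ∈ X d r, (if y b < d b ∧ y b + y p < d p then W y ^ 2 else 0) with hP1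
  have hP1nn : 0 ≤ P1 := by
    refine Finset.sum_nonneg fun y _ => ?_
    split_ifs
    · exact sq_nonneg _
    · exact le_refl _
  set c : ℝ := ((r : ℝ) + 2) * (((r : ℝ) + 1) * N) * M4H d r b W with hc
  have hc0 : 0 ≤ c := by positivity
  rcases Nat.eq_zero_or_pos (d p) with h0 | hpos
  · have hb0 : d b = 0 := by omega
    have : ∑ y ∈ X d r, (if y b < d b ∧ d p ≤ y b + y p then W y ^ 2 else 0) = 0 := by
      refine Finset.sum_eq_zero fun y _ => ?_
      rw [if_neg]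
      rw [hb0]
      exact fun h => absurd h.1 (Nat.not_lt_zero _)
    rw [this]
    positivity
  obtain ⟨q, hq⟩ : ∃ q, d p = q + 1 := ⟨d p - 1, by omega⟩
  -- base
  have hbase : M4T' d r b p W q ≤ (r : ℝ) * N * P1 := by
    unfold M4T'
    rw [hP1, Finset.mul_sum]
    refine Finset.sum_le_sum fun y hy => ?_
    by_cases hcy : y b < d b ∧ y b + y p = q
    · rw [if_pos hcy, if_pos ⟨hcy.1, by omega⟩]
      exact mul_le_mul_of_nonneg_right (M4b_B_le d r N hN b p y hy) (sq_nonneg _)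
    · rw [if_neg hcy]
      refine mul_nonneg (by positivity) ?_
      split_ifs
      · exact sq_nonneg _
      · exact le_refl _
  -- every level
  have hlev : ∀ i, i < r + 1 → M4T d r b p W (q + (i + 1)) ≤ 3 * ((r : ℝ) * N * P1 +
      ((r : ℝ) + 1) * c) := by
    intro i hi
    have h2 := M4b_step d r N hN b p hbp W (q + i)
    have h3 := M4b_iter d r N hN hr b p hbp hd W q (by omega) i
    have hlam : (1 : ℝ) ≤ 1 + 1 / ((r : ℝ) + 1) := by
      have : (0 : ℝ) ≤ 1 / ((r : ℝ) + 1) := by positivity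
      linarith
    have h4 : (1 : ℝ) ≤ (1 + 1 / ((r : ℝ) + 1)) ^ (i + 1) := one_le_pow₀ hlam
    have h5 := mul_le_mul_of_nonneg_left h3 (le_trans zero_le_one hlam)
    have h6 := mul_le_mul_of_nonneg_right h4 hc0
    rw [one_mul] at h6
    have h7 := M4b_lam r (i + 1) (by omega)
    have hiR : (i : ℝ) + 1 ≤ (r : ℝ) + 1 := by
      have : ((i + 1 : ℕ) : ℝ) ≤ ((r + 1 : ℕ) : ℝ) := by exact_mod_cast hi
      push_cast at this
      exact this
    have hT0 := M4T'_nonneg d r b p W q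
    calc M4T d r b p W (q + (i + 1)) ≤ (1 + 1 / ((r : ℝ) + 1)) * M4T' d r b p W (q + i) + c := h2
      _ ≤ (1 + 1 / ((r : ℝ) + 1)) * ((1 + 1 / ((r : ℝ) + 1)) ^ i * (M4T' d r b p W q +
            i * c)) + (1 + 1 / ((r : ℝ) + 1)) ^ (i + 1) * c := by linarith
      _ = (1 + 1 / ((r : ℝ) + 1)) ^ (i + 1) * (M4T' d r b p W q + ((i : ℝ) + 1) * c) := by ring
      _ ≤ 3 * (M4T' d r b p W q + ((i : ℝ) + 1) * c) :=
          mul_le_mul_of_nonneg_right h7 (by positivity)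
      _ ≤ 3 * ((r : ℝ) * N * P1 + ((r : ℝ) + 1) * c) := by
          have h8 := mul_le_mul_of_nonneg_right hiR hc0
          linarith
  -- total
  have htot : ∑ y ∈ X d r, (if y b < d b ∧ d p ≤ y b + y p then W y ^ 2 else 0) ≤
      ∑ i ∈ Finset.range (r + 1), M4T d r b p W (q + (i + 1)) := by
    unfold M4T
    rw [Finset.sum_comm]
    refine Finset.sum_le_sum fun y hy => ?_
    by_cases hcy : y b < d b ∧ d p ≤ y b + y p
    swap
    · rw [if_neg hcy]
      refine Finset.sum_nonneg fun i _ => ?_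
      split_ifs with h9
      · exfalso
        exact hcy ⟨h9.1, by omega⟩
      · exact le_refl _
    rw [if_pos hcy]
    have hy' := hy
    rw [M5_mem_X] at hy'
    have hyr : y b + y p ≤ r := by
      rw [← hy'.2]
      exact Finset.add_le_sum (s := Finset.univ) (f := y) (fun i _ => Nat.zero_le _)
        (Finset.mem_univ b) (Finset.mem_univ p) hbp
    have hA := (M4b_B_le_A d r hr b p hbp hd y hy hcy.2).2
    have hmem : y b + y p - (q + 1) ∈ Finset.range (r + 1) := by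
      rw [Finset.mem_range]; omega
    have hnn : ∀ i ∈ Finset.range (r + 1), 0 ≤ (if y b < d b ∧ y b + y p = q + (i + 1) then
      (∑ a, if a ≠ b ∧ a ≠ p then ((y a : ℝ) + 1) * ((d a : ℝ) - y a) else 0) * W y ^ 2 else 0) := by
      intro i _
      split_ifs
      · exact mul_nonneg (le_trans zero_le_one hA) (sq_nonneg _)
      · exact le_refl _
    refine le_trans ?_ (Finset.single_le_sum hnn hmem)
    rw [if_pos ⟨hcy.1, by omega⟩]
    calc W y ^ 2 = 1 * W y ^ 2 := by ring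
      _ ≤ _ := mul_le_mul_of_nonneg_right hA (sq_nonneg _)
  refine le_trans htot ?_
  have h10 := Finset.sum_le_card_nsmul (Finset.range (r + 1))
    (fun i => M4T d r b p W (q + (i + 1))) (3 * ((r : ℝ) * N * P1 + ((r : ℝ) + 1) * c))
    (fun i hi => hlev i (Finset.mem_range.1 hi))
  rw [Finset.card_range, nsmul_eq_mul] at h10
  push_cast at h10
  exact h10

end Vale.Agent.P328
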