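import Vale.Agent.Lib.P328.M4a
import Vale.Agent.Lib.P328.M4b

/-!
P328, module M4: the one-row Hardy inequality.
-/

namespace Vale.Agent.P328

open Finset

variable {n : ℕ}

/-- M4 -/
theorem M4_hardy (d : Fin n → ℕ) (r N : ℕ) (hN : ∑ a, d a ≤ N) (hr : 2 * r + 1 ≤ ∑ a, d a)
    (b p : Fin n) (hbp : b ≠ p) (hd : d b ≤ d p) (W : (Fin n → ℕ) → ℝ) :
    ∑ y ∈ X d r, (if y b < d b then W y ^ 2 else 0) ≤ 7 * ((N : ℝ) + 1) ^ 5 *
      ∑ y ∈ X d r, ∑ a, if a ≠ b ∧ y b < d b ∧ y a < d a then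
        (W y - (if y b = 0 then 0 else W (y + e1 a - e1 b))) ^ 2 else 0 := by
  classical
  have hH := M4H_nonneg d r b W
  have h1 := M4_part1 d r b p hbp W
  have h2 := M4_part2 d r N hN hr b p hbp hd W
  have hHdef : (∑ y ∈ X d r, ∑ a, if a ≠ b ∧ y b < d b ∧ y a < d a then
        (W y - (if y b = 0 then 0 else W (y + e1 a - e1 b))) ^ 2 else 0) = M4H d r b W := rfl
  rw [hHdef] at h1 ⊢
  have hsplit : ∑ y ∈ X d r, (if y b < d b then W y ^ 2 else 0) =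
      ∑ y ∈ X d r, (if y b < d b ∧ y b + y p < d p then W y ^ 2 else 0) +
      ∑ y ∈ X d r, (if y b < d b ∧ d p ≤ y b + y p then W y ^ 2 else 0) := by
    rw [← Finset.sum_add_distrib]
    refine Finset.sum_congr rfl fun y _ => ?_
    by_cases h3 : y b < d b
    · by_cases h4 : y b + y p < d p
      · rw [if_pos h3, if_pos ⟨h3, h4⟩, if_neg (fun h => absurd h.2 (not_le.2 h4)), add_zero]
      · rw [if_pos h3, if_neg (fun h => h4 h.2), if_pos ⟨h3, not_lt.1 h4⟩, zero_add]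
    · rw [if_neg h3, if_neg (fun h => h3 h.1), if_neg (fun h => h3 h.1), add_zero]
  rw [hsplit]
  set P1 := ∑ y ∈ X d r, (if y b < d b ∧ y b + y p < d p then W y ^ 2 else 0) with hP1
  set H := M4H d r b W with hHd
  have hrN : 2 * (r : ℝ) + 1 ≤ N := by exact_mod_cast le_trans hr hN
  have hr0 : (0 : ℝ) ≤ r := Nat.cast_nonneg r
  have hN0 : (0 : ℝ) ≤ N := Nat.cast_nonneg N
  set M : ℝ := (N : ℝ) + 1 with hM
  have hM2 : 2 ≤ M := by rw [hM]; linarith
  have a1 : (r : ℝ) + 1 ≤ M / 2 := by rw [hM]; linarith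
  have a2 : (r : ℝ) ≤ M / 2 := by linarith
  have a3 : (r : ℝ) + 2 ≤ M := by linarith
  have a4 : (N : ℝ) ≤ M := by rw [hM]; linarith
  have hM0 : 0 ≤ M := by linarith
  -- coefficients
  have b1 : ((r : ℝ) + 1) ^ 2 ≤ (M / 2) ^ 2 := pow_le_pow_left₀ (by positivity) a1 2
  have b2 : P1 ≤ (M / 2) ^ 2 * H := le_trans h1 (mul_le_mul_of_nonneg_right b1 hH)
  have b3 : (r : ℝ) * N ≤ (M / 2) * M := mul_le_mul a2 a4 hN0 (by positivity)
  have b4 : (r : ℝ) * N * P1 ≤ (M / 2) * M * ((M / 2) ^ 2 * H) := by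
    have hP1nn : 0 ≤ P1 := by
      refine Finset.sum_nonneg fun y _ => ?_
      split_ifs
      · exact sq_nonneg _
      · exact le_refl _
    exact mul_le_mul b3 b2 hP1nn (by positivity)
  have b5 : ((r : ℝ) + 1) * N ≤ (M / 2) * M := mul_le_mul a1 a4 hN0 (by positivity)
  have b6 : ((r : ℝ) + 2) * (((r : ℝ) + 1) * N) ≤ M * ((M / 2) * M) :=
    mul_le_mul a3 b5 (by positivity) hM0
  have b7 : ((r : ℝ) + 2) * (((r : ℝ) + 1) * N) * H ≤ M * ((M / 2) * M) * H :=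
    mul_le_mul_of_nonneg_right b6 hH
  have b8 : ((r : ℝ) + 1) * (((r : ℝ) + 2) * (((r : ℝ) + 1) * N) * H) ≤
      (M / 2) * (M * ((M / 2) * M) * H) := mul_le_mul a1 b7 (by positivity) (by positivity)
  have b9 : ((r : ℝ) + 1) * (3 * ((r : ℝ) * N * P1 +
        ((r : ℝ) + 1) * (((r : ℝ) + 2) * (((r : ℝ) + 1) * N) * H))) ≤
      (M / 2) * (3 * ((M / 2) * M * ((M / 2) ^ 2 * H) + (M / 2) * (M * ((M / 2) * M) * H))) := by
    refine mul_le_mul a1 ?_ ?_ (by positivity)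
    · linarith
    · have hP1nn : 0 ≤ P1 := by
        refine Finset.sum_nonneg fun y _ => ?_
        split_ifs
        · exact sq_nonneg _
        · exact le_refl _
      positivity
  have c1 : (M / 2) ^ 2 * H ≤ M ^ 5 * H := by
    refine mul_le_mul_of_nonneg_right ?_ hH
    have : M ^ 2 ≤ M ^ 5 := pow_le_pow_right₀ (by linarith) (by norm_num)
    nlinarith [sq_nonneg M]
  have c2 : (M / 2) * (3 * ((M / 2) * M * ((M / 2) ^ 2 * H) + (M / 2) * (M * ((M / 2) * M) * H))) ≤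
      M ^ 5 * H := by
    have e : (M / 2) * (3 * ((M / 2) * M * ((M / 2) ^ 2 * H) + (M / 2) * (M * ((M / 2) * M) * H))) =
      (3 / 16 + 3 / 8) * (M ^ 5 * H) - (3 / 8) * (M ^ 5 * H) + (3 / 8) * (M ^ 5 * H) := by ring
    have hMH : 0 ≤ M ^ 5 * H := by positivity
    rw [e]
    linarith
  have hMH : 0 ≤ M ^ 5 * H := by positivity
  calc P1 + _ ≤ M ^ 5 * H + M ^ 5 * H := by linarith
    _ ≤ 7 * M ^ 5 * H := by linarith

theorem M5_hardy_holds (n : ℕ) : M5_Hardy n := fun d r N hN hr b p hbp hd W =>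
  M4_hardy d r N hN hr b p hbp hd W

end Vale.Agent.P328
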