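import Vale.Agent.Lib.P328.Lvl

/-!
P328, module M5: from the one-row Hardy inequality to the flux bound.
-/

namespace Vale.Agent.P328

open Finset

variable {m n : ℕ}

theorem M5_mem_X {d : Fin n → ℕ} {r : ℕ} {y : Fin n → ℕ} :
    y ∈ X d r ↔ (∀ a, y a ≤ d a) ∧ ∑ a, y a = r := by
  unfold X
  rw [Finset.mem_filter, Fintype.mem_piFinset]
  simp only [Finset.mem_range, Nat.lt_succ_iff]

theorem M5_e1_sum (b : Fin n) : ∑ a, e1 b a = 1 := by
  unfold e1
  simp

theorem M5_level1 (d : Fin n → ℕ) (r : ℕ) (b : Fin n) (F : (Fin n → ℕ) → ℝ) :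
    ∑ y ∈ X d r, (if y b < d b then F y else 0) =
      ∑ Y ∈ X d (r + 1), if Y b ≠ 0 then F (Y - e1 b) else 0 := by
  rw [← Finset.sum_filter, ← Finset.sum_filter]
  refine Finset.sum_bij' (fun y _ => y + e1 b) (fun Y _ => Y - e1 b) ?_ ?_ ?_ ?_ ?_
  · intro y hy
    rw [Finset.mem_filter, M5_mem_X] at hy ⊢
    refine ⟨⟨fun a => ?_, ?_⟩, ?_⟩
    · have h1 := hy.1.1 a
      have h2 := hy.2
      simp only [Pi.add_apply, e1]
      split_ifs with hab
      · rw [hab]; omega
      · omega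
    · simp only [Pi.add_apply, Finset.sum_add_distrib, M5_e1_sum, hy.1.2]
    · simp [e1]
  · intro Y hY
    rw [Finset.mem_filter, M5_mem_X] at hY ⊢
    have he : Y - e1 b + e1 b = Y := by
      funext a
      simp only [Pi.add_apply, Pi.sub_apply, e1]
      have := hY.2
      split_ifs with hab
      · rw [hab]; omega
      · omega
    refine ⟨⟨fun a => ?_, ?_⟩, ?_⟩
    · have h1 := hY.1.1 a
      simp only [Pi.sub_apply]
      omega
    · have h2 : ∑ a, (Y - e1 b + e1 b) a = r + 1 := by rw [he]; exact hY.1.2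
      simp only [Pi.add_apply, Finset.sum_add_distrib, M5_e1_sum] at h2
      omega
    · have h1 := hY.1.1 b
      have h3 := hY.2
      simp only [Pi.sub_apply, e1, if_true]
      omega
  · intro y hy
    funext a
    simp
  · intro Y hY
    rw [Finset.mem_filter] at hY
    funext a
    simp only [Pi.add_apply, Pi.sub_apply, e1]
    have := hY.2
    split_ifs with hab
    · rw [hab]; omega
    · omega
  · intro y hy
    congr 1
    funext a
    simp

/-- the one-row Hardy inequality (module M4) -/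
def M5_Hardy (n : ℕ) : Prop :=
  ∀ (d : Fin n → ℕ) (r N : ℕ), ∑ a, d a ≤ N → 2 * r + 1 ≤ ∑ a, d a →
    ∀ (b p : Fin n), b ≠ p → d b ≤ d p → ∀ (W : (Fin n → ℕ) → ℝ),
    ∑ y ∈ X d r, (if y b < d b then W y ^ 2 else 0) ≤ 7 * ((N : ℝ) + 1) ^ 5 *
      ∑ y ∈ X d r, ∑ a, if a ≠ b ∧ y b < d b ∧ y a < d a then
        (W y - (if y b = 0 then 0 else W (y + e1 a - e1 b))) ^ 2 else 0

/-- flux bound in one row -/
theorem M5_row (hM4 : M5_Hardy n) (d : Fin n → ℕ) (r N : ℕ) (hN : ∑ a, d a ≤ N)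
    (hr : 2 * r + 1 ≤ ∑ a, d a) (W : Fin n → (Fin n → ℕ) → ℝ)
    (hsum : ∀ Y ∈ X d (r + 1), ∑ b, (if Y b ≠ 0 then W b (Y - e1 b) else 0) = 0) :
    ∑ y ∈ X d r, ∑ b, (if y b < d b then W b y ^ 2 else 0) ≤ 7 * n * ((N : ℝ) + 1) ^ 5 *
      ∑ y ∈ X d r, ∑ b, ∑ a, if a ≠ b ∧ y b < d b ∧ y a < d a then
        (W b y - (if y b = 0 then 0 else W b (y + e1 a - e1 b))) ^ 2 else 0 := by
  classical
  have hne : (Finset.univ : Finset (Fin n)).Nonempty := by
    by_contra hcon
    rw [Finset.not_nonempty_iff_eq_empty] at hcon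
    rw [hcon] at hr
    simp at hr
  obtain ⟨p, -, hp⟩ := Finset.exists_max_image Finset.univ d hne
  have hn1 : 1 ≤ n := by
    have := p.2
    omega
  set S : Fin n → ℝ := fun b => ∑ y ∈ X d r, (if y b < d b then W b y ^ 2 else 0) with hS
  set H : Fin n → ℝ := fun b => ∑ y ∈ X d r, ∑ a, if a ≠ b ∧ y b < d b ∧ y a < d a then
        (W b y - (if y b = 0 then 0 else W b (y + e1 a - e1 b))) ^ 2 else 0 with hH
  have hHnn : ∀ b, 0 ≤ H b := by
    intro b
    refine Finset.sum_nonneg fun y _ => Finset.sum_nonneg fun a _ => ?_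
    split_ifs
    · exact sq_nonneg _
    · exact sq_nonneg _
    · exact le_refl _
  have h1 : ∀ b, b ≠ p → S b ≤ 7 * ((N : ℝ) + 1) ^ 5 * H b := fun b hb =>
    hM4 d r N hN hr b p hb (hp b (Finset.mem_univ b)) (W b)
  have h2 : S p ≤ ((n : ℝ) - 1) * ∑ b ∈ Finset.univ.erase p, S b := by
    have e1' : ∀ b, S b = ∑ Y ∈ X d (r + 1), (if Y b ≠ 0 then W b (Y - e1 b) else 0) ^ 2 := by
      intro b
      rw [hS]
      simp only
      rw [M5_level1 d r b (fun y => W b y ^ 2)]
      refine Finset.sum_congr rfl fun Y _ => ?_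
      split_ifs <;> simp
    rw [e1' p]
    have e2 : ∑ b ∈ Finset.univ.erase p, S b = ∑ Y ∈ X d (r + 1), ∑ b ∈ Finset.univ.erase p,
        (if Y b ≠ 0 then W b (Y - e1 b) else 0) ^ 2 := by
      exact (Finset.sum_congr rfl fun b _ => e1' b).trans Finset.sum_comm
    rw [e2, Finset.mul_sum]
    refine Finset.sum_le_sum fun Y hY => ?_
    have h3 := hsum Y hY
    rw [← Finset.add_sum_erase _ _ (Finset.mem_univ p)] at h3
    have h4 : (if Y p ≠ 0 then W p (Y - e1 p) else 0) ^ 2 =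
        (∑ b ∈ Finset.univ.erase p, (if Y b ≠ 0 then W b (Y - e1 b) else 0)) ^ 2 := by
      have : (if Y p ≠ 0 then W p (Y - e1 p) else 0) =
        -(∑ b ∈ Finset.univ.erase p, (if Y b ≠ 0 then W b (Y - e1 b) else 0)) := by linarith
      rw [this, neg_sq]
    rw [h4]
    have h5 := sq_sum_le_card_mul_sum_sq (s := Finset.univ.erase p)
      (f := fun b => (if Y b ≠ 0 then W b (Y - e1 b) else 0))
    have h6 : ((Finset.univ.erase p).card : ℝ) = (n : ℝ) - 1 := by
      rw [Finset.card_erase_of_mem (Finset.mem_univ p), Finset.card_univ, Fintype.card_fin,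
        Nat.cast_sub hn1]
      simp
    rw [h6] at h5
    exact h5
  have h7 : ∑ y ∈ X d r, ∑ b, (if y b < d b then W b y ^ 2 else 0) = ∑ b, S b := by
    rw [Finset.sum_comm]
  have h8 : ∑ y ∈ X d r, ∑ b, ∑ a, (if a ≠ b ∧ y b < d b ∧ y a < d a then
        (W b y - (if y b = 0 then 0 else W b (y + e1 a - e1 b))) ^ 2 else 0) = ∑ b, H b := by
    rw [Finset.sum_comm]
  rw [h7, h8, ← Finset.add_sum_erase _ _ (Finset.mem_univ p)]
  have h9 : ∑ b ∈ Finset.univ.erase p, S b ≤ 7 * ((N : ℝ) + 1) ^ 5 * ∑ b, H b := by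
    rw [Finset.mul_sum]
    refine le_trans (Finset.sum_le_sum fun b hb => h1 b (Finset.ne_of_mem_erase hb)) ?_
    refine Finset.sum_le_sum_of_subset_of_nonneg (Finset.erase_subset _ _) fun b _ _ => ?_
    exact mul_nonneg (by positivity) (hHnn b)
  have hnR : (0:ℝ) ≤ (n:ℝ) := Nat.cast_nonneg n
  calc S p + ∑ b ∈ Finset.univ.erase p, S b
      ≤ ((n : ℝ) - 1) * ∑ b ∈ Finset.univ.erase p, S b + ∑ b ∈ Finset.univ.erase p, S b := by
        linarith
    _ = (n : ℝ) * ∑ b ∈ Finset.univ.erase p, S b := by ring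
    _ ≤ (n : ℝ) * (7 * ((N : ℝ) + 1) ^ 5 * ∑ b, H b) := mul_le_mul_of_nonneg_left h9 hnR
    _ = 7 * n * ((N : ℝ) + 1) ^ 5 * ∑ b, H b := by ring

theorem M5_upd_sub (w : Fin m → Fin n → ℕ) (j : Fin m) (b : Fin n) (Y : Fin n → ℕ) :
    Function.update w j Y - E j b = Function.update w j (Y - e1 b) := by
  funext i a
  by_cases hi : i = j
  · subst hi
    simp [E_apply, e1]
  · simp [E_apply, hi]

theorem M5_upd_add (w : Fin m → Fin n → ℕ) (j : Fin m) (b : Fin n) (Y : Fin n → ℕ) :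
    Function.update w j Y + E j b = Function.update w j (Y + e1 b) := by
  funext i a
  by_cases hi : i = j
  · subst hi
    simp [E_apply, e1]
  · simp [E_apply, hi]

theorem M5_colsum (w : Fin m → Fin n → ℕ) (j : Fin m) (hw : w j = 0) (y : Fin n → ℕ) (a : Fin n) :
    ∑ i, Function.update w j y i a = ∑ i, w i a + y a := by
  have h1 : ∀ i, Function.update w j y i a = w i a + (if i = j then y a else 0) := by
    intro i
    by_cases hi : i = j
    · subst hi
      simp [hw]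
    · simp [hi]
  simp only [h1, Finset.sum_add_distrib]
  simp

/-- fibre decomposition of `Om` along row `j` -/
theorem M5_fibre (c : Fin n → ℕ) (R : Fin m → ℕ) (j : Fin m) (F : (Fin m → Fin n → ℕ) → ℝ) :
    ∑ x ∈ Om c R, F x = ∑ w ∈ (Om c R).image (fun x => Function.update x j 0),
      ∑ y ∈ X (fun a => c a - ∑ i, w i a) (R j), F (Function.update w j y) := by
  classical
  rw [← Finset.sum_fiberwise_of_maps_to (s := Om c R)
    (t := (Om c R).image (fun x => Function.update x j 0)) (g := fun x => Function.update x j 0)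
    (fun x hx => Finset.mem_image_of_mem _ hx)]
  refine Finset.sum_congr rfl fun w hw => ?_
  rw [Finset.mem_image] at hw
  obtain ⟨x0, hx0, rfl⟩ := hw
  have hwj : Function.update x0 j (0 : Fin n → ℕ) j = 0 := by simp
  rw [mem_Om] at hx0
  have hcap : ∀ a, ∑ i, Function.update x0 j (0 : Fin n → ℕ) i a ≤ c a := by
    intro a
    refine le_trans (Finset.sum_le_sum fun i _ => ?_) (hx0.2 a)
    by_cases hi : i = j
    · subst hi; simp
    · simp [hi]
  symm
  refine Finset.sum_bij' (fun y _ => Function.update (Function.update x0 j 0) j y)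
    (fun x _ => x j) ?_ ?_ ?_ ?_ ?_
  · intro y hy
    rw [M5_mem_X] at hy
    rw [Finset.mem_filter, mem_Om]
    refine ⟨⟨fun i => ?_, fun a => ?_⟩, ?_⟩
    · by_cases hi : i = j
      · subst hi; simpa using hy.2
      · simpa [hi] using hx0.1 i
    · rw [M5_colsum _ _ hwj]
      have h1 := hy.1 a
      have h2 := hcap a
      omega
    · simp
  · intro x hx
    rw [Finset.mem_filter, mem_Om] at hx
    rw [M5_mem_X]
    refine ⟨fun a => ?_, hx.1.1 j⟩
    have h1 := hx.1.2 a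
    have h2 := M5_colsum (Function.update x0 j (0 : Fin n → ℕ)) j hwj (x j) a
    have h3 : Function.update (Function.update x0 j (0 : Fin n → ℕ)) j (x j) = x := by
      rw [← hx.2]; simp
    rw [h3] at h2
    omega
  · intro y hy
    simp
  · intro x hx
    rw [Finset.mem_filter] at hx
    rw [← hx.2]
    simp
  · intro y hy
    rfl

/-- flux bound for row `j` -/
theorem M5_VV_le_HH (hM4 : M5_Hardy n) (c : Fin n → ℕ) (R : Fin m → ℕ)
    (u : (Fin m → Fin n → ℕ) → ℝ) (j : Fin m) (hub : R j + 1 + ∑ i, R i ≤ ∑ a, c a) :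
    VV c R u j ≤ 7 * n * (((∑ a, c a : ℕ) : ℝ) + 1) ^ 5 * HH c R u j := by
  classical
  unfold VV HH
  rw [M5_fibre c R j, M5_fibre c R j, Finset.mul_sum]
  refine Finset.sum_le_sum fun w hw => ?_
  rw [Finset.mem_image] at hw
  obtain ⟨x0, hx0, rfl⟩ := hw
  set w : Fin m → Fin n → ℕ := Function.update x0 j (0 : Fin n → ℕ) with hwdef
  have hwj : w j = 0 := by simp [hwdef]
  rw [mem_Om] at hx0
  have hcap : ∀ a, ∑ i, w i a ≤ c a := by
    intro a
    refine le_trans (Finset.sum_le_sum fun i _ => ?_) (hx0.2 a)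
    by_cases hi : i = j
    · rw [hwdef, hi]; simp
    · simp [hwdef, hi]
  set d : Fin n → ℕ := fun a => c a - ∑ i, w i a with hd
  have hdN : ∑ a, d a ≤ ∑ a, c a := Finset.sum_le_sum fun a _ => Nat.sub_le _ _
  have hdsum : ∑ a, d a + ∑ a, ∑ i, w i a = ∑ a, c a := by
    rw [← Finset.sum_add_distrib]
    refine Finset.sum_congr rfl fun a _ => ?_
    have := hcap a
    simp only [hd]
    omega
  have hwsum : ∑ a, ∑ i, w i a + R j = ∑ i, R i := by
    rw [Finset.sum_comm]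
    rw [← Finset.add_sum_erase _ _ (Finset.mem_univ j), ← Finset.add_sum_erase _ R (Finset.mem_univ j)]
    have h1 : ∑ a, w j a = 0 := by rw [hwj]; simp
    have h2 : ∑ i ∈ Finset.univ.erase j, ∑ a, w i a = ∑ i ∈ Finset.univ.erase j, R i := by
      refine Finset.sum_congr rfl fun i hi => ?_
      have hij : i ≠ j := Finset.ne_of_mem_erase hi
      simpa [hwdef, hij] using hx0.1 i
    rw [h1, h2]
    ring
  have hr : 2 * R j + 1 ≤ ∑ a, d a := by omega
  have hav : ∀ y ∈ X d (R j), ∀ b, (∑ i, Function.update w j y i b < c b ↔ y b < d b) := by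
    intro y hy b
    rw [M5_colsum w j hwj]
    have := hcap b
    simp only [hd]
    omega
  have key := M5_row hM4 d (R j) (∑ a, c a) hdN hr (fun b y => V u j b (Function.update w j y)) (by
    intro Y hY
    have h := V_level_sum u j (Function.update w j Y)
    simp only [Function.update_self, M5_upd_sub] at h
    exact h)
  refine le_trans (le_of_eq ?_) (le_trans key (le_of_eq ?_))
  · refine Finset.sum_congr rfl fun y hy => Finset.sum_congr rfl fun b _ => ?_
    exact if_congr (hav y hy b) rfl rfl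
  · congr 1
    refine Finset.sum_congr rfl fun y hy => Finset.sum_congr rfl fun b _ =>
      Finset.sum_congr rfl fun a _ => ?_
    refine if_congr ?_ ?_ rfl
    · rw [hav y hy b, hav y hy a]
    · rw [M5_upd_add, M5_upd_sub, Function.update_self]

/-- M5, with M1, M2, M3, M4 as hypotheses -/
theorem M5_of (hM4 : M5_Hardy n) (c : Fin n → ℕ) (R : Fin m → ℕ) (u : (Fin m → Fin n → ℕ) → ℝ)
    (hM1 : ∑ j, ∑ k, NN c R u j k ≤ ∑ x ∈ Om c R, (LL c u x) ^ 2)
    (hM2 : ∀ j k : Fin m, j ≠ k → 0 ≤ NN c R u j k)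
    (hM3 : ∀ j : Fin m, HH c R u j ≤ ((R j : ℝ) + 2) * NN c R u j j)
    (hub : ∀ j, R j + 1 + ∑ i, R i ≤ ∑ a, c a) :
    ∑ j, VV c R u j ≤ 7 * n * (((∑ a, c a : ℕ) : ℝ) + 1) ^ 6 * ∑ x ∈ Om c R, (LL c u x) ^ 2 := by
  classical
  have hHnn : ∀ j : Fin m, 0 ≤ HH c R u j := by
    intro j
    unfold HH
    refine Finset.sum_nonneg fun x _ => Finset.sum_nonneg fun b _ => Finset.sum_nonneg fun a _ => ?_
    split_ifs
    · exact sq_nonneg _
    · exact sq_nonneg _
    · exact le_refl _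
  have hNnn : ∀ j : Fin m, 0 ≤ NN c R u j j := by
    intro j
    have h1 := hHnn j
    have h2 := hM3 j
    have h3 : (0 : ℝ) < (R j : ℝ) + 2 := by positivity
    by_contra hcon
    rw [not_le] at hcon
    have := mul_neg_of_pos_of_neg h3 hcon
    linarith
  have hC : (0 : ℝ) ≤ 7 * n * (((∑ a, c a : ℕ) : ℝ) + 1) ^ 5 := by positivity
  have h1 : ∀ j : Fin m, VV c R u j ≤ 7 * n * (((∑ a, c a : ℕ) : ℝ) + 1) ^ 6 * NN c R u j j := by
    intro j
    refine le_trans (M5_VV_le_HH hM4 c R u j (hub j)) ?_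
    have h2 : (R j : ℝ) + 2 ≤ ((∑ a, c a : ℕ) : ℝ) + 1 := by
      have h3 := hub j
      have h4 : R j ≤ ∑ i, R i := Finset.single_le_sum (f := R) (fun i _ => Nat.zero_le _) (Finset.mem_univ j)
      have h5 : R j + 1 ≤ ∑ a, c a := by omega
      have h6 : ((R j + 1 : ℕ) : ℝ) ≤ ((∑ a, c a : ℕ) : ℝ) := by exact_mod_cast h5
      push_cast at h6 ⊢
      linarith
    calc 7 * n * (((∑ a, c a : ℕ) : ℝ) + 1) ^ 5 * HH c R u j
        ≤ 7 * n * (((∑ a, c a : ℕ) : ℝ) + 1) ^ 5 * (((R j : ℝ) + 2) * NN c R u j j) :=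
          mul_le_mul_of_nonneg_left (hM3 j) hC
      _ ≤ 7 * n * (((∑ a, c a : ℕ) : ℝ) + 1) ^ 5 * ((((∑ a, c a : ℕ) : ℝ) + 1) * NN c R u j j) :=
          mul_le_mul_of_nonneg_left (mul_le_mul_of_nonneg_right h2 (hNnn j)) hC
      _ = 7 * n * (((∑ a, c a : ℕ) : ℝ) + 1) ^ 6 * NN c R u j j := by ring
  have h2 : ∑ j, NN c R u j j ≤ ∑ j, ∑ k, NN c R u j k := by
    refine Finset.sum_le_sum fun j _ => ?_
    refine Finset.single_le_sum (f := fun k => NN c R u j k) (fun k _ => ?_) (Finset.mem_univ j)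
    by_cases hjk : j = k
    · rw [← hjk]; exact hNnn j
    · exact hM2 j k hjk
  calc ∑ j, VV c R u j ≤ ∑ j, 7 * n * (((∑ a, c a : ℕ) : ℝ) + 1) ^ 6 * NN c R u j j :=
        Finset.sum_le_sum fun j _ => h1 j
    _ = 7 * n * (((∑ a, c a : ℕ) : ℝ) + 1) ^ 6 * ∑ j, NN c R u j j := by rw [Finset.mul_sum]
    _ ≤ 7 * n * (((∑ a, c a : ℕ) : ℝ) + 1) ^ 6 * ∑ x ∈ Om c R, (LL c u x) ^ 2 :=
        mul_le_mul_of_nonneg_left (h2.trans hM1) (by positivity)

end Vale.Agent.P328
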