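import Vale.Agent.Lib.P328.Lvl

/-!
P328, module M6: the Dirichlet form of the hub chain.
-/

namespace Vale.Agent.P328

open Finset

variable {m n : ℕ}

theorem M6_alg1 (w v : Fin n → ℝ) :
    (1 / 2) * ∑ a, ∑ b, w a * w b * (v a - v b) ^ 2 =
      (∑ a, w a) * (∑ a, w a * v a ^ 2) - (∑ a, w a * v a) ^ 2 := by
  have h : ∀ a, ∑ b, w a * w b * (v a - v b) ^ 2 =
      w a * v a ^ 2 * (∑ b, w b) - 2 * (w a * v a) * (∑ b, w b * v b) +
        w a * (∑ b, w b * v b ^ 2) := by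
    intro a
    rw [Finset.mul_sum, Finset.mul_sum, Finset.mul_sum, ← Finset.sum_sub_distrib,
      ← Finset.sum_add_distrib]
    refine Finset.sum_congr rfl fun b _ => ?_
    ring
  simp only [h]
  rw [Finset.sum_add_distrib, Finset.sum_sub_distrib, ← Finset.sum_mul, ← Finset.sum_mul,
    ← Finset.sum_mul, ← Finset.mul_sum]
  ring

theorem M6_alg2 (w v : Fin n → ℝ) :
    ∑ b, ∑ a, -(w b * (v b * (w a * (v a - v b)))) =
      (1 / 2) * ∑ a, ∑ b, w a * w b * (v a - v b) ^ 2 := by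
  rw [M6_alg1]
  have h : ∀ b, ∑ a, -(w b * (v b * (w a * (v a - v b)))) =
      w b * v b ^ 2 * (∑ a, w a) - w b * v b * (∑ a, w a * v a) := by
    intro b
    rw [Finset.mul_sum, Finset.mul_sum, ← Finset.sum_sub_distrib]
    refine Finset.sum_congr rfl fun a _ => ?_
    ring
  simp only [h]
  rw [Finset.sum_sub_distrib, ← Finset.sum_mul, ← Finset.sum_mul]
  ring

theorem M6_dirichlet (c : Fin n → ℕ) (R : Fin m → ℕ) (u : (Fin m → Fin n → ℕ) → ℝ) :
    -∑ x ∈ Om c R, u x * LL c u x = ∑ j, DD c R u j := by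
  unfold LL
  have h1 : ∀ x, u x * ∑ j, ∑ b, (if ∑ i, x i b < c b then V u j b x else 0) =
      ∑ j, ∑ b, (if ∑ i, x i b < c b then u x * V u j b x else 0) := by
    intro x
    rw [Finset.mul_sum]
    refine Finset.sum_congr rfl fun j _ => ?_
    rw [Finset.mul_sum]
    refine Finset.sum_congr rfl fun b _ => ?_
    split_ifs <;> simp
  simp only [h1]
  rw [Finset.sum_comm, ← Finset.sum_neg_distrib]
  refine Finset.sum_congr rfl fun j _ => ?_
  rw [Finset.sum_comm]
  have h2 : ∀ b, ∑ x ∈ Om c R, (if ∑ i, x i b < c b then u x * V u j b x else 0) =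
      ∑ X ∈ Om c (R + e1 j), (X j b : ℝ) * (u (X - E j b) *
        ∑ a, (X j a : ℝ) * (u (X - E j a) - u (X - E j b))) := by
    intro b
    rw [level1 c R j b (fun x => u x * V u j b x)]
    refine Finset.sum_congr rfl fun X _ => ?_
    split_ifs with hb
    · rw [V_level u hb]
      ring
    · rw [not_not] at hb
      rw [hb]; simp
  simp only [h2]
  rw [Finset.sum_comm, ← Finset.sum_neg_distrib]
  unfold DD
  rw [Finset.mul_sum]
  refine Finset.sum_congr rfl fun X _ => ?_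
  rw [← M6_alg2 (fun a => (X j a : ℝ)) (fun a => u (X - E j a)), ← Finset.sum_neg_distrib]
  refine Finset.sum_congr rfl fun b _ => ?_
  rw [Finset.mul_sum, Finset.mul_sum, ← Finset.sum_neg_distrib]

theorem M6_VV (c : Fin n → ℕ) (R : Fin m → ℕ) (u : (Fin m → Fin n → ℕ) → ℝ) (j : Fin m) :
    VV c R u j = ∑ X ∈ Om c (R + e1 j), ∑ b,
      ((X j b : ℝ) * ∑ a, (X j a : ℝ) * (u (X - E j a) - u (X - E j b))) ^ 2 := by
  unfold VV
  rw [Finset.sum_comm]
  have h2 : ∀ b, ∑ x ∈ Om c R, (if ∑ i, x i b < c b then (V u j b x) ^ 2 else 0) =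
      ∑ X ∈ Om c (R + e1 j),
        ((X j b : ℝ) * ∑ a, (X j a : ℝ) * (u (X - E j a) - u (X - E j b))) ^ 2 := by
    intro b
    rw [level1 c R j b (fun x => (V u j b x) ^ 2)]
    refine Finset.sum_congr rfl fun X _ => ?_
    split_ifs with hb
    · rw [V_level u hb]
    · rw [not_not] at hb
      rw [hb]; simp
  simp only [h2]
  rw [Finset.sum_comm]

theorem M6_le (c : Fin n → ℕ) (R : Fin m → ℕ) (u : (Fin m → Fin n → ℕ) → ℝ) (j : Fin m) :
    DD c R u j ≤ VV c R u j := by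
  rw [M6_VV]
  unfold DD
  rw [Finset.mul_sum]
  refine Finset.sum_le_sum fun X hX => ?_
  set w : Fin n → ℝ := fun a => (X j a : ℝ) with hw
  set v : Fin n → ℝ := fun a => u (X - E j a) with hv
  change (1 / 2) * ∑ a, ∑ b, w a * w b * (v a - v b) ^ 2 ≤
    ∑ b, (w b * ∑ a, w a * (v a - v b)) ^ 2
  have hW : ∑ a, w a = (R j : ℝ) + 1 := by
    have h1 := (mem_Om.1 hX).1 j
    have h2 : (∑ a, (X j a : ℕ) : ℝ) = (R j : ℝ) + 1 := by
      have h3 : ((∑ a, X j a : ℕ) : ℝ) = (((R + e1 j) j : ℕ) : ℝ) := by rw [h1]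
      simp only [Pi.add_apply, e1, if_true] at h3
      push_cast at h3
      exact h3
    exact h2
  have hG : ∀ b, ∑ a, w a * (v a - v b) = (∑ a, w a * v a) - (∑ a, w a) * v b := by
    intro b
    rw [Finset.sum_mul, ← Finset.sum_sub_distrib]
    refine Finset.sum_congr rfl fun a _ => ?_
    ring
  have hR0 : (0:ℝ) ≤ (R j : ℝ) := Nat.cast_nonneg _
  have hone : ∑ b, w b * (∑ a, w a * (v a - v b)) ^ 2 =
      (∑ a, w a) * ((1 / 2) * ∑ a, ∑ b, w a * w b * (v a - v b) ^ 2) := by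
    rw [M6_alg1]
    simp only [hG]
    set S := ∑ a, w a * v a with hS
    set W := ∑ a, w a with hW'
    have : ∀ b, w b * (S - W * v b) ^ 2 =
        S ^ 2 * w b - 2 * S * W * (w b * v b) + W ^ 2 * (w b * v b ^ 2) := by
      intro b; ring
    simp only [this]
    rw [Finset.sum_add_distrib, Finset.sum_sub_distrib, ← Finset.mul_sum, ← Finset.mul_sum,
      ← Finset.mul_sum, ← hS, ← hW']
    ring
  have hnn : 0 ≤ (1 / 2) * ∑ a, ∑ b, w a * w b * (v a - v b) ^ 2 := by
    refine mul_nonneg (by norm_num) (Finset.sum_nonneg fun a _ => Finset.sum_nonneg fun b _ => ?_)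
    have ha : 0 ≤ w a := Nat.cast_nonneg _
    have hb : 0 ≤ w b := Nat.cast_nonneg _
    positivity
  calc (1 / 2) * ∑ a, ∑ b, w a * w b * (v a - v b) ^ 2
      ≤ (∑ a, w a) * ((1 / 2) * ∑ a, ∑ b, w a * w b * (v a - v b) ^ 2) := by
        rw [hW]
        nlinarith
    _ = ∑ b, w b * (∑ a, w a * (v a - v b)) ^ 2 := hone.symm
    _ ≤ ∑ b, (w b * ∑ a, w a * (v a - v b)) ^ 2 := by
        refine Finset.sum_le_sum fun b _ => ?_
        rw [mul_pow]
        refine mul_le_mul_of_nonneg_right ?_ (sq_nonneg _)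
        rw [hw]
        simp only
        rcases Nat.eq_zero_or_pos (X j b) with h | h
        · rw [h]; simp
        · have : (1:ℝ) ≤ (X j b : ℝ) := by exact_mod_cast h
          nlinarith

end Vale.Agent.P328
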