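import Vale.Agent.Lib.P328.Defs

/-!
P328 unary theorem, module M7: hub switches connect all configurations.
-/

namespace Vale.Agent.P328

open Finset

variable {m n : ℕ}

theorem M7_mem_Om {c : Fin n → ℕ} {R : Fin m → ℕ} {x : Fin m → Fin n → ℕ} :
    x ∈ Om c R ↔ (∀ j, ∑ a, x j a = R j) ∧ ∀ a, ∑ j, x j a ≤ c a := by
  unfold Om
  rw [mem_filter]
  constructor
  · exact fun h => h.2
  · intro h
    refine ⟨?_, h⟩
    rw [Fintype.mem_piFinset]
    intro j
    rw [Fintype.mem_piFinset]
    intro a
    rw [mem_range]
    have h1 : x j a ≤ ∑ i, x i a := single_le_sum (f := fun i => x i a)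
      (fun i _ => Nat.zero_le _) (mem_univ j)
    have := h.2 a
    omega

theorem M7_sumE_row (j : Fin m) (b : Fin n) (i : Fin m) :
    ∑ a, E j b i a = e1 j i := by
  unfold E e1
  by_cases h : i = j
  · simp [h]
  · simp [h]

theorem M7_sumE_col (j : Fin m) (b : Fin n) (a : Fin n) :
    ∑ i, E j b i a = e1 b a := by
  unfold E e1
  by_cases h : a = b
  · simp [h]
  · simp [h]

theorem M7_sumE (j : Fin m) (b : Fin n) : ∑ i, ∑ a, E j b i a = 1 := by
  simp_rw [M7_sumE_row]
  unfold e1
  simp

/-- adding a unit in a column with slack -/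
theorem M7_add_mem {c : Fin n → ℕ} {R : Fin m → ℕ} {x : Fin m → Fin n → ℕ} (hx : x ∈ Om c R)
    {j : Fin m} {b : Fin n} (hb : ∑ i, x i b < c b) : x + E j b ∈ Om c (R + e1 j) := by
  rw [M7_mem_Om] at hx ⊢
  refine ⟨?_, ?_⟩
  · intro i
    simp only [Pi.add_apply]
    rw [sum_add_distrib, hx.1 i, M7_sumE_row]
  · intro a
    simp only [Pi.add_apply]
    rw [sum_add_distrib, M7_sumE_col]
    have := hx.2 a
    unfold e1
    split_ifs with h
    · subst h
      omega
    · omega

/-- the result of a move -/
theorem M7_add_back {x : Fin m → Fin n → ℕ} {j : Fin m} {a : Fin n} (h : x j a ≠ 0) :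
    x - E j a + E j a = x := by
  funext i b
  simp only [Pi.add_apply, Pi.sub_apply, E]
  split_ifs with hh
  · obtain ⟨rfl, rfl⟩ := hh
    omega
  · omega

theorem M7_sub_mem {c : Fin n → ℕ} {R : Fin m → ℕ} {X : Fin m → Fin n → ℕ} {j : Fin m}
    (hX : X ∈ Om c (R + e1 j)) {a : Fin n} (h : X j a ≠ 0) : X - E j a ∈ Om c R := by
  have hb := M7_add_back h
  rw [M7_mem_Om] at hX ⊢
  refine ⟨?_, ?_⟩
  · intro i
    have h1 := hX.1 i
    rw [← hb] at h1
    simp only [Pi.add_apply] at h1
    rw [sum_add_distrib, M7_sumE_row] at h1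
    exact Nat.add_right_cancel h1
  · intro b
    have h1 := hX.2 b
    rw [← hb] at h1
    simp only [Pi.add_apply] at h1
    rw [sum_add_distrib, M7_sumE_col] at h1
    exact le_trans (Nat.le_add_right _ _) h1

/-- one hub move -/
theorem M7_move {c : Fin n → ℕ} {R : Fin m → ℕ} {u : (Fin m → Fin n → ℕ) → ℝ}
    (h : ∀ j, ∀ x ∈ Om c (R + e1 j), ∀ a b, x j a ≠ 0 → x j b ≠ 0 → u (x - E j a) = u (x - E j b))
    {x : Fin m → Fin n → ℕ} (hx : x ∈ Om c R) {j : Fin m} {a b : Fin n}
    (ha : x j a ≠ 0) (hb : ∑ i, x i b < c b) :
    x + E j b - E j a ∈ Om c R ∧ u (x + E j b - E j a) = u x := by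
  have hX := M7_add_mem hx (j := j) hb
  have h1 : (x + E j b) j a ≠ 0 := by
    simp only [Pi.add_apply]
    omega
  have h2 : (x + E j b) j b ≠ 0 := by
    simp [E]
  refine ⟨M7_sub_mem hX h1, ?_⟩
  rw [h j _ hX a b h1 h2]
  congr 1
  funext i d
  simp

theorem M7_move_slack {c : Fin n → ℕ} {x : Fin m → Fin n → ℕ} {j : Fin m} {a b : Fin n}
    (hab : a ≠ b) (ha : x j a ≠ 0) (hca : ∑ i, x i a ≤ c a) :
    ∑ i, (x + E j b - E j a) i a < c a := by
  have h1 : (x + E j b) j a ≠ 0 := by
    simp only [Pi.add_apply]
    omega
  have hb := M7_add_back h1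
  have h2 : ∑ i, (x + E j b - E j a + E j a) i a = ∑ i, (x + E j b) i a := by rw [hb]
  simp only [Pi.add_apply] at h2
  rw [sum_add_distrib, sum_add_distrib, M7_sumE_col, M7_sumE_col] at h2
  have e1a : e1 a a = 1 := by simp [e1]
  have e1b : e1 b a = 0 := by simp [e1, hab]
  rw [e1a, e1b] at h2
  omega

/-- a general switch is a composition of hub moves -/
theorem M7_switch {c : Fin n → ℕ} {R : Fin m → ℕ} {u : (Fin m → Fin n → ℕ) → ℝ}
    (hub : 1 + ∑ i, R i ≤ ∑ a, c a)
    (h : ∀ j, ∀ x ∈ Om c (R + e1 j), ∀ a b, x j a ≠ 0 → x j b ≠ 0 → u (x - E j a) = u (x - E j b))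
    {x : Fin m → Fin n → ℕ} (hx : x ∈ Om c R) {j k : Fin m} (hjk : j ≠ k) {a b : Fin n}
    (hab : a ≠ b) (ha : x j a ≠ 0) (hb : x k b ≠ 0) :
    x + E j b + E k a - E j a - E k b ∈ Om c R ∧
      u (x + E j b + E k a - E j a - E k b) = u x := by
  have hx2 := (M7_mem_Om.1 hx).2
  -- a column with slack
  have hp : ∃ p, ∑ i, x i p < c p := by
    by_contra hcon
    push_neg at hcon
    have h1 : ∑ a, c a ≤ ∑ a, ∑ i, x i a := sum_le_sum fun a _ => hcon a
    rw [sum_comm] at h1
    have h2 : ∑ i, ∑ a, x i a = ∑ i, R i := sum_congr rfl fun i _ => (M7_mem_Om.1 hx).1 i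
    omega
  obtain ⟨p, hp⟩ := hp
  by_cases hpb : p = b
  · subst hpb
    obtain ⟨h1, h1u⟩ := M7_move h hx ha hp
    have hs := M7_move_slack (b := p) hab ha (hx2 a)
    have hk : (x + E j p - E j a) k p ≠ 0 := by
      simp only [Pi.add_apply, Pi.sub_apply, E]
      have : ¬ (k = j) := fun e => hjk e.symm
      simp [this, hb]
    obtain ⟨h2, h2u⟩ := M7_move h h1 hk hs
    have e : x + E j p - E j a + E k a - E k p = x + E j p + E k a - E j a - E k p := by
      funext i d
      simp only [Pi.add_apply, Pi.sub_apply, E]
      split_ifs <;> simp_all <;> omega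
    rw [e] at h2 h2u
    exact ⟨h2, h2u.trans h1u⟩
  by_cases hpa : p = a
  · subst hpa
    obtain ⟨h1, h1u⟩ := M7_move h hx hb hp
    have hs := M7_move_slack (b := p) (fun e => hab e.symm) hb (hx2 b)
    have hk : (x + E k p - E k b) j p ≠ 0 := by
      simp only [Pi.add_apply, Pi.sub_apply, E]
      simp [hjk, ha]
    obtain ⟨h2, h2u⟩ := M7_move h h1 hk hs
    have e : x + E k p - E k b + E j b - E j p = x + E j b + E k p - E j p - E k b := by
      funext i d
      simp only [Pi.add_apply, Pi.sub_apply, E]
      split_ifs <;> simp_all <;> omega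
    rw [e] at h2 h2u
    exact ⟨h2, h2u.trans h1u⟩
  -- three moves
  obtain ⟨h1, h1u⟩ := M7_move h hx ha hp
  have hap : a ≠ p := fun e => hpa e.symm
  have hs1 := M7_move_slack (b := p) hap ha (hx2 a)
  have hk : (x + E j p - E j a) k b ≠ 0 := by
    simp only [Pi.add_apply, Pi.sub_apply, E]
    have : ¬ (k = j) := fun e => hjk e.symm
    simp [this, hb]
  obtain ⟨h2, h2u⟩ := M7_move h h1 hk hs1
  have hs2 := M7_move_slack (c := c) (x := x + E j p - E j a) (j := k) (a := b) (b := a)
    (fun e => hab e.symm) hk ((M7_mem_Om.1 h1).2 b)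
  have hk3 : (x + E j p - E j a + E k a - E k b) j p ≠ 0 := by
    simp only [Pi.add_apply, Pi.sub_apply, E]
    simp [hjk, hpa]
  obtain ⟨h3, h3u⟩ := M7_move h h2 hk3 hs2
  have e : x + E j p - E j a + E k a - E k b + E j b - E j p
      = x + E j b + E k a - E j a - E k b := by
    funext i d
    simp only [Pi.add_apply, Pi.sub_apply, E]
    by_cases hij : i = j
    · subst hij
      have hik : ¬ (i = k) := hjk
      simp only [hik, false_and, if_false, true_and]
      by_cases hda : d = a
      · subst hda
        simp only [if_true, hap, hab, if_false]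
        omega
      by_cases hdb : d = b
      · subst hdb
        have hdp : ¬ (d = p) := fun e => hpb e.symm
        simp only [if_true, hdp, hda, if_false]
        omega
      by_cases hdp : d = p
      · subst hdp
        simp only [if_true, hda, hdb, if_false]
        omega
      · simp only [hda, hdb, hdp, if_false]
        omega
    · simp only [hij, false_and, if_false]
      omega
  rw [e] at h3 h3u
  exact ⟨h3, h3u.trans (h2u.trans h1u)⟩

theorem M7_aux {c : Fin n → ℕ} {R : Fin m → ℕ} {u : (Fin m → Fin n → ℕ) → ℝ}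
    (hub : 1 + ∑ i, R i ≤ ∑ a, c a)
    (h : ∀ j, ∀ x ∈ Om c (R + e1 j), ∀ a b, x j a ≠ 0 → x j b ≠ 0 → u (x - E j a) = u (x - E j b))
    {y : Fin m → Fin n → ℕ} (hy : y ∈ Om c R) :
    ∀ N, ∀ x ∈ Om c R, ∑ i, ∑ a, (x i a - y i a) ≤ N → u x = u y := by
  intro N
  induction N with
  | zero =>
    intro x hx hN
    have h0 : ∀ i a, x i a ≤ y i a := by
      intro i a
      have h1 : ∑ a, (x i a - y i a) ≤ ∑ i, ∑ a, (x i a - y i a) :=
        single_le_sum (f := fun i => ∑ a, (x i a - y i a)) (fun _ _ => Nat.zero_le _) (mem_univ i)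
      have h2 : x i a - y i a ≤ ∑ a, (x i a - y i a) :=
        single_le_sum (f := fun a => x i a - y i a) (fun _ _ => Nat.zero_le _) (mem_univ a)
      omega
    congr 1
    funext i a
    have hs : ∑ a, x i a = ∑ a, y i a := by
      rw [(M7_mem_Om.1 hx).1 i, (M7_mem_Om.1 hy).1 i]
    exact (sum_eq_sum_iff_of_le fun a _ => h0 i a).1 hs a (mem_univ a)
  | succ N ih =>
    intro x hx hN
    by_cases hxy : ∀ i a, x i a ≤ y i a
    · refine ih x hx ?_
      have : ∑ i, ∑ a, (x i a - y i a) = 0 := by
        refine sum_eq_zero fun i _ => sum_eq_zero fun a _ => ?_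
        have := hxy i a
        omega
      omega
    · push_neg at hxy
      obtain ⟨j, a, hja⟩ := hxy
      -- a column b with x j b < y j b
      have hb : ∃ b, x j b < y j b := by
        by_contra hcon
        push_neg at hcon
        have hs : ∑ a, y j a = ∑ a, x j a := by
          rw [(M7_mem_Om.1 hx).1 j, (M7_mem_Om.1 hy).1 j]
        have := (sum_eq_sum_iff_of_le fun a _ => hcon a).1 hs a (mem_univ a)
        omega
      obtain ⟨b, hjb⟩ := hb
      have hab : a ≠ b := by
        rintro rfl
        omega
      by_cases hs : ∑ i, x i b < c b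
      · obtain ⟨h1, h1u⟩ := M7_move h hx (j := j) (a := a) (b := b) (by omega) hs
        rw [← h1u]
        refine ih _ h1 ?_
        have key : ∑ i, ∑ d, (((x + E j b - E j a) i d - y i d) + E j a i d)
            ≤ ∑ i, ∑ d, (x i d - y i d) := by
          refine sum_le_sum fun i _ => sum_le_sum fun d _ => ?_
          simp only [Pi.add_apply, Pi.sub_apply, E]
          by_cases hij : i = j
          · subst hij
            simp only [true_and]
            by_cases hda : d = a
            · subst hda
              simp only [if_true, hab, if_false]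
              omega
            by_cases hdb : d = b
            · subst hdb
              simp only [if_true, hda, if_false]
              omega
            · simp only [hda, hdb, if_false]
              omega
          · simp only [hij, false_and, if_false]
            omega
        simp_rw [sum_add_distrib] at key
        rw [M7_sumE] at key
        omega
      · -- general switch
        have hk : ∃ k, y k b < x k b := by
          by_contra hcon
          push_neg at hcon
          have h1 : ∑ i, x i b < ∑ i, y i b :=
            sum_lt_sum (fun i _ => hcon i) ⟨j, mem_univ j, hjb⟩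
          have := (M7_mem_Om.1 hy).2 b
          omega
        obtain ⟨k, hkb⟩ := hk
        have hjk : j ≠ k := by
          rintro rfl
          omega
        obtain ⟨h1, h1u⟩ := M7_switch hub h hx hjk hab (by omega) (by omega)
        rw [← h1u]
        refine ih _ h1 ?_
        have key : ∑ i, ∑ d, (((x + E j b + E k a - E j a - E k b) i d - y i d) + E j a i d
            + E k b i d) ≤ ∑ i, ∑ d, ((x i d - y i d) + E k a i d) := by
          refine sum_le_sum fun i _ => sum_le_sum fun d _ => ?_
          simp only [Pi.add_apply, Pi.sub_apply, E]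
          by_cases hij : i = j
          · subst hij
            have hik : ¬ (i = k) := hjk
            simp only [hik, false_and, if_false, true_and]
            by_cases hda : d = a
            · subst hda
              simp only [if_true, hab, if_false]
              omega
            by_cases hdb : d = b
            · subst hdb
              simp only [if_true, hda, if_false]
              omega
            · simp only [hda, hdb, if_false]
              omega
          · by_cases hik : i = k
            · subst hik
              simp only [hij, false_and, if_false, true_and]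
              by_cases hda : d = a
              · subst hda
                simp only [if_true, hab, if_false]
                omega
              by_cases hdb : d = b
              · subst hdb
                simp only [if_true, hda, if_false]
                omega
              · simp only [hda, hdb, if_false]
                omega
            · simp only [hij, hik, false_and, if_false]
              omega
        simp_rw [sum_add_distrib] at key
        rw [M7_sumE, M7_sumE, M7_sumE] at key
        omega

/-- M7 -/
theorem M7_connected (c : Fin n → ℕ) (R : Fin m → ℕ) (u : (Fin m → Fin n → ℕ) → ℝ)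
    (hub : 1 + ∑ i, R i ≤ ∑ a, c a)
    (h : ∀ j, ∀ x ∈ Om c (R + e1 j), ∀ a b, x j a ≠ 0 → x j b ≠ 0 → u (x - E j a) = u (x - E j b)) :
    ∀ x ∈ Om c R, ∀ y ∈ Om c R, u x = u y :=
  fun x hx _ hy => M7_aux hub h hy _ x hx le_rfl

end Vale.Agent.P328
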