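import Vale.Agent.Lib.P328.Lvl
import Vale.Agent.Lib.P335.Spec

/-!
P328, module M8: symmetry of the generator of the hub chain and the spectral assembly.
-/

namespace Vale.Agent.P328

open Finset

variable {m n : ℕ}

/-- bilinear form of row `j` -/
noncomputable def M8_B (c : Fin n → ℕ) (R : Fin m → ℕ) (u v : (Fin m → Fin n → ℕ) → ℝ)
    (j : Fin m) : ℝ :=
  (1 / 2) * ∑ x ∈ Om c (R + e1 j), ∑ a, ∑ b, (x j a : ℝ) * (x j b : ℝ) *
    ((u (x - E j a) - u (x - E j b)) * (v (x - E j a) - v (x - E j b)))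

theorem M8_B_symm (c : Fin n → ℕ) (R : Fin m → ℕ) (u v : (Fin m → Fin n → ℕ) → ℝ)
    (j : Fin m) : M8_B c R u v j = M8_B c R v u j := by
  unfold M8_B
  congr 1
  refine Finset.sum_congr rfl fun x _ => Finset.sum_congr rfl fun a _ =>
    Finset.sum_congr rfl fun b _ => ?_
  ring

theorem M8_B_self (c : Fin n → ℕ) (R : Fin m → ℕ) (u : (Fin m → Fin n → ℕ) → ℝ)
    (j : Fin m) : M8_B c R u u j = DD c R u j := by
  unfold M8_B DD
  congr 1
  refine Finset.sum_congr rfl fun x _ => Finset.sum_congr rfl fun a _ =>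
    Finset.sum_congr rfl fun b _ => ?_
  ring

/-- antisymmetrization -/
private theorem M8_anti {ι : Type} [Fintype ι] (p U W : ι → ℝ) :
    ∑ b, W b * (p b * ∑ a, p a * (U a - U b))
      = -((1 / 2) * ∑ a, ∑ b, p a * p b * ((U a - U b) * (W a - W b))) := by
  have h1 : ∑ b, W b * (p b * ∑ a, p a * (U a - U b))
      = ∑ a, ∑ b, p a * p b * ((U a - U b) * W b) := by
    rw [Finset.sum_comm]
    refine Finset.sum_congr rfl fun b _ => ?_
    rw [Finset.mul_sum, Finset.mul_sum]
    refine Finset.sum_congr rfl fun a _ => ?_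
    ring
  have h2 : ∑ b, W b * (p b * ∑ a, p a * (U a - U b))
      = ∑ a, ∑ b, p a * p b * ((U b - U a) * W a) := by
    rw [h1, Finset.sum_comm]
    refine Finset.sum_congr rfl fun b _ => Finset.sum_congr rfl fun a _ => ?_
    ring
  have h3 : ∑ a, ∑ b, p a * p b * ((U a - U b) * (W a - W b))
      = -(∑ a, ∑ b, p a * p b * ((U a - U b) * W b))
        - ∑ a, ∑ b, p a * p b * ((U b - U a) * W a) := by
    rw [← Finset.sum_neg_distrib, ← Finset.sum_sub_distrib]
    refine Finset.sum_congr rfl fun a _ => ?_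
    rw [← Finset.sum_neg_distrib, ← Finset.sum_sub_distrib]
    refine Finset.sum_congr rfl fun b _ => ?_
    ring
  rw [h3, ← h1, ← h2]
  ring

/-- bilinear form of the generator -/
theorem M8_bil (c : Fin n → ℕ) (R : Fin m → ℕ) (u v : (Fin m → Fin n → ℕ) → ℝ) :
    -∑ x ∈ Om c R, v x * LL c u x = ∑ j, M8_B c R u v j := by
  have h1 : ∑ x ∈ Om c R, v x * LL c u x
      = ∑ j, ∑ b, ∑ x ∈ Om c R, (if ∑ i, x i b < c b then v x * V u j b x else 0) := by
    unfold LL
    have : ∀ x ∈ Om c R, v x * ∑ j, ∑ b, (if ∑ i, x i b < c b then V u j b x else 0)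
        = ∑ j, ∑ b, (if ∑ i, x i b < c b then v x * V u j b x else 0) := by
      intro x _
      rw [Finset.mul_sum]
      refine Finset.sum_congr rfl fun j _ => ?_
      rw [Finset.mul_sum]
      refine Finset.sum_congr rfl fun b _ => ?_
      rw [mul_ite, mul_zero]
    rw [Finset.sum_congr rfl this, Finset.sum_comm]
    refine Finset.sum_congr rfl fun j _ => ?_
    rw [Finset.sum_comm]
  rw [h1, ← Finset.sum_neg_distrib]
  refine Finset.sum_congr rfl fun j _ => ?_
  have h2 : ∀ b : Fin n, ∑ x ∈ Om c R, (if ∑ i, x i b < c b then v x * V u j b x else 0)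
      = ∑ X ∈ Om c (R + e1 j), v (X - E j b) * ((X j b : ℝ)
        * ∑ a, (X j a : ℝ) * (u (X - E j a) - u (X - E j b))) := by
    intro b
    rw [level1 c R j b (fun x => v x * V u j b x)]
    refine Finset.sum_congr rfl fun X _ => ?_
    split_ifs with hb
    · rw [V_level u hb]
    · rw [not_not] at hb
      rw [hb]
      simp
  rw [Finset.sum_congr rfl fun b _ => h2 b, Finset.sum_comm]
  unfold M8_B
  rw [Finset.mul_sum, ← Finset.sum_neg_distrib]
  refine Finset.sum_congr rfl fun X _ => ?_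
  rw [M8_anti (fun a => (X j a : ℝ)) (fun a => u (X - E j a)) (fun a => v (X - E j a))]
  rw [neg_neg]

/-- extension by zero of a function on `Om c R` -/
noncomputable def M8_ext (c : Fin n → ℕ) (R : Fin m → ℕ) (w : {x // x ∈ Om c R} → ℝ)
    (x : Fin m → Fin n → ℕ) : ℝ := by
  classical exact if h : x ∈ Om c R then w ⟨x, h⟩ else 0

theorem M8_ext_mem {c : Fin n → ℕ} {R : Fin m → ℕ} (w : {x // x ∈ Om c R} → ℝ)
    {x : Fin m → Fin n → ℕ} (h : x ∈ Om c R) : M8_ext c R w x = w ⟨x, h⟩ := by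
  unfold M8_ext
  simp [h]

theorem M8_ext_add (c : Fin n → ℕ) (R : Fin m → ℕ) (w z : {x // x ∈ Om c R} → ℝ)
    (x : Fin m → Fin n → ℕ) : M8_ext c R (w + z) x = M8_ext c R w x + M8_ext c R z x := by
  unfold M8_ext
  by_cases h : x ∈ Om c R <;> simp [h]

theorem M8_ext_smul (c : Fin n → ℕ) (R : Fin m → ℕ) (t : ℝ) (w : {x // x ∈ Om c R} → ℝ)
    (x : Fin m → Fin n → ℕ) : M8_ext c R (t • w) x = t * M8_ext c R w x := by
  unfold M8_ext
  by_cases h : x ∈ Om c R <;> simp [h]

theorem M8_LL_add (c : Fin n → ℕ) (u v w : (Fin m → Fin n → ℕ) → ℝ)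
    (h : ∀ x, w x = u x + v x) (x : Fin m → Fin n → ℕ) : LL c w x = LL c u x + LL c v x := by
  unfold LL V
  rw [← Finset.sum_add_distrib]
  refine Finset.sum_congr rfl fun j _ => ?_
  rw [← Finset.sum_add_distrib]
  refine Finset.sum_congr rfl fun b _ => ?_
  split_ifs
  · rw [← mul_add, ← Finset.sum_add_distrib]
    congr 1
    refine Finset.sum_congr rfl fun a _ => ?_
    rw [h, h]
    ring
  · simp

theorem M8_LL_smul (c : Fin n → ℕ) (t : ℝ) (u w : (Fin m → Fin n → ℕ) → ℝ)
    (h : ∀ x, w x = t * u x) (x : Fin m → Fin n → ℕ) : LL c w x = t * LL c u x := by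
  unfold LL V
  rw [Finset.mul_sum]
  refine Finset.sum_congr rfl fun j _ => ?_
  rw [Finset.mul_sum]
  refine Finset.sum_congr rfl fun b _ => ?_
  split_ifs
  · have : ∀ y : ℝ, t * (y * ∑ a, ((x + E j b) j a : ℝ) * (u (x + E j b - E j a) - u x))
        = y * ∑ a, t * (((x + E j b) j a : ℝ) * (u (x + E j b - E j a) - u x)) := by
      intro y
      rw [← Finset.mul_sum]
      ring
    rw [this]
    congr 1
    refine Finset.sum_congr rfl fun a _ => ?_
    rw [h, h]
    ring
  · simp

/-- the operator `-L` on functions on `Om c R` -/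
noncomputable def M8_A (c : Fin n → ℕ) (R : Fin m → ℕ) :
    ({x // x ∈ Om c R} → ℝ) →ₗ[ℝ] ({x // x ∈ Om c R} → ℝ) where
  toFun w := fun x => -LL c (M8_ext c R w) x.1
  map_add' w z := by
    funext x
    rw [M8_LL_add c _ _ _ (M8_ext_add c R w z)]
    simp only [Pi.add_apply]
    ring
  map_smul' t w := by
    funext x
    rw [M8_LL_smul c t _ _ (M8_ext_smul c R t w)]
    simp only [Pi.smul_apply, RingHom.id_apply, smul_eq_mul]
    ring

theorem M8_A_apply (c : Fin n → ℕ) (R : Fin m → ℕ) (w : {x // x ∈ Om c R} → ℝ)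
    (x : {x // x ∈ Om c R}) : M8_A c R w x = -LL c (M8_ext c R w) x.1 := rfl

theorem M8_sum (c : Fin n → ℕ) (R : Fin m → ℕ) (F : (Fin m → Fin n → ℕ) → ℝ) :
    ∑ x : {x // x ∈ Om c R}, F x.1 = ∑ x ∈ Om c R, F x :=
  Finset.sum_coe_sort (Om c R) F

theorem M8_A_bil (c : Fin n → ℕ) (R : Fin m → ℕ) (f g : {x // x ∈ Om c R} → ℝ) :
    ∑ x, M8_A c R f x * g x = ∑ j, M8_B c R (M8_ext c R f) (M8_ext c R g) j := by
  rw [← M8_bil, ← M8_sum c R, ← Finset.sum_neg_distrib]
  refine Finset.sum_congr rfl fun x _ => ?_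
  rw [M8_A_apply, M8_ext_mem g x.2]
  ring

theorem DD_nonneg (c : Fin n → ℕ) (R : Fin m → ℕ) (u : (Fin m → Fin n → ℕ) → ℝ)
    (j : Fin m) : 0 ≤ DD c R u j := by
  unfold DD
  refine mul_nonneg (by norm_num) (Finset.sum_nonneg fun x _ => Finset.sum_nonneg fun a _ =>
    Finset.sum_nonneg fun b _ => ?_)
  positivity

/-- the spectral assembly, with the other modules as hypotheses -/
theorem M8_of (c : Fin n → ℕ) (R : Fin m → ℕ) (u : (Fin m → Fin n → ℕ) → ℝ)
    (hub : ∀ j, R j + 1 + ∑ i, R i ≤ ∑ a, c a)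
    (h5 : ∀ u : (Fin m → Fin n → ℕ) → ℝ,
      ∑ j, VV c R u j ≤ 7 * n * ((∑ a, c a : ℕ) + 1 : ℝ) ^ 6 * ∑ x ∈ Om c R, (LL c u x) ^ 2)
    (h6 : ∀ (u : (Fin m → Fin n → ℕ) → ℝ) (j : Fin m), DD c R u j ≤ VV c R u j)
    (h7 : ∀ u : (Fin m → Fin n → ℕ) → ℝ, 1 + ∑ i, R i ≤ ∑ a, c a →
      (∀ j, ∀ x ∈ Om c (R + e1 j), ∀ a b, x j a ≠ 0 → x j b ≠ 0 →
        u (x - E j a) = u (x - E j b)) → ∀ x ∈ Om c R, ∀ y ∈ Om c R, u x = u y)
    (hu : ∑ x ∈ Om c R, u x = 0) :
    ∑ x ∈ Om c R, u x ^ 2 ≤ 7 * n * ((∑ a, c a : ℕ) + 1 : ℝ) ^ 6 * ∑ j, DD c R u j := by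
  have hDD : 0 ≤ ∑ j, DD c R u j := Finset.sum_nonneg fun j _ => DD_nonneg c R u j
  have hR0 : 0 ≤ 7 * (n : ℝ) * ((∑ a, c a : ℕ) + 1 : ℝ) ^ 6 * ∑ j, DD c R u j := by positivity
  rcases isEmpty_or_nonempty (Fin m × Fin n) with hE | hE
  · -- at most one configuration
    have hsub : ∀ x y : Fin m → Fin n → ℕ, x = y := by
      intro x y
      funext i a
      exact (hE.false (i, a)).elim
    refine le_trans (le_of_eq ?_) hR0
    refine Finset.sum_eq_zero fun x hx => ?_
    have h1 : Om c R = {x} := by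
      rw [Finset.eq_singleton_iff_unique_mem]
      exact ⟨hx, fun y _ => hsub y x⟩
    rw [h1, Finset.sum_singleton] at hu
    rw [hu]
    norm_num
  · obtain ⟨j0, a0⟩ := hE.some
    have hn : 0 < n := a0.pos
    have hhub : 1 + ∑ i, R i ≤ ∑ a, c a := by
      have := hub j0
      omega
    have hC : 0 < 7 * (n : ℝ) * ((∑ a, c a : ℕ) + 1 : ℝ) ^ 6 := by
      have : (0 : ℝ) < n := by exact_mod_cast hn
      positivity
    have key := Vale.Agent.Lib.P335.spec_gap (M8_A c R)
      (by
        intro f g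
        have h1 := M8_A_bil c R f g
        have h2 := M8_A_bil c R g f
        rw [h1]
        have h3 : ∑ x, f x * M8_A c R g x = ∑ x, M8_A c R g x * f x :=
          Finset.sum_congr rfl fun x _ => mul_comm _ _
        rw [h3, h2]
        exact Finset.sum_congr rfl fun j _ => M8_B_symm c R _ _ j)
      (1 / (7 * (n : ℝ) * ((∑ a, c a : ℕ) + 1 : ℝ) ^ 6)) (by positivity)
      (by
        intro f
        rw [M8_A_bil]
        refine Finset.sum_nonneg fun j _ => ?_
        rw [M8_B_self]
        exact DD_nonneg c R _ j)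
      (by
        intro f
        rw [M8_A_bil]
        have h1 : ∑ x, (M8_A c R f x) ^ 2 = ∑ x ∈ Om c R, (LL c (M8_ext c R f) x) ^ 2 := by
          rw [← M8_sum c R]
          refine Finset.sum_congr rfl fun x _ => ?_
          rw [M8_A_apply, neg_sq]
        rw [h1, one_div, inv_mul_le_iff₀ hC]
        refine le_trans ?_ (h5 _)
        refine Finset.sum_le_sum fun j _ => ?_
        rw [M8_B_self]
        exact h6 _ j)
      (fun x => u x.1)
      (by
        intro g hg
        have h1 : ∑ j, DD c R (M8_ext c R g) j = 0 := by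
          have h2 := M8_A_bil c R g g
          rw [hg] at h2
          simp only [Pi.zero_apply, zero_mul, Finset.sum_const_zero] at h2
          rw [h2]
          exact Finset.sum_congr rfl fun j _ => (M8_B_self c R _ j).symm
        have h2 := (Finset.sum_eq_zero_iff_of_nonneg
          (fun j _ => DD_nonneg c R (M8_ext c R g) j)).1 h1
        have h3 := h7 (M8_ext c R g) hhub (by
          intro j x hx a b ha hb
          have h4 := h2 j (Finset.mem_univ j)
          unfold DD at h4
          have h5 : ∑ x ∈ Om c (R + e1 j), ∑ a, ∑ b, (x j a : ℝ) * (x j b : ℝ) *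
              (M8_ext c R g (x - E j a) - M8_ext c R g (x - E j b)) ^ 2 = 0 := by linarith
          have h6 := (Finset.sum_eq_zero_iff_of_nonneg (fun x _ =>
            Finset.sum_nonneg fun a _ => Finset.sum_nonneg fun b _ => by positivity)).1 h5 x hx
          have h7 := (Finset.sum_eq_zero_iff_of_nonneg (fun a _ =>
            Finset.sum_nonneg fun b _ => by positivity)).1 h6 a (Finset.mem_univ a)
          have h8 := (Finset.sum_eq_zero_iff_of_nonneg (fun b _ => by positivity)).1 h7 b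
            (Finset.mem_univ b)
          have pa : (0 : ℝ) < x j a := by exact_mod_cast Nat.pos_of_ne_zero ha
          have pb : (0 : ℝ) < x j b := by exact_mod_cast Nat.pos_of_ne_zero hb
          have h9 : (M8_ext c R g (x - E j a) - M8_ext c R g (x - E j b)) ^ 2 = 0 := by
            rcases mul_eq_zero.1 h8 with h | h
            · exact absurd h (by positivity)
            · exact h
          exact sub_eq_zero.1 (pow_eq_zero_iff (two_ne_zero) |>.1 h9))
        have h4 : ∀ x : {x // x ∈ Om c R}, ∀ y : {x // x ∈ Om c R}, g x = g y := by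
          intro x y
          have := h3 x.1 x.2 y.1 y.2
          rw [M8_ext_mem g x.2, M8_ext_mem g y.2] at this
          exact this
        rcases isEmpty_or_nonempty {x // x ∈ Om c R} with hE2 | hE2
        · exact Finset.sum_eq_zero fun x _ => (hE2.false x).elim
        · have h5 : ∑ x : {x // x ∈ Om c R}, u x.1 * g x = ∑ x : {x // x ∈ Om c R}, u x.1
              * g hE2.some := Finset.sum_congr rfl fun x _ => by rw [h4 x hE2.some]
          rw [h5, ← Finset.sum_mul, M8_sum c R u, hu, zero_mul])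
    have h1 : ∑ x : {x // x ∈ Om c R}, u x.1 ^ 2 = ∑ x ∈ Om c R, u x ^ 2 :=
      M8_sum c R fun x => u x ^ 2
    have h2 : ∑ x, M8_A c R (fun x => u x.1) x * u x.1 = ∑ j, DD c R u j := by
      have h3 := M8_A_bil c R (fun x => u x.1) (fun x => u x.1)
      rw [h3]
      refine Finset.sum_congr rfl fun j _ => ?_
      rw [← M8_B_self]
      unfold M8_B
      congr 1
      refine Finset.sum_congr rfl fun x hx => Finset.sum_congr rfl fun a _ =>
        Finset.sum_congr rfl fun b _ => ?_
      by_cases ha : x j a = 0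
      · rw [ha]; simp
      by_cases hb : x j b = 0
      · rw [hb]; simp
      have mem : ∀ a, x j a ≠ 0 → x - E j a ∈ Om c R := by
        intro a ha
        have e : x - E j a + E j a = x := sub_add_of_le (E_le_iff.2 ha)
        rw [mem_Om] at hx ⊢
        refine ⟨fun i => ?_, fun b => ?_⟩
        · have h1 := hx.1 i
          have h2 : ∑ b, (x - E j a + E j a) i b = (R + e1 j) i := by rw [e]; exact h1
          simp only [Pi.add_apply, Finset.sum_add_distrib, E_row_sum] at h2
          omega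
        · refine le_trans (Finset.sum_le_sum fun i _ => ?_) (hx.2 b)
          simp only [Pi.sub_apply]
          omega
      rw [M8_ext_mem _ (mem a ha), M8_ext_mem _ (mem b hb)]
    rw [h1, h2, one_div, inv_mul_le_iff₀ hC] at key
    exact key

end Vale.Agent.P328
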