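import Vale.Agent.Lib.P328.M1
import Vale.Agent.Lib.P328.M2
import Vale.Agent.Lib.P328.M3
import Vale.Agent.Lib.P328.M4
import Vale.Agent.Lib.P328.M5
import Vale.Agent.Lib.P328.M6
import Vale.Agent.Lib.P328.M7
import Vale.Agent.Lib.P328.M8

/-!
P328: Poincaré inequality of the hub chain.
-/

namespace Vale.Agent.P328

open Finset

variable {m n : ℕ}

/-- M5 -/
theorem M5_flux (c : Fin n → ℕ) (R : Fin m → ℕ) (u : (Fin m → Fin n → ℕ) → ℝ)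
    (hub : ∀ j, R j + 1 + ∑ i, R i ≤ ∑ a, c a) :
    ∑ j, VV c R u j ≤ 7 * n * ((∑ a, c a : ℕ) + 1 : ℝ) ^ 6 * ∑ x ∈ Om c R, (LL c u x) ^ 2 :=
  M5_of (M5_hardy_holds n) c R u (M1_bochner c R u) (fun _ _ h => M2_cross c R u h)
    (fun j => M3_own c R u j) hub

/-- M8: Poincaré inequality of the hub chain -/
theorem M8_poincare (c : Fin n → ℕ) (R : Fin m → ℕ) (u : (Fin m → Fin n → ℕ) → ℝ)
    (hub : ∀ j, R j + 1 + ∑ i, R i ≤ ∑ a, c a) (hu : ∑ x ∈ Om c R, u x = 0) :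
    ∑ x ∈ Om c R, u x ^ 2 ≤ 7 * n * ((∑ a, c a : ℕ) + 1 : ℝ) ^ 6 * ∑ j, DD c R u j :=
  M8_of c R u hub (fun v => M5_flux c R v hub) (fun v j => M6_le c R v j)
    (fun v h1 h2 => M7_connected c R v h1 h2) hu

end Vale.Agent.P328
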