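import Vale.Agent.Lib.P328.Lvl

/-!
P328, module M1: split of the square of the generator of the hub chain. The conflict terms (both rows
take the last unit of the hub in the same column) are perfect squares.
-/

namespace Vale.Agent.P328

open Finset

variable {m n : ℕ}

theorem M1_ok_iff {c : Fin n → ℕ} {R : Fin m → ℕ} {x : Fin m → Fin n → ℕ} (hx : x ∈ Om c R)
    (j k : Fin m) (b b' : Fin n) :
    (∀ a, ∑ i, (x + E j b + E k b') i a ≤ c a) ↔
      (∑ i, x i b < c b ∧ ∑ i, x i b' < c b' ∧ ¬ (b = b' ∧ ∑ i, x i b + 1 = c b)) := by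
  have hs : ∀ a, ∑ i, (x + E j b + E k b') i a = ∑ i, x i a + e1 b a + e1 b' a := by
    intro a
    simp only [Pi.add_apply, Finset.sum_add_distrib, E_col_sum]
  simp only [hs]
  rw [mem_Om] at hx
  have hc := hx.2
  have hself : ∀ b : Fin n, e1 b b = 1 := fun b => by simp [e1]
  have hne : ∀ a b : Fin n, a ≠ b → e1 b a = 0 := fun a b h => by simp [e1, h]
  constructor
  · intro h
    by_cases hbb : b = b'
    · subst hbb
      have h1 := h b
      rw [hself] at h1
      refine ⟨by omega, by omega, ?_⟩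
      rintro ⟨-, h2⟩
      omega
    · have h1 := h b
      have h2 := h b'
      rw [hself, hne b b' hbb] at h1
      rw [hself, hne b' b (Ne.symm hbb)] at h2
      exact ⟨by omega, by omega, fun h3 => hbb h3.1⟩
  · rintro ⟨h1, h2, h3⟩ a
    have h4 := hc a
    by_cases hab : a = b
    · subst hab
      by_cases hab' : a = b'
      · subst hab'
        rw [hself]
        have : ¬ (∑ i, x i a + 1 = c a) := fun h5 => h3 ⟨rfl, h5⟩
        omega
      · rw [hself, hne a b' hab']
        omega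
    · by_cases hab' : a = b'
      · subst hab'
        rw [hself, hne a b hab]
        omega
      · rw [hne a b hab, hne a b' hab']
        omega

/-- M1 -/
theorem M1_bochner (c : Fin n → ℕ) (R : Fin m → ℕ) (u : (Fin m → Fin n → ℕ) → ℝ) :
    ∑ j, ∑ k, NN c R u j k ≤ ∑ x ∈ Om c R, (LL c u x) ^ 2 := by
  have h0 : ∑ j, ∑ k, NN c R u j k = ∑ x ∈ Om c R, ∑ j, ∑ k, ∑ b, ∑ b',
      (if (∀ a, ∑ i, (x + E j b + E k b') i a ≤ c a) then V u j b x * V u k b' x else 0) := by
    unfold NN
    have h1 : ∀ j : Fin m, ∑ k, ∑ x ∈ Om c R, ∑ b, ∑ b',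
        (if (∀ a, ∑ i, (x + E j b + E k b') i a ≤ c a) then V u j b x * V u k b' x else 0) =
        ∑ x ∈ Om c R, ∑ k, ∑ b, ∑ b',
        (if (∀ a, ∑ i, (x + E j b + E k b') i a ≤ c a) then V u j b x * V u k b' x else 0) :=
      fun j => Finset.sum_comm
    simp only [h1]
    rw [Finset.sum_comm]
  rw [h0]
  refine Finset.sum_le_sum fun x hx => ?_
  -- pointwise
  have hLL : LL c u x = ∑ b, if ∑ i, x i b < c b then ∑ j, V u j b x else 0 := by
    unfold LL
    rw [Finset.sum_comm]
    refine Finset.sum_congr rfl fun b _ => ?_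
    split_ifs
    · rfl
    · simp
  have h2 : (LL c u x) ^ 2 = ∑ b, ∑ b', if (∑ i, x i b < c b ∧ ∑ i, x i b' < c b') then
      (∑ j, V u j b x) * (∑ j, V u j b' x) else 0 := by
    rw [hLL, sq, Finset.sum_mul_sum]
    refine Finset.sum_congr rfl fun b _ => Finset.sum_congr rfl fun b' _ => ?_
    by_cases h1 : ∑ i, x i b < c b <;> by_cases h2 : ∑ i, x i b' < c b' <;> simp [h1, h2]
  have h3 : ∑ j, ∑ k, ∑ b, ∑ b',
      (if (∀ a, ∑ i, (x + E j b + E k b') i a ≤ c a) then V u j b x * V u k b' x else 0) =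
      ∑ b, ∑ b', if (∑ i, x i b < c b ∧ ∑ i, x i b' < c b' ∧ ¬ (b = b' ∧ ∑ i, x i b + 1 = c b))
        then (∑ j, V u j b x) * (∑ j, V u j b' x) else 0 := by
    simp only [M1_ok_iff hx]
    have e1 : ∀ j : Fin m, ∑ k, ∑ b, ∑ b', (if (∑ i, x i b < c b ∧ ∑ i, x i b' < c b' ∧
        ¬ (b = b' ∧ ∑ i, x i b + 1 = c b)) then V u j b x * V u k b' x else 0) =
        ∑ b, ∑ b', ∑ k, (if (∑ i, x i b < c b ∧ ∑ i, x i b' < c b' ∧
        ¬ (b = b' ∧ ∑ i, x i b + 1 = c b)) then V u j b x * V u k b' x else 0) := by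
      intro j
      rw [Finset.sum_comm]
      refine Finset.sum_congr rfl fun b _ => ?_
      rw [Finset.sum_comm]
    simp only [e1]
    rw [Finset.sum_comm]
    refine Finset.sum_congr rfl fun b _ => ?_
    rw [Finset.sum_comm]
    refine Finset.sum_congr rfl fun b' _ => ?_
    split_ifs
    · rw [Finset.sum_mul_sum]
    · simp
  rw [h2, h3, ← sub_nonneg, ← Finset.sum_sub_distrib]
  refine Finset.sum_nonneg fun b _ => ?_
  rw [← Finset.sum_sub_distrib]
  have h4 : ∀ b' : Fin n, ((if (∑ i, x i b < c b ∧ ∑ i, x i b' < c b') then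
      (∑ j, V u j b x) * (∑ j, V u j b' x) else 0) -
      (if (∑ i, x i b < c b ∧ ∑ i, x i b' < c b' ∧ ¬ (b = b' ∧ ∑ i, x i b + 1 = c b))
        then (∑ j, V u j b x) * (∑ j, V u j b' x) else 0)) =
      if b = b' then (if ∑ i, x i b + 1 = c b then (∑ j, V u j b x) ^ 2 else 0) else 0 := by
    intro b'
    by_cases hbb : b = b'
    · subst hbb
      by_cases h5 : ∑ i, x i b + 1 = c b
      · have h6 : ∑ i, x i b < c b := by omega
        simp [h5, h6]
        ring
      · by_cases h6 : ∑ i, x i b < c b <;> simp [h5, h6]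
    · simp [hbb]
  simp only [h4]
  rw [Finset.sum_ite_eq]
  simp only [Finset.mem_univ, if_true]
  split_ifs
  · positivity
  · exact le_refl 0

end Vale.Agent.P328
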