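import Vale.Agent.Lib.P328.Defs

/-!
P328, module M4, part 1: moves from column `b` to column `p`.
-/

namespace Vale.Agent.P328

open Finset

variable {n : ℕ}

theorem M4_memX {d : Fin n → ℕ} {r : ℕ} {y : Fin n → ℕ} :
    y ∈ X d r ↔ (∀ a, y a ≤ d a) ∧ ∑ a, y a = r := by
  unfold X
  rw [mem_filter, Fintype.mem_piFinset]
  simp only [mem_range]
  constructor
  · rintro ⟨h1, h2⟩
    exact ⟨fun a => by have := h1 a; omega, h2⟩
  · rintro ⟨h1, h2⟩
    exact ⟨fun a => by have := h1 a; omega, h2⟩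

/-- the edge energy of `W` at `(y, a)` -/
noncomputable def M4_ee (d : Fin n → ℕ) (b : Fin n) (W : (Fin n → ℕ) → ℝ) (y : Fin n → ℕ)
    (a : Fin n) : ℝ :=
  if a ≠ b ∧ y b < d b ∧ y a < d a then
    (W y - (if y b = 0 then 0 else W (y + e1 a - e1 b))) ^ 2 else 0

theorem M4_ee_nonneg (d : Fin n → ℕ) (b : Fin n) (W : (Fin n → ℕ) → ℝ) (y : Fin n → ℕ)
    (a : Fin n) : 0 ≤ M4_ee d b W y a := by
  unfold M4_ee
  split_ifs
  · positivity
  · positivity
  · exact le_refl 0

theorem M4_e1_self (a : Fin n) : e1 a a = 1 := by simp [e1]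

theorem M4_e1_ne {a b : Fin n} (h : b ≠ a) : e1 a b = 0 := by simp [e1, h]

theorem M4_e1_sum (a : Fin n) : ∑ t, e1 a t = 1 := by simp [e1]

/-- move `i` units from column `b` to column `p` -/
def M4_sh (b p : Fin n) (i : ℕ) (y : Fin n → ℕ) : Fin n → ℕ := fun a =>
  if a = b then y b - i else if a = p then y p + i else y a

theorem M4_sh_b {b p : Fin n} (i : ℕ) (y : Fin n → ℕ) : M4_sh b p i y b = y b - i := by
  simp [M4_sh]

theorem M4_sh_p {b p : Fin n} (hbp : b ≠ p) (i : ℕ) (y : Fin n → ℕ) :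
    M4_sh b p i y p = y p + i := by
  simp [M4_sh, hbp.symm]

theorem M4_sh_o {b p a : Fin n} (hb : a ≠ b) (hp : a ≠ p) (i : ℕ) (y : Fin n → ℕ) :
    M4_sh b p i y a = y a := by
  simp [M4_sh, hb, hp]

theorem M4_sh_zero {b p : Fin n} (y : Fin n → ℕ) : M4_sh b p 0 y = y := by
  funext a
  unfold M4_sh
  split_ifs with h1 h2
  · rw [h1]; rfl
  · rw [h2]; rfl
  · rfl

theorem M4_sh_succ {b p : Fin n} (hbp : b ≠ p) {i : ℕ} {y : Fin n → ℕ} (hi : i < y b) :
    M4_sh b p i y + e1 p - e1 b = M4_sh b p (i + 1) y := by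
  funext a
  simp only [Pi.add_apply, Pi.sub_apply]
  by_cases h1 : a = b
  · rw [h1, M4_sh_b, M4_sh_b, M4_e1_self, M4_e1_ne hbp]
    omega
  · by_cases h2 : a = p
    · rw [h2, M4_sh_p hbp, M4_sh_p hbp, M4_e1_self, M4_e1_ne hbp.symm]
      omega
    · rw [M4_sh_o h1 h2, M4_sh_o h1 h2, M4_e1_ne h1, M4_e1_ne h2]
      omega

theorem M4_sh_sum {b p : Fin n} (hbp : b ≠ p) {i : ℕ} {y : Fin n → ℕ} (hi : i ≤ y b) :
    ∑ a, M4_sh b p i y a = ∑ a, y a := by
  have h1 : ∀ a, M4_sh b p i y a + i * e1 b a = y a + i * e1 p a := by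
    intro a
    by_cases h1 : a = b
    · rw [h1, M4_sh_b, M4_e1_self, M4_e1_ne hbp]
      omega
    · by_cases h2 : a = p
      · rw [h2, M4_sh_p hbp, M4_e1_self, M4_e1_ne hbp.symm]
        omega
      · rw [M4_sh_o h1 h2, M4_e1_ne h1, M4_e1_ne h2]
  have h2 : ∑ a, (M4_sh b p i y a + i * e1 b a) = ∑ a, (y a + i * e1 p a) :=
    Finset.sum_congr rfl fun a _ => h1 a
  rw [Finset.sum_add_distrib, Finset.sum_add_distrib, ← Finset.mul_sum, ← Finset.mul_sum,
    M4_e1_sum, M4_e1_sum] at h2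
  omega

/-- the difference of `W` along the edge towards `p` -/
noncomputable def M4_del (b p : Fin n) (W : (Fin n → ℕ) → ℝ) (y : Fin n → ℕ) : ℝ :=
  W y - (if y b = 0 then 0 else W (y + e1 p - e1 b))

theorem M4_tel {b p : Fin n} (hbp : b ≠ p) (W : (Fin n → ℕ) → ℝ) (y : Fin n → ℕ) :
    ∑ i ∈ range (y b + 1), M4_del b p W (M4_sh b p i y) = W y := by
  have h1 : ∀ k, k ≤ y b → ∑ i ∈ range k, M4_del b p W (M4_sh b p i y) =
      W y - W (M4_sh b p k y) := by
    intro k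
    induction k with
    | zero => intro _; rw [M4_sh_zero]; simp
    | succ k ih =>
      intro hk
      rw [Finset.sum_range_succ, ih (by omega)]
      unfold M4_del
      rw [if_neg (by rw [M4_sh_b]; omega), M4_sh_succ hbp (by omega)]
      ring
  rw [Finset.sum_range_succ, h1 _ (le_refl _)]
  unfold M4_del
  rw [if_pos (by rw [M4_sh_b]; omega)]
  ring

/-- part 1 with filters -/
theorem M4_part1' (d : Fin n → ℕ) (r : ℕ) {b p : Fin n} (hbp : b ≠ p) (W : (Fin n → ℕ) → ℝ) :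
    ∑ y ∈ (X d r).filter (fun y => y b < d b ∧ y b + y p < d p), W y ^ 2 ≤
      ((r : ℝ) + 1) ^ 2 * ∑ y ∈ X d r, ∑ a, M4_ee d b W y a := by
  set F := (X d r).filter (fun y => y b < d b ∧ y b + y p < d p) with hF
  have hyr : ∀ y ∈ X d r, y b ≤ r := by
    intro y hy
    rw [← (M4_memX.1 hy).2]
    exact Finset.single_le_sum (f := y) (fun _ _ => Nat.zero_le _) (Finset.mem_univ b)
  have h1 : ∀ y ∈ F, W y ^ 2 ≤ ((r : ℝ) + 1) *
      ∑ i ∈ range (r + 1), (if i ≤ y b then (M4_del b p W (M4_sh b p i y)) ^ 2 else 0) := by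
    intro y hy
    rw [hF, mem_filter] at hy
    have h2 := hyr y hy.1
    have h3 : W y ^ 2 ≤ ((y b + 1 : ℕ) : ℝ) *
        ∑ i ∈ range (y b + 1), (M4_del b p W (M4_sh b p i y)) ^ 2 := by
      nth_rewrite 1 [← M4_tel hbp W y]
      have := sq_sum_le_card_mul_sum_sq (s := range (y b + 1))
        (f := fun i => M4_del b p W (M4_sh b p i y))
      rwa [card_range] at this
    have h4 : ∑ i ∈ range (r + 1), (if i ≤ y b then (M4_del b p W (M4_sh b p i y)) ^ 2 else 0) =
        ∑ i ∈ range (y b + 1), (M4_del b p W (M4_sh b p i y)) ^ 2 := by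
      rw [← Finset.sum_filter]
      apply Finset.sum_congr _ (fun _ _ => rfl)
      ext i
      simp only [mem_filter, mem_range]
      omega
    rw [h4]
    refine h3.trans (mul_le_mul_of_nonneg_right ?_ (Finset.sum_nonneg fun _ _ => sq_nonneg _))
    have : ((y b + 1 : ℕ) : ℝ) ≤ ((r + 1 : ℕ) : ℝ) := by exact_mod_cast Nat.succ_le_succ h2
    push_cast at this ⊢
    exact this
  have h5 : ∀ i, ∑ y ∈ F, (if i ≤ y b then (M4_del b p W (M4_sh b p i y)) ^ 2 else 0) ≤
      ∑ y ∈ X d r, ∑ a, M4_ee d b W y a := by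
    intro i
    rw [← Finset.sum_filter]
    have h6 : ∑ y ∈ F.filter (fun y => i ≤ y b), (M4_del b p W (M4_sh b p i y)) ^ 2 =
        ∑ y ∈ F.filter (fun y => i ≤ y b), M4_ee d b W (M4_sh b p i y) p := by
      refine Finset.sum_congr rfl fun y hy => ?_
      rw [mem_filter, hF, mem_filter] at hy
      have hc : p ≠ b ∧ M4_sh b p i y b < d b ∧ M4_sh b p i y p < d p := by
        refine ⟨hbp.symm, ?_, ?_⟩
        · rw [M4_sh_b]; omega
        · rw [M4_sh_p hbp]; omega
      unfold M4_ee M4_del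
      rw [if_pos hc]
    rw [h6]
    have h7 : ∑ y ∈ F.filter (fun y => i ≤ y b), M4_ee d b W (M4_sh b p i y) p =
        ∑ y' ∈ (F.filter (fun y => i ≤ y b)).image (M4_sh b p i), M4_ee d b W y' p := by
      rw [Finset.sum_image]
      intro y hy y' hy' hh
      have hy := (mem_filter.1 hy).2
      have hy' := (mem_filter.1 hy').2
      funext a
      have h8 := congrFun hh a
      by_cases h1 : a = b
      · rw [h1] at h8 ⊢
        rw [M4_sh_b, M4_sh_b] at h8
        omega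
      · by_cases h2 : a = p
        · rw [h2] at h8 ⊢
          rw [M4_sh_p hbp, M4_sh_p hbp] at h8
          omega
        · rw [M4_sh_o h1 h2, M4_sh_o h1 h2] at h8
          exact h8
    rw [h7]
    have h8 : (F.filter (fun y => i ≤ y b)).image (M4_sh b p i) ⊆ X d r := by
      intro y' hy'
      rw [mem_image] at hy'
      obtain ⟨y, hy, rfl⟩ := hy'
      rw [mem_filter, hF, mem_filter] at hy
      obtain ⟨⟨hyX, hyb, hys⟩, hyi⟩ := hy
      have hX := M4_memX.1 hyX
      rw [M4_memX]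
      refine ⟨fun a => ?_, ?_⟩
      · by_cases h1 : a = b
        · rw [h1, M4_sh_b]
          have := hX.1 b
          omega
        · by_cases h2 : a = p
          · rw [h2, M4_sh_p hbp]; omega
          · rw [M4_sh_o h1 h2]; exact hX.1 a
      · rw [M4_sh_sum hbp hyi]; exact hX.2
    refine (Finset.sum_le_sum_of_subset_of_nonneg h8 fun y _ _ => M4_ee_nonneg d b W y p).trans ?_
    refine Finset.sum_le_sum fun y _ => ?_
    exact Finset.single_le_sum (f := fun a => M4_ee d b W y a)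
      (fun a _ => M4_ee_nonneg d b W y a) (Finset.mem_univ p)
  calc ∑ y ∈ F, W y ^ 2 ≤ ∑ y ∈ F, ((r : ℝ) + 1) *
      ∑ i ∈ range (r + 1), (if i ≤ y b then (M4_del b p W (M4_sh b p i y)) ^ 2 else 0) :=
        Finset.sum_le_sum h1
    _ = ((r : ℝ) + 1) * ∑ i ∈ range (r + 1), ∑ y ∈ F,
        (if i ≤ y b then (M4_del b p W (M4_sh b p i y)) ^ 2 else 0) := by
        rw [← Finset.mul_sum, Finset.sum_comm]
    _ ≤ ((r : ℝ) + 1) * ∑ _i ∈ range (r + 1), ∑ y ∈ X d r, ∑ a, M4_ee d b W y a := by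
        apply mul_le_mul_of_nonneg_left
        · exact Finset.sum_le_sum fun i _ => h5 i
        · positivity
    _ = ((r : ℝ) + 1) ^ 2 * ∑ y ∈ X d r, ∑ a, M4_ee d b W y a := by
        rw [Finset.sum_const, card_range, nsmul_eq_mul]
        push_cast
        ring

/-- PART 1 -/
theorem M4_part1 (d : Fin n → ℕ) (r : ℕ) (b p : Fin n) (hbp : b ≠ p) (W : (Fin n → ℕ) → ℝ) :
    ∑ y ∈ X d r, (if y b < d b ∧ y b + y p < d p then W y ^ 2 else 0) ≤
      ((r : ℝ) + 1) ^ 2 * ∑ y ∈ X d r, ∑ a, if a ≠ b ∧ y b < d b ∧ y a < d a then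
        (W y - (if y b = 0 then 0 else W (y + e1 a - e1 b))) ^ 2 else 0 := by
  rw [← Finset.sum_filter]
  exact M4_part1' d r hbp W

end Vale.Agent.P328
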