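import Vale.Agent.Lib.P328.Lvl

/-!
P328, module M9, first half: from the hub chain of the extended configuration space (one more
column of sum one) to the unit rate hub chain.
-/

namespace Vale.Agent.P328

open Finset

variable {m n : ℕ}

/-- column sums with the extra column -/
def M9_c (c : Fin n → ℕ) : Fin (n + 1) → ℕ := Fin.cons 1 c

/-- forget the extra column -/
def M9_tl (x : Fin m → Fin (n + 1) → ℕ) : Fin m → Fin n → ℕ := fun j a => x j a.succ

/-- `α` is the first column in which the hub has a unit -/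
def M9_F (c : Fin n → ℕ) (T : Fin m → Fin n → ℕ) (α : Fin n) : Prop :=
  ∑ i, T i α < c α ∧ ∀ β, β < α → ¬ ∑ i, T i β < c β

instance (c : Fin n → ℕ) (T : Fin m → Fin n → ℕ) (α : Fin n) : Decidable (M9_F c T α) := by
  unfold M9_F; infer_instance

/-- the lift of a function -/
noncomputable def M9_u (c : Fin n → ℕ) (f : (Fin m → Fin n → ℕ) → ℝ)
    (x : Fin m → Fin (n + 1) → ℕ) : ℝ :=
  if ∀ i, x i 0 = 0 then f (M9_tl x) else
    ∑ k, ∑ α, if x k 0 ≠ 0 ∧ M9_F c (M9_tl x) α then f (M9_tl x + E k α) else 0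

/-- one edge class of the unit rate hub chain -/
noncomputable def M9_D (c : Fin n → ℕ) (R : Fin m → ℕ) (f : (Fin m → Fin n → ℕ) → ℝ)
    (l : Fin m) (p q : Fin n) : ℝ :=
  ∑ Y ∈ Om c (R + e1 l), if Y l p ≠ 0 ∧ Y l q ≠ 0 then (f (Y - E l p) - f (Y - E l q)) ^ 2 else 0

/-- the edge term, zero outside -/
noncomputable def M9_G (c : Fin n → ℕ) (R : Fin m → ℕ) (f : (Fin m → Fin n → ℕ) → ℝ)
    (l : Fin m) (p q : Fin n) (Y : Fin m → Fin n → ℕ) : ℝ :=
  if Y ∈ Om c (R + e1 l) ∧ Y l p ≠ 0 ∧ Y l q ≠ 0 then (f (Y - E l p) - f (Y - E l q)) ^ 2 else 0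

theorem M9_G_nonneg (c : Fin n → ℕ) (R : Fin m → ℕ) (f : (Fin m → Fin n → ℕ) → ℝ)
    (l : Fin m) (p q : Fin n) (Y : Fin m → Fin n → ℕ) : 0 ≤ M9_G c R f l p q Y := by
  unfold M9_G
  split_ifs
  · positivity
  · exact le_rfl

theorem M9_D_nonneg (c : Fin n → ℕ) (R : Fin m → ℕ) (f : (Fin m → Fin n → ℕ) → ℝ)
    (l : Fin m) (p q : Fin n) : 0 ≤ M9_D c R f l p q := by
  unfold M9_D
  refine Finset.sum_nonneg fun Y _ => ?_
  split_ifs
  · positivity
  · exact le_rfl

theorem M9_D_eq (c : Fin n → ℕ) (R : Fin m → ℕ) (f : (Fin m → Fin n → ℕ) → ℝ)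
    (l : Fin m) (p q : Fin n) :
    M9_D c R f l p q = ∑ Y ∈ Om c (R + e1 l), M9_G c R f l p q Y := by
  unfold M9_D M9_G
  refine Finset.sum_congr rfl fun Y hY => ?_
  simp [hY]

/-- sum over an injective family of levels -/
theorem M9_inj {β : Type*} (c : Fin n → ℕ) (R : Fin m → ℕ) (f : (Fin m → Fin n → ℕ) → ℝ)
    (l : Fin m) (p q : Fin n) (S : Finset β) (φ : β → Fin m → Fin n → ℕ)
    (hφ : ∀ x ∈ S, ∀ y ∈ S, φ x = φ y → x = y) :
    ∑ x ∈ S, M9_G c R f l p q (φ x) ≤ M9_D c R f l p q := by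
  classical
  rw [M9_D_eq]
  rw [← Finset.sum_image (f := fun Y => M9_G c R f l p q Y) (g := φ) (fun x hx y hy h => hφ x hx y hy h)]
  rw [← Finset.sum_filter_add_sum_filter_not (S.image φ) (fun Y => Y ∈ Om c (R + e1 l))]
  have h0 : ∑ Y ∈ (S.image φ).filter (fun Y => ¬ Y ∈ Om c (R + e1 l)), M9_G c R f l p q Y = 0 := by
    refine Finset.sum_eq_zero fun Y hY => ?_
    rw [Finset.mem_filter] at hY
    unfold M9_G
    rw [if_neg]
    exact fun h => hY.2 h.1
  rw [h0, add_zero]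
  refine Finset.sum_le_sum_of_subset_of_nonneg ?_ fun Y _ _ => M9_G_nonneg c R f l p q Y
  intro Y hY
  exact (Finset.mem_filter.1 hY).2

theorem M9_tl_sub (x : Fin m → Fin (n + 1) → ℕ) (j : Fin m) (a : Fin n) :
    M9_tl (x - E j a.succ) = M9_tl x - E j a := by
  funext i b
  simp [M9_tl, E]

theorem M9_tl_sub0 (x : Fin m → Fin (n + 1) → ℕ) (j : Fin m) :
    M9_tl (x - E j 0) = M9_tl x := by
  funext i b
  simp [M9_tl, E]

theorem M9_col0 {c : Fin n → ℕ} {S : Fin m → ℕ} {x : Fin m → Fin (n + 1) → ℕ}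
    (hx : x ∈ Om (M9_c c) S) : ∑ i, x i 0 ≤ 1 := by
  have := (mem_Om.1 hx).2 0
  simpa [M9_c] using this

theorem M9_uniq {c : Fin n → ℕ} {S : Fin m → ℕ} {x : Fin m → Fin (n + 1) → ℕ}
    (hx : x ∈ Om (M9_c c) S) {k k' : Fin m} (h : x k 0 ≠ 0) (h' : x k' 0 ≠ 0) : k' = k := by
  by_contra hne
  have h1 := M9_col0 hx
  have h2 : x k 0 + x k' 0 ≤ ∑ i, x i 0 := by
    have : ∑ i ∈ ({k, k'} : Finset (Fin m)), x i 0 ≤ ∑ i, x i 0 :=
      Finset.sum_le_sum_of_subset (Finset.subset_univ _)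
    rwa [Finset.sum_pair (Ne.symm hne)] at this
  omega

theorem M9_val {c : Fin n → ℕ} {S : Fin m → ℕ} {x : Fin m → Fin (n + 1) → ℕ}
    (hx : x ∈ Om (M9_c c) S) {k : Fin m} (h : x k 0 ≠ 0) (i : Fin m) :
    x i 0 = if i = k then 1 else 0 := by
  by_cases hi : i = k
  · rw [if_pos hi, hi]
    have h1 := M9_col0 hx
    have h2 : x k 0 ≤ ∑ i, x i 0 :=
      Finset.single_le_sum (f := fun i => x i 0) (fun i _ => Nat.zero_le _) (Finset.mem_univ k)
    omega
  · rw [if_neg hi]
    by_contra h0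
    exact hi (M9_uniq hx h h0)

theorem M9_F_uniq {c : Fin n → ℕ} {T : Fin m → Fin n → ℕ} {α β : Fin n} (ha : M9_F c T α)
    (hb : M9_F c T β) : α = β := by
  rcases lt_trichotomy α β with h | h | h
  · exact absurd ha.1 (hb.2 α h)
  · exact h
  · exact absurd hb.1 (ha.2 β h)

theorem M9_F_exists {c : Fin n → ℕ} {T : Fin m → Fin n → ℕ}
    (h : ∑ j, ∑ a, T j a < ∑ a, c a) : ∃ α, M9_F c T α := by
  classical
  have h1 : ∃ α, ∑ i, T i α < c α := by
    by_contra hne
    push Not at hne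
    rw [Finset.sum_comm] at h
    exact absurd (Finset.sum_le_sum fun a (_ : a ∈ Finset.univ) => hne a) (not_le.2 h)
  have hne : (Finset.univ.filter fun α => ∑ i, T i α < c α).Nonempty := by
    obtain ⟨α, hα⟩ := h1
    exact ⟨α, by simp [hα]⟩
  refine ⟨(Finset.univ.filter fun α => ∑ i, T i α < c α).min' hne, ?_, ?_⟩
  · exact (Finset.mem_filter.1 (Finset.min'_mem _ hne)).2
  · intro β hβ hlt
    have := Finset.min'_le (Finset.univ.filter fun α => ∑ i, T i α < c α) β (by simp [hlt])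
    exact absurd hβ (not_lt.2 this)

theorem M9_u0 (c : Fin n → ℕ) (f : (Fin m → Fin n → ℕ) → ℝ) {x : Fin m → Fin (n + 1) → ℕ}
    (h : ∀ i, x i 0 = 0) : M9_u c f x = f (M9_tl x) := by
  unfold M9_u
  rw [if_pos h]

theorem M9_u1 {c : Fin n → ℕ} (f : (Fin m → Fin n → ℕ) → ℝ)
    {x : Fin m → Fin (n + 1) → ℕ} {k : Fin m} (h : ∀ i, x i 0 = if i = k then 1 else 0) {α : Fin n}
    (hα : M9_F c (M9_tl x) α) : M9_u c f x = f (M9_tl x + E k α) := by
  unfold M9_u
  have hk : x k 0 ≠ 0 := by rw [h k]; simp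
  rw [if_neg (fun h0 => hk (h0 k))]
  rw [Finset.sum_eq_single k, Finset.sum_eq_single α]
  · rw [if_pos ⟨hk, hα⟩]
  · intro β _ hβ
    rw [if_neg]
    exact fun hh => hβ (M9_F_uniq hh.2 hα)
  · intro h'; exact absurd (Finset.mem_univ _) h'
  · intro i _ hi
    refine Finset.sum_eq_zero fun β _ => ?_
    rw [if_neg]
    intro hh
    rw [h i, if_neg hi] at hh
    exact hh.1 rfl
  · intro h'; exact absurd (Finset.mem_univ _) h'

theorem M9_row {c : Fin n → ℕ} {S : Fin m → ℕ} {X : Fin m → Fin (n + 1) → ℕ}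
    (hX : X ∈ Om (M9_c c) S) (i : Fin m) : X i 0 + ∑ a, M9_tl X i a = S i := by
  have h := (mem_Om.1 hX).1 i
  rw [Fin.sum_univ_succ] at h
  exact h

theorem M9_col {c : Fin n → ℕ} {S : Fin m → ℕ} {X : Fin m → Fin (n + 1) → ℕ}
    (hX : X ∈ Om (M9_c c) S) (b : Fin n) : ∑ i, M9_tl X i b ≤ c b := by
  have h := (mem_Om.1 hX).2 b.succ
  show ∑ i, X i b.succ ≤ c b
  simpa [M9_c] using h

/-- column sums after removing a unit -/
theorem M9_sub_col {T : Fin m → Fin n → ℕ} {j : Fin m} {a : Fin n} (h : T j a ≠ 0) (b : Fin n) :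
    ∑ i, (T - E j a) i b + e1 a b = ∑ i, T i b := by
  have he : T - E j a + E j a = T := sub_add_of_le (E_le_iff.2 h)
  have h2 : ∑ i, (T - E j a + E j a) i b = ∑ i, T i b := by rw [he]
  simp only [Pi.add_apply, Finset.sum_add_distrib, E_col_sum] at h2
  exact h2

theorem M9_sub_row {T : Fin m → Fin n → ℕ} {j : Fin m} {a : Fin n} (h : T j a ≠ 0) (i : Fin m) :
    ∑ b, (T - E j a) i b + e1 j i = ∑ b, T i b := by
  have he : T - E j a + E j a = T := sub_add_of_le (E_le_iff.2 h)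
  have h2 : ∑ b, (T - E j a + E j a) i b = ∑ b, T i b := by rw [he]
  simp only [Pi.add_apply, Finset.sum_add_distrib, E_row_sum] at h2
  exact h2

/-- the first free column after one removal -/
theorem M9_first {c : Fin n → ℕ} {T : Fin m → Fin n → ℕ} {j : Fin m} {a α : Fin n}
    (hT : ∀ b, ∑ i, T i b ≤ c b) (h : T j a ≠ 0) (hα : M9_F c T α) :
    M9_F c (T - E j a) α ∨ (M9_F c (T - E j a) a ∧ a < α) := by
  have hs : ∀ b, b ≠ a → ∑ i, (T - E j a) i b = ∑ i, T i b := by
    intro b hb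
    have := M9_sub_col h b
    simpa [e1, hb] using this
  have ha : ∑ i, (T - E j a) i a < c a := by
    have h1 := M9_sub_col h a
    have h2 := hT a
    have h3 : e1 a a = 1 := by simp [e1]
    omega
  by_cases hlt : a < α
  · right
    refine ⟨⟨ha, fun β hβ => ?_⟩, hlt⟩
    rw [hs β (ne_of_lt hβ)]
    exact hα.2 β (lt_trans hβ hlt)
  · left
    refine ⟨?_, fun β hβ => ?_⟩
    · by_cases hαa : α = a
      · rw [hαa]; exact ha
      · rw [hs α hαa]; exact hα.1
    · rw [hs β (fun hh => hlt (hh ▸ hβ))]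
      exact hα.2 β hβ

theorem M9_comm1 {T : Fin m → Fin n → ℕ} {j : Fin m} {a : Fin n} (h : T j a ≠ 0)
    (D : Fin m → Fin n → ℕ) : T + D - E j a = T - E j a + D := by
  funext i b
  simp only [Pi.add_apply, Pi.sub_apply]
  have := E_le_iff.2 h i b
  omega

/-- the detour of the wandering unit -/
theorem M9_detour {c : Fin n → ℕ} {R : Fin m → ℕ} (f : (Fin m → Fin n → ℕ) → ℝ)
    {T : Fin m → Fin n → ℕ} {j k : Fin m} {a α α1 : Fin n}
    (hrow : ∀ i, e1 k i + ∑ b, T i b = R i + e1 j i)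
    (hT : ∀ b, ∑ i, T i b ≤ c b) (h : T j a ≠ 0) (hα : M9_F c T α)
    (h1 : α1 = α ∨ (α1 = a ∧ a < α)) :
    (f (T - E j a + E k α1) - f (T - E j a + E k α)) ^ 2 ≤
      M9_G c R f k α a (T - E j a + E k a + E k α) := by
  rcases h1 with rfl | ⟨rfl, hlt⟩
  · rw [sub_self]
    simpa using M9_G_nonneg c R f k α1 a (T - E j a + E k a + E k α1)
  · have hne : α1 ≠ α := ne_of_lt hlt
    have hmem : T - E j α1 + E k α1 + E k α ∈ Om c (R + e1 k) := by
      rw [mem_Om]
      constructor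
      · intro i
        have h2 := M9_sub_row h i
        have h3 := hrow i
        simp only [Pi.add_apply, Finset.sum_add_distrib, E_row_sum]
        omega
      · intro b
        have h2 := M9_sub_col h b
        have h3 := hT b
        simp only [Pi.add_apply, Finset.sum_add_distrib, E_col_sum]
        by_cases hb : b = α
        · have h4 : e1 α b = 1 := by simp [e1, hb]
          have h5 : e1 α1 b = 0 := by
            unfold e1; rw [if_neg]; rw [hb]; exact Ne.symm hne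
          have h6 := hα.1
          rw [← hb] at h6
          omega
        · have h4 : e1 α b = 0 := by simp [e1, hb]
          omega
    unfold M9_G
    have e1' : T - E j α1 + E k α1 + E k α - E k α = T - E j α1 + E k α1 := by
      funext i b; simp
    have e2' : T - E j α1 + E k α1 + E k α - E k α1 = T - E j α1 + E k α := by
      funext i b
      simp only [Pi.add_apply, Pi.sub_apply]
      omega
    rw [if_pos, e1', e2']
    refine ⟨hmem, ?_, ?_⟩
    · simp [E]
    · simp [E]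

/-- case 2 of the pointwise bound -/
theorem M9_case2 {c : Fin n → ℕ} {R : Fin m → ℕ} (f : (Fin m → Fin n → ℕ) → ℝ)
    {X : Fin m → Fin (n + 1) → ℕ} {j k : Fin m} {a b α : Fin n}
    (hX : X ∈ Om (M9_c c) (R + e1 j)) (hk : X k 0 ≠ 0) (ha : X j a.succ ≠ 0)
    (hb : X j b.succ ≠ 0) (hα : M9_F c (M9_tl X) α) :
    (M9_u c f (X - E j a.succ) - M9_u c f (X - E j b.succ)) ^ 2 ≤
      3 * (M9_G c R f j a b (M9_tl X + E k α)
        + M9_G c R f k α a (M9_tl X - E j a + E k a + E k α)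
        + M9_G c R f k α b (M9_tl X - E j b + E k b + E k α)) := by
  have hv := M9_val hX hk
  have hcol := M9_col hX
  have hrow : ∀ i, e1 k i + ∑ b, M9_tl X i b = R i + e1 j i := by
    intro i
    have h1 := M9_row hX i
    rw [hv i] at h1
    simpa [e1] using h1
  have hta : M9_tl X j a ≠ 0 := ha
  have htb : M9_tl X j b ≠ 0 := hb
  have hva : ∀ i, (X - E j a.succ) i 0 = if i = k then 1 else 0 := by
    intro i
    rw [← hv i]
    simp [E, (Fin.succ_ne_zero a).symm]
  have hvb : ∀ i, (X - E j b.succ) i 0 = if i = k then 1 else 0 := by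
    intro i
    rw [← hv i]
    simp [E, (Fin.succ_ne_zero b).symm]
  obtain ⟨α1, hα1, hF1⟩ : ∃ α1, (α1 = α ∨ (α1 = a ∧ a < α)) ∧ M9_F c (M9_tl X - E j a) α1 := by
    rcases M9_first hcol hta hα with h | h
    · exact ⟨α, Or.inl rfl, h⟩
    · exact ⟨a, Or.inr ⟨rfl, h.2⟩, h.1⟩
  obtain ⟨α2, hα2, hF2⟩ : ∃ α2, (α2 = α ∨ (α2 = b ∧ b < α)) ∧ M9_F c (M9_tl X - E j b) α2 := by
    rcases M9_first hcol htb hα with h | h
    · exact ⟨α, Or.inl rfl, h⟩
    · exact ⟨b, Or.inr ⟨rfl, h.2⟩, h.1⟩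
  have hua : M9_u c f (X - E j a.succ) = f (M9_tl X - E j a + E k α1) := by
    have := M9_u1 f hva (α := α1) (by rw [M9_tl_sub]; exact hF1)
    rw [this, M9_tl_sub]
  have hub : M9_u c f (X - E j b.succ) = f (M9_tl X - E j b + E k α2) := by
    have := M9_u1 f hvb (α := α2) (by rw [M9_tl_sub]; exact hF2)
    rw [this, M9_tl_sub]
  have h1 := M9_detour f hrow hcol hta hα hα1
  have h2 := M9_detour f hrow hcol htb hα hα2
  have h3 : (f (M9_tl X - E j a + E k α) - f (M9_tl X - E j b + E k α)) ^ 2 =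
      M9_G c R f j a b (M9_tl X + E k α) := by
    unfold M9_G
    rw [if_pos, M9_comm1 hta, M9_comm1 htb]
    refine ⟨?_, ?_, ?_⟩
    · rw [mem_Om]
      constructor
      · intro i
        have h4 := hrow i
        simp only [Pi.add_apply, Finset.sum_add_distrib, E_row_sum]
        omega
      · intro d
        have h4 := hcol d
        simp only [Pi.add_apply, Finset.sum_add_distrib, E_col_sum]
        by_cases hd : d = α
        · have h5 : e1 α d = 1 := by simp [e1, hd]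
          have h6 := hα.1
          rw [← hd] at h6
          omega
        · have h5 : e1 α d = 0 := by simp [e1, hd]
          omega
    · simp only [Pi.add_apply]; omega
    · simp only [Pi.add_apply]; omega
  rw [hua, hub, ← h3]
  set p := f (M9_tl X - E j a + E k α1)
  set q := f (M9_tl X - E j a + E k α)
  set r := f (M9_tl X - E j b + E k α)
  set s := f (M9_tl X - E j b + E k α2)
  have h4 : (p - s) ^ 2 ≤ 3 * ((q - r) ^ 2 + (p - q) ^ 2 + (s - r) ^ 2) := by
    nlinarith [sq_nonneg ((p - q) - (q - r)), sq_nonneg ((q - r) - (r - s)),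
      sq_nonneg ((p - q) - (r - s))]
  linarith

theorem M9_case1 {c : Fin n → ℕ} {R : Fin m → ℕ} (f : (Fin m → Fin n → ℕ) → ℝ)
    {X : Fin m → Fin (n + 1) → ℕ} {j : Fin m} {a b : Fin n}
    (hX : X ∈ Om (M9_c c) (R + e1 j)) (h0 : ∀ i, X i 0 = 0) (ha : X j a.succ ≠ 0)
    (hb : X j b.succ ≠ 0) :
    (M9_u c f (X - E j a.succ) - M9_u c f (X - E j b.succ)) ^ 2 =
      M9_G c R f j a b (M9_tl X) := by
  rw [M9_u0 c f (x := X - E j a.succ) (by intro i; simp [h0 i]),
    M9_u0 c f (x := X - E j b.succ) (by intro i; simp [h0 i]), M9_tl_sub, M9_tl_sub]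
  unfold M9_G
  rw [if_pos]
  refine ⟨?_, ha, hb⟩
  rw [mem_Om]
  refine ⟨fun i => ?_, M9_col hX⟩
  have := M9_row hX i
  rw [h0 i] at this
  omega

theorem M9_case3 {c : Fin n → ℕ} {R : Fin m → ℕ} (f : (Fin m → Fin n → ℕ) → ℝ)
    {X : Fin m → Fin (n + 1) → ℕ} {j : Fin m} {b α : Fin n}
    (hX : X ∈ Om (M9_c c) (R + e1 j)) (hj : X j 0 ≠ 0)
    (hb : X j b.succ ≠ 0) (hα : M9_F c (M9_tl X) α) :
    (M9_u c f (X - E j 0) - M9_u c f (X - E j b.succ)) ^ 2 ≤
      M9_G c R f j α b (M9_tl X + E j α) := by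
  have hv := M9_val hX hj
  have hcol := M9_col hX
  have htb : M9_tl X j b ≠ 0 := hb
  have hvb : ∀ i, (X - E j b.succ) i 0 = if i = j then 1 else 0 := by
    intro i
    rw [← hv i]
    simp [E, (Fin.succ_ne_zero b).symm]
  have hva : ∀ i, (X - E j (0 : Fin (n + 1))) i 0 = 0 := by
    intro i
    simp only [Pi.sub_apply, hv i, E_apply]
    by_cases hi : i = j <;> simp [hi]
  obtain ⟨α2, hα2, hF2⟩ : ∃ α2, (α2 = α ∨ (α2 = b ∧ b < α)) ∧ M9_F c (M9_tl X - E j b) α2 := by
    rcases M9_first hcol htb hα with h | h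
    · exact ⟨α, Or.inl rfl, h⟩
    · exact ⟨b, Or.inr ⟨rfl, h.2⟩, h.1⟩
  have hub : M9_u c f (X - E j b.succ) = f (M9_tl X - E j b + E j α2) := by
    have := M9_u1 f hvb (α := α2) (by rw [M9_tl_sub]; exact hF2)
    rw [this, M9_tl_sub]
  rw [M9_u0 c f hva, M9_tl_sub0, hub]
  rcases hα2 with rfl | ⟨rfl, hlt⟩
  · unfold M9_G
    rw [if_pos, M9_comm1 htb]
    · have e1' : M9_tl X + E j α2 - E j α2 = M9_tl X := by funext i d; simp
      rw [e1']
    · refine ⟨?_, ?_, ?_⟩
      · rw [mem_Om]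
        constructor
        · intro i
          have h4 := M9_row hX i
          rw [hv i] at h4
          simp only [Pi.add_apply] at h4
          simp only [Pi.add_apply, Finset.sum_add_distrib, E_row_sum]
          have h5 : (if i = j then 1 else 0) = e1 j i := rfl
          rw [h5] at h4
          omega
        · intro d
          have h4 := hcol d
          simp only [Pi.add_apply, Finset.sum_add_distrib, E_col_sum]
          by_cases hd : d = α2
          · have h5 : e1 α2 d = 1 := by simp [e1, hd]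
            have h6 := hα.1
            rw [← hd] at h6
            omega
          · have h5 : e1 α2 d = 0 := by simp [e1, hd]
            omega
      · simp [E]
      · simp only [Pi.add_apply]; omega
  · have he : M9_tl X - E j α2 + E j α2 = M9_tl X := sub_add_of_le (E_le_iff.2 htb)
    rw [he, sub_self]
    simpa using M9_G_nonneg c R f j α α2 (M9_tl X + E j α)

end Vale.Agent.P328
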