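import Vale.Agent.Lib.P328.M9A

/-!
P328, module M9: summation over the edges of the extended hub chain.
-/

namespace Vale.Agent.P328

open Finset

variable {m n : ℕ}

theorem M9_tot {c : Fin n → ℕ} {R : Fin m → ℕ} (hub : 1 + ∑ i, R i ≤ ∑ a, c a)
    {X : Fin m → Fin (n + 1) → ℕ} {j k : Fin m}
    (hX : X ∈ Om (M9_c c) (R + e1 j)) (hk : X k 0 ≠ 0) :
    ∑ i, ∑ a, M9_tl X i a < ∑ a, c a := by
  have hv := M9_val hX hk
  have h1 : ∑ i, (X i 0 + ∑ a, M9_tl X i a) = ∑ i, (R + e1 j) i :=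
    Finset.sum_congr rfl fun i _ => M9_row hX i
  simp only [Pi.add_apply, Finset.sum_add_distrib] at h1
  have h2 : ∑ i, X i 0 = 1 := by simp [hv]
  have h3 : ∑ i, e1 j i = 1 := by simp [e1]
  omega

theorem M9_eq_of {c : Fin n → ℕ} {S : Fin m → ℕ} {X X' : Fin m → Fin (n + 1) → ℕ} {k : Fin m}
    (hX : X ∈ Om (M9_c c) S) (hX' : X' ∈ Om (M9_c c) S) (h : X k 0 ≠ 0) (h' : X' k 0 ≠ 0)
    (ht : M9_tl X = M9_tl X') : X = X' := by
  funext i a
  refine Fin.cases ?_ (fun b => ?_) a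
  · rw [M9_val hX h i, M9_val hX' h' i]
  · exact congrFun (congrFun ht i) b

theorem M9_eq_of0 {X X' : Fin m → Fin (n + 1) → ℕ}
    (h : ∀ i, X i 0 = 0) (h' : ∀ i, X' i 0 = 0)
    (ht : M9_tl X = M9_tl X') : X = X' := by
  funext i a
  refine Fin.cases ?_ (fun b => ?_) a
  · rw [h i, h' i]
  · exact congrFun (congrFun ht i) b

theorem M9_tl_cancel {X X' : Fin m → Fin (n + 1) → ℕ} {j : Fin m} {a : Fin n}
    {D : Fin m → Fin n → ℕ} (h : X j a.succ ≠ 0) (h' : X' j a.succ ≠ 0)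
    (he : M9_tl X - E j a + D = M9_tl X' - E j a + D) : M9_tl X = M9_tl X' := by
  have h1 : M9_tl X - E j a = M9_tl X' - E j a := by
    funext i b
    have := congrFun (congrFun he i) b
    simp only [Pi.add_apply] at this
    omega
  have h2 : M9_tl X - E j a + E j a = M9_tl X := sub_add_of_le (E_le_iff.2 h)
  have h3 : M9_tl X' - E j a + E j a = M9_tl X' := sub_add_of_le (E_le_iff.2 h')
  rw [← h2, ← h3, h1]

theorem M9_sum_succ (c : Fin n → ℕ) (R : Fin m → ℕ) (hub : 1 + ∑ i, R i ≤ ∑ a, c a)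
    (f : (Fin m → Fin n → ℕ) → ℝ) (j : Fin m) (a b : Fin n) :
    ∑ X ∈ Om (M9_c c) (R + e1 j), (if X j a.succ ≠ 0 ∧ X j b.succ ≠ 0 then
      (M9_u c f (X - E j a.succ) - M9_u c f (X - E j b.succ)) ^ 2 else 0) ≤
    M9_D c R f j a b + 3 * ∑ k, ∑ α,
      (M9_D c R f j a b + M9_D c R f k α a + M9_D c R f k α b) := by
  classical
  have key : ∀ X ∈ Om (M9_c c) (R + e1 j), (if X j a.succ ≠ 0 ∧ X j b.succ ≠ 0 then
      (M9_u c f (X - E j a.succ) - M9_u c f (X - E j b.succ)) ^ 2 else 0) ≤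
      (if (∀ i, X i 0 = 0) then M9_G c R f j a b (M9_tl X) else 0) +
      3 * ∑ k, ∑ α, (if X k 0 ≠ 0 ∧ X j a.succ ≠ 0 ∧ X j b.succ ≠ 0 then
        (M9_G c R f j a b (M9_tl X + E k α)
        + M9_G c R f k α a (M9_tl X - E j a + E k a + E k α)
        + M9_G c R f k α b (M9_tl X - E j b + E k b + E k α)) else 0) := by
    intro X hX
    have hn1 : 0 ≤ (if (∀ i, X i 0 = 0) then M9_G c R f j a b (M9_tl X) else 0) := by
      split_ifs
      · exact M9_G_nonneg _ _ _ _ _ _ _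
      · exact le_rfl
    have hn3 : ∀ k α, 0 ≤ (if X k 0 ≠ 0 ∧ X j a.succ ≠ 0 ∧ X j b.succ ≠ 0 then
        (M9_G c R f j a b (M9_tl X + E k α)
        + M9_G c R f k α a (M9_tl X - E j a + E k a + E k α)
        + M9_G c R f k α b (M9_tl X - E j b + E k b + E k α)) else 0) := by
      intro k α
      split_ifs
      · have h1 := M9_G_nonneg c R f j a b (M9_tl X + E k α)
        have h2 := M9_G_nonneg c R f k α a (M9_tl X - E j a + E k a + E k α)
        have h3 := M9_G_nonneg c R f k α b (M9_tl X - E j b + E k b + E k α)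
        linarith
      · exact le_rfl
    have hn2 : 0 ≤ ∑ k, ∑ α, (if X k 0 ≠ 0 ∧ X j a.succ ≠ 0 ∧ X j b.succ ≠ 0 then
        (M9_G c R f j a b (M9_tl X + E k α)
        + M9_G c R f k α a (M9_tl X - E j a + E k a + E k α)
        + M9_G c R f k α b (M9_tl X - E j b + E k b + E k α)) else 0) :=
      Finset.sum_nonneg fun k _ => Finset.sum_nonneg fun α _ => hn3 k α
    by_cases hab : X j a.succ ≠ 0 ∧ X j b.succ ≠ 0
    · rw [if_pos hab]
      by_cases h0 : ∀ i, X i 0 = 0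
      · rw [if_pos h0, M9_case1 f hX h0 hab.1 hab.2]
        linarith
      · have h0' : ∃ k, X k 0 ≠ 0 := by
          by_contra hne
          push Not at hne
          exact h0 hne
        obtain ⟨k, hk⟩ := h0'
        obtain ⟨α, hα⟩ := M9_F_exists (M9_tot hub hX hk)
        have h1 := M9_case2 f hX hk hab.1 hab.2 hα
        have h2 : (if X k 0 ≠ 0 ∧ X j a.succ ≠ 0 ∧ X j b.succ ≠ 0 then
            (M9_G c R f j a b (M9_tl X + E k α)
            + M9_G c R f k α a (M9_tl X - E j a + E k a + E k α)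
            + M9_G c R f k α b (M9_tl X - E j b + E k b + E k α)) else 0) ≤
            ∑ k, ∑ α, (if X k 0 ≠ 0 ∧ X j a.succ ≠ 0 ∧ X j b.succ ≠ 0 then
            (M9_G c R f j a b (M9_tl X + E k α)
            + M9_G c R f k α a (M9_tl X - E j a + E k a + E k α)
            + M9_G c R f k α b (M9_tl X - E j b + E k b + E k α)) else 0) := by
          refine le_trans (Finset.single_le_sum (f := fun α => (if X k 0 ≠ 0 ∧ X j a.succ ≠ 0 ∧
            X j b.succ ≠ 0 then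
            (M9_G c R f j a b (M9_tl X + E k α)
            + M9_G c R f k α a (M9_tl X - E j a + E k a + E k α)
            + M9_G c R f k α b (M9_tl X - E j b + E k b + E k α)) else 0))
            (fun α _ => hn3 k α) (Finset.mem_univ α)) ?_
          exact Finset.single_le_sum (f := fun k => ∑ α, (if X k 0 ≠ 0 ∧ X j a.succ ≠ 0 ∧
            X j b.succ ≠ 0 then
            (M9_G c R f j a b (M9_tl X + E k α)
            + M9_G c R f k α a (M9_tl X - E j a + E k a + E k α)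
            + M9_G c R f k α b (M9_tl X - E j b + E k b + E k α)) else 0))
            (fun k _ => Finset.sum_nonneg fun α _ => hn3 k α) (Finset.mem_univ k)
        rw [if_pos ⟨hk, hab.1, hab.2⟩] at h2
        linarith
    · rw [if_neg hab]
      linarith
  refine le_trans (Finset.sum_le_sum key) ?_
  rw [Finset.sum_add_distrib, ← Finset.mul_sum]
  refine add_le_add ?_ (mul_le_mul_of_nonneg_left ?_ (by norm_num))
  · rw [← Finset.sum_filter]
    refine M9_inj c R f j a b _ (fun X => M9_tl X) ?_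
    intro X hX X' hX' ht
    exact M9_eq_of0 (Finset.mem_filter.1 hX).2 (Finset.mem_filter.1 hX').2 ht
  · rw [Finset.sum_comm]
    refine Finset.sum_le_sum fun k _ => ?_
    rw [Finset.sum_comm]
    refine Finset.sum_le_sum fun α _ => ?_
    rw [← Finset.sum_filter, Finset.sum_add_distrib, Finset.sum_add_distrib]
    refine add_le_add (add_le_add ?_ ?_) ?_
    · refine M9_inj c R f j a b _ (fun X => M9_tl X + E k α) ?_
      intro X hX X' hX' ht
      rw [Finset.mem_filter] at hX hX'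
      exact M9_eq_of hX.1 hX'.1 hX.2.1 hX'.2.1 (add_right_cancel ht)
    · refine M9_inj c R f k α a _ (fun X => M9_tl X - E j a + E k a + E k α) ?_
      intro X hX X' hX' ht
      rw [Finset.mem_filter] at hX hX'
      refine M9_eq_of hX.1 hX'.1 hX.2.1 hX'.2.1 ?_
      refine M9_tl_cancel (D := E k a + E k α) hX.2.2.1 hX'.2.2.1 ?_
      rw [← add_assoc, ← add_assoc]; exact ht
    · refine M9_inj c R f k α b _ (fun X => M9_tl X - E j b + E k b + E k α) ?_
      intro X hX X' hX' ht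
      rw [Finset.mem_filter] at hX hX'
      refine M9_eq_of hX.1 hX'.1 hX.2.1 hX'.2.1 ?_
      refine M9_tl_cancel (D := E k b + E k α) hX.2.2.2 hX'.2.2.2 ?_
      rw [← add_assoc, ← add_assoc]; exact ht

theorem M9_sum_zero (c : Fin n → ℕ) (R : Fin m → ℕ) (hub : 1 + ∑ i, R i ≤ ∑ a, c a)
    (f : (Fin m → Fin n → ℕ) → ℝ) (j : Fin m) (b : Fin n) :
    ∑ X ∈ Om (M9_c c) (R + e1 j), (if X j 0 ≠ 0 ∧ X j b.succ ≠ 0 then
      (M9_u c f (X - E j 0) - M9_u c f (X - E j b.succ)) ^ 2 else 0) ≤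
    ∑ α, M9_D c R f j α b := by
  classical
  have key : ∀ X ∈ Om (M9_c c) (R + e1 j), (if X j 0 ≠ 0 ∧ X j b.succ ≠ 0 then
      (M9_u c f (X - E j 0) - M9_u c f (X - E j b.succ)) ^ 2 else 0) ≤
      ∑ α, (if X j 0 ≠ 0 ∧ X j b.succ ≠ 0 then
        M9_G c R f j α b (M9_tl X + E j α) else 0) := by
    intro X hX
    have hn : ∀ α, 0 ≤ (if X j 0 ≠ 0 ∧ X j b.succ ≠ 0 then
        M9_G c R f j α b (M9_tl X + E j α) else 0) := by
      intro α
      split_ifs
      · exact M9_G_nonneg _ _ _ _ _ _ _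
      · exact le_rfl
    by_cases hab : X j 0 ≠ 0 ∧ X j b.succ ≠ 0
    · obtain ⟨α, hα⟩ := M9_F_exists (M9_tot hub hX hab.1)
      have h1 := M9_case3 f hX hab.1 hab.2 hα
      have h2 := Finset.single_le_sum (f := fun α => (if X j 0 ≠ 0 ∧ X j b.succ ≠ 0 then
        M9_G c R f j α b (M9_tl X + E j α) else 0)) (fun α _ => hn α) (Finset.mem_univ α)
      refine le_trans ?_ h2
      rw [if_pos hab, if_pos hab]
      exact h1
    · rw [if_neg hab]
      exact Finset.sum_nonneg fun α _ => hn α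
  refine le_trans (Finset.sum_le_sum key) ?_
  rw [Finset.sum_comm]
  refine Finset.sum_le_sum fun α _ => ?_
  rw [← Finset.sum_filter]
  refine M9_inj c R f j α b _ (fun X => M9_tl X + E j α) ?_
  intro X hX X' hX' ht
  rw [Finset.mem_filter] at hX hX'
  exact M9_eq_of hX.1 hX'.1 hX.2.1 hX'.2.1 (add_right_cancel ht)

/-- unit rate Dirichlet form of the hub chain -/
noncomputable def M9_DU (c : Fin n → ℕ) (R : Fin m → ℕ) (f : (Fin m → Fin n → ℕ) → ℝ) : ℝ :=
  ∑ l, ∑ p, ∑ q, M9_D c R f l p q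

theorem M9_DU_nonneg (c : Fin n → ℕ) (R : Fin m → ℕ) (f : (Fin m → Fin n → ℕ) → ℝ) :
    0 ≤ M9_DU c R f :=
  Finset.sum_nonneg fun l _ => Finset.sum_nonneg fun p _ => Finset.sum_nonneg fun q _ =>
    M9_D_nonneg c R f l p q

/-- the squared increments over all edges of row `j` of the extended chain -/
noncomputable def M9_S (c : Fin n → ℕ) (R : Fin m → ℕ) (f : (Fin m → Fin n → ℕ) → ℝ)
    (j : Fin m) (a b : Fin (n + 1)) : ℝ :=
  ∑ X ∈ Om (M9_c c) (R + e1 j), (if X j a ≠ 0 ∧ X j b ≠ 0 then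
      (M9_u c f (X - E j a) - M9_u c f (X - E j b)) ^ 2 else 0)

theorem M9_S_symm (c : Fin n → ℕ) (R : Fin m → ℕ) (f : (Fin m → Fin n → ℕ) → ℝ)
    (j : Fin m) (a b : Fin (n + 1)) : M9_S c R f j a b = M9_S c R f j b a := by
  unfold M9_S
  refine Finset.sum_congr rfl fun X _ => ?_
  by_cases h : X j a ≠ 0 ∧ X j b ≠ 0
  · rw [if_pos h, if_pos ⟨h.2, h.1⟩]; ring
  · rw [if_neg h, if_neg (fun h' => h ⟨h'.2, h'.1⟩)]

theorem M9_S_diag (c : Fin n → ℕ) (R : Fin m → ℕ) (f : (Fin m → Fin n → ℕ) → ℝ)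
    (j : Fin m) (a : Fin (n + 1)) : M9_S c R f j a a = 0 := by
  unfold M9_S
  refine Finset.sum_eq_zero fun X _ => ?_
  simp

theorem M9_S_total (c : Fin n → ℕ) (R : Fin m → ℕ) (hub : 1 + ∑ i, R i ≤ ∑ a, c a)
    (f : (Fin m → Fin n → ℕ) → ℝ) :
    ∑ j, ∑ a, ∑ b, M9_S c R f j a b ≤ (3 + 9 * m * n) * M9_DU c R f := by
  have h1 : ∀ j, ∑ a, ∑ b, M9_S c R f j a b ≤
      2 * ∑ b, ∑ α, M9_D c R f j α b + ∑ a, ∑ b, (M9_D c R f j a b + 3 * ∑ k, ∑ α,
      (M9_D c R f j a b + M9_D c R f k α a + M9_D c R f k α b)) := by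
    intro j
    rw [Fin.sum_univ_succ, Fin.sum_univ_succ, M9_S_diag]
    have h2 : ∀ a : Fin n, ∑ b, M9_S c R f j a.succ b =
        M9_S c R f j 0 a.succ + ∑ b : Fin n, M9_S c R f j a.succ b.succ := by
      intro a
      rw [Fin.sum_univ_succ, M9_S_symm]
    simp only [h2, Finset.sum_add_distrib (f := fun a : Fin n => M9_S c R f j 0 a.succ)]
    have h3 : ∑ b : Fin n, M9_S c R f j 0 b.succ ≤ ∑ b, ∑ α, M9_D c R f j α b :=
      Finset.sum_le_sum fun b _ => M9_sum_zero c R hub f j b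
    have h4 : ∑ a : Fin n, ∑ b : Fin n, M9_S c R f j a.succ b.succ ≤
        ∑ a, ∑ b, (M9_D c R f j a b + 3 * ∑ k, ∑ α,
      (M9_D c R f j a b + M9_D c R f k α a + M9_D c R f k α b)) :=
      Finset.sum_le_sum fun a _ => Finset.sum_le_sum fun b _ => M9_sum_succ c R hub f j a b
    linarith
  refine le_trans (Finset.sum_le_sum fun j _ => h1 j) ?_
  have e1' : ∑ j, ∑ b, ∑ α, M9_D c R f j α b = M9_DU c R f := by
    unfold M9_DU
    exact Finset.sum_congr rfl fun j _ => Finset.sum_comm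
  have e2' : ∑ j, ∑ a, ∑ b, M9_D c R f j a b = M9_DU c R f := rfl
  have e3' : ∑ j, ∑ a, ∑ b, ∑ _k : Fin m, ∑ _α : Fin n, M9_D c R f j a b =
      m * n * M9_DU c R f := by
    simp only [Finset.sum_const, Finset.card_univ, Fintype.card_fin, nsmul_eq_mul]
    unfold M9_DU
    simp only [← Finset.mul_sum]
    ring
  have e4' : ∑ _j : Fin m, ∑ a, ∑ _b : Fin n, ∑ k, ∑ α, M9_D c R f k α a =
      m * n * M9_DU c R f := by
    simp only [Finset.sum_const, Finset.card_univ, Fintype.card_fin, nsmul_eq_mul]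
    rw [← Finset.mul_sum, ← e1', ← mul_assoc]
    congr 1
    rw [Finset.sum_comm]
  have e5' : ∑ _j : Fin m, ∑ _a : Fin n, ∑ b, ∑ k, ∑ α, M9_D c R f k α b =
      m * n * M9_DU c R f := by
    simp only [Finset.sum_const, Finset.card_univ, Fintype.card_fin, nsmul_eq_mul]
    rw [← e1', ← mul_assoc]
    congr 1
    rw [Finset.sum_comm]
  simp only [Finset.sum_add_distrib, Finset.mul_sum, mul_add] at *
  simp only [← Finset.mul_sum] at *
  rw [e1', e3', e4', e5']
  rw [e2']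
  apply le_of_eq
  ring

theorem M9_DD_le (c : Fin n → ℕ) (R : Fin m → ℕ) (hub : 1 + ∑ i, R i ≤ ∑ a, c a)
    (f : (Fin m → Fin n → ℕ) → ℝ) :
    ∑ j, DD (M9_c c) R (M9_u c f) j ≤
      1 / 2 * ((∑ a, c a : ℕ) + 1 : ℝ) ^ 2 * ((3 + 9 * m * n) * M9_DU c R f) := by
  refine le_trans ?_ (mul_le_mul_of_nonneg_left (M9_S_total c R hub f) (by positivity))
  rw [Finset.mul_sum]
  refine Finset.sum_le_sum fun j _ => ?_
  unfold DD
  rw [mul_assoc]
  refine mul_le_mul_of_nonneg_left ?_ (by norm_num)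
  have h1 : ∑ a, ∑ b, M9_S c R f j a b = ∑ X ∈ Om (M9_c c) (R + e1 j), ∑ a, ∑ b,
      (if X j a ≠ 0 ∧ X j b ≠ 0 then
      (M9_u c f (X - E j a) - M9_u c f (X - E j b)) ^ 2 else 0) := by
    unfold M9_S
    have h2 : ∀ a, ∑ b, ∑ X ∈ Om (M9_c c) (R + e1 j), (if X j a ≠ 0 ∧ X j b ≠ 0 then
        (M9_u c f (X - E j a) - M9_u c f (X - E j b)) ^ 2 else 0) =
        ∑ X ∈ Om (M9_c c) (R + e1 j), ∑ b, (if X j a ≠ 0 ∧ X j b ≠ 0 then
        (M9_u c f (X - E j a) - M9_u c f (X - E j b)) ^ 2 else 0) := fun a => Finset.sum_comm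
    simp only [h2]
    exact Finset.sum_comm
  rw [h1, Finset.mul_sum]
  refine Finset.sum_le_sum fun X hX => ?_
  rw [Finset.mul_sum]
  refine Finset.sum_le_sum fun a _ => ?_
  rw [Finset.mul_sum]
  refine Finset.sum_le_sum fun b _ => ?_
  have hb : ∀ d, (X j d : ℝ) ≤ (∑ a, c a : ℕ) + 1 := by
    intro d
    have h2 := (mem_Om.1 hX).2 d
    have h3 : X j d ≤ ∑ i, X i d :=
      Finset.single_le_sum (f := fun i => X i d) (fun i _ => Nat.zero_le _) (Finset.mem_univ j)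
    have h4 : M9_c c d ≤ ∑ a, M9_c c a :=
      Finset.single_le_sum (f := M9_c c) (fun i _ => Nat.zero_le _) (Finset.mem_univ d)
    have h5 : ∑ a, M9_c c a = 1 + ∑ a, c a := by
      rw [Fin.sum_univ_succ]; simp [M9_c]
    have h6 : X j d ≤ ∑ a, c a + 1 := by omega
    exact_mod_cast h6
  by_cases h : X j a ≠ 0 ∧ X j b ≠ 0
  · rw [if_pos h]
    refine mul_le_mul_of_nonneg_right ?_ (sq_nonneg _)
    rw [sq]
    exact mul_le_mul (hb a) (hb b) (Nat.cast_nonneg _) (by positivity)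
  · rw [if_neg h, mul_zero]
    have : (X j a : ℝ) * (X j b : ℝ) = 0 := by
      by_cases h7 : X j a = 0
      · rw [h7]; simp
      · have : X j b = 0 := by
          by_contra h8
          exact h ⟨h7, h8⟩
        rw [this]; simp
    rw [this, zero_mul]

end Vale.Agent.P328
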