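import Vale.Agent.Lib.P328.Defs

/-!
P328: tables with given margins, switches, and the Dirichlet form of the switch chain.
-/

namespace Vale.Agent.P328

open Finset

variable {m n : ℕ}

/-- contingency tables with row sums `r` and column sums `c` -/
def TabF (r : Fin m → ℕ) (c : Fin n → ℕ) : Finset (Fin m → Fin n → ℕ) :=
  (Fintype.piFinset fun _ => Fintype.piFinset fun a => Finset.range (c a + 1)).filter
    fun T => (∀ i, ∑ a, T i a = r i) ∧ ∀ a, ∑ i, T i a = c a

/-- the switch in rows `i, k`: a unit of row `i` moves from column `a` to column `b`, a unit of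
row `k` moves from column `b` to column `a` -/
def swF (i k : Fin m) (a b : Fin n) (T : Fin m → Fin n → ℕ) : Fin m → Fin n → ℕ :=
  T + E i b + E k a - E i a - E k b

/-- the switch is possible -/
def swOK (i k : Fin m) (a b : Fin n) (T : Fin m → Fin n → ℕ) : Prop :=
  i ≠ k ∧ a ≠ b ∧ T i a ≠ 0 ∧ T k b ≠ 0

instance (i k : Fin m) (a b : Fin n) (T : Fin m → Fin n → ℕ) : Decidable (swOK i k a b T) := by
  unfold swOK; infer_instance

/-- sum over tables and possible switches of the squared increments -/
noncomputable def EEF (r : Fin m → ℕ) (c : Fin n → ℕ) (f : (Fin m → Fin n → ℕ) → ℝ) : ℝ :=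
  ∑ T ∈ TabF r c, ∑ i, ∑ k, ∑ a, ∑ b, if swOK i k a b T then (f (swF i k a b T) - f T) ^ 2 else 0

end Vale.Agent.P328
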