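import Vale.Agent.Lib.P328.M9B
import Vale.Agent.Lib.P328.TabDefs

/-!
P328, module M9: comparison of the hub chain of the extended configuration space with the standard
switch chain on contingency tables with arbitrary margins.
-/

namespace Vale.Agent.P328

open Finset

variable {m n : ℕ}

theorem M9_DD_const {k : ℕ} (c : Fin k → ℕ) (R : Fin m → ℕ) (u : (Fin m → Fin k → ℕ) → ℝ)
    (t : ℝ) (j : Fin m) : DD c R (fun x => u x - t) j = DD c R u j := by
  unfold DD
  congr 1
  refine Finset.sum_congr rfl fun X _ => Finset.sum_congr rfl fun a _ =>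
    Finset.sum_congr rfl fun b _ => ?_
  ring

/-- put an empty extra column -/
def M9_cns (x : Fin m → Fin n → ℕ) : Fin m → Fin (n + 1) → ℕ := fun j => Fin.cons 0 (x j)

theorem M9_tl_cns (x : Fin m → Fin n → ℕ) : M9_tl (M9_cns x) = x := by
  funext i a
  simp [M9_tl, M9_cns]

theorem M9_cns_mem {c : Fin n → ℕ} {R : Fin m → ℕ} {x : Fin m → Fin n → ℕ} (hx : x ∈ Om c R) :
    M9_cns x ∈ Om (M9_c c) R := by
  rw [mem_Om] at hx ⊢
  constructor
  · intro i
    rw [Fin.sum_univ_succ]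
    simpa [M9_cns] using hx.1 i
  · intro a
    refine Fin.cases ?_ (fun b => ?_) a
    · simp [M9_cns]
    · simpa [M9_cns, M9_c] using hx.2 b

theorem M9_hub (c : Fin n → ℕ) (R : Fin m → ℕ) (f : (Fin m → Fin n → ℕ) → ℝ) (K : ℝ)
    (hK : 0 ≤ K) (hub : 1 + ∑ i, R i ≤ ∑ a, c a)
    (hP : ∀ u : (Fin m → Fin (n + 1) → ℕ) → ℝ, ∑ x ∈ Om (M9_c c) R, u x = 0 →
      ∑ x ∈ Om (M9_c c) R, u x ^ 2 ≤ K * ∑ j, DD (M9_c c) R u j)
    (hf : ∑ x ∈ Om c R, f x = 0) :
    ∑ x ∈ Om c R, f x ^ 2 ≤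
      K * (1 / 2 * ((∑ a, c a : ℕ) + 1 : ℝ) ^ 2 * ((3 + 9 * m * n) * M9_DU c R f)) := by
  classical
  have hDU := M9_DU_nonneg c R f
  have hinj : ∀ x ∈ Om c R, ∀ y ∈ Om c R, M9_cns x = M9_cns y → x = y := by
    intro x _ y _ h
    rw [← M9_tl_cns x, ← M9_tl_cns y, h]
  by_cases hne : (Om (M9_c c) R).Nonempty
  · set S := Om (M9_c c) R with hS
    set t : ℝ := (∑ x ∈ S, M9_u c f x) / S.card with ht
    have hcard : (S.card : ℝ) ≠ 0 := by
      have := Finset.card_pos.2 hne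
      positivity
    have h0 : ∑ x ∈ S, (M9_u c f x - t) = 0 := by
      rw [Finset.sum_sub_distrib, Finset.sum_const, nsmul_eq_mul, ht]
      field_simp
      ring
    have h1 := hP (fun x => M9_u c f x - t) h0
    simp only [M9_DD_const] at h1
    have h2 : ∑ x ∈ Om c R, f x ^ 2 ≤ ∑ x ∈ Om c R, (f x - t) ^ 2 := by
      have h3 : ∑ x ∈ Om c R, (f x - t) ^ 2 =
          ∑ x ∈ Om c R, f x ^ 2 - 2 * t * ∑ x ∈ Om c R, f x + (Om c R).card * t ^ 2 := by
        rw [Finset.mul_sum, ← Finset.sum_sub_distrib, ← nsmul_eq_mul, ← Finset.sum_const,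
          ← Finset.sum_add_distrib]
        refine Finset.sum_congr rfl fun x _ => ?_
        ring
      rw [h3, hf]
      have : 0 ≤ ((Om c R).card : ℝ) * t ^ 2 := by positivity
      linarith
    have h3 : ∑ x ∈ Om c R, (f x - t) ^ 2 ≤ ∑ x ∈ S, (M9_u c f x - t) ^ 2 := by
      have h4 : ∑ x ∈ Om c R, (f x - t) ^ 2 =
          ∑ x ∈ Om c R, (M9_u c f (M9_cns x) - t) ^ 2 := by
        refine Finset.sum_congr rfl fun x _ => ?_
        rw [M9_u0 c f (x := M9_cns x) (fun i => by simp [M9_cns]), M9_tl_cns]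
      rw [h4, ← Finset.sum_image (f := fun X => (M9_u c f X - t) ^ 2) (g := M9_cns)
        (fun x hx y hy h => hinj x hx y hy h)]
      refine Finset.sum_le_sum_of_subset_of_nonneg ?_ fun X _ _ => sq_nonneg _
      intro X hX
      rw [Finset.mem_image] at hX
      obtain ⟨x, hx, rfl⟩ := hX
      exact M9_cns_mem hx
    refine le_trans h2 (le_trans h3 (le_trans h1 ?_))
    exact mul_le_mul_of_nonneg_left (M9_DD_le c R hub f) hK
  · have hemp : Om c R = ∅ := by
      by_contra hne'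
      obtain ⟨x, hx⟩ := Finset.nonempty_of_ne_empty hne'
      exact hne ⟨M9_cns x, M9_cns_mem hx⟩
    rw [hemp, Finset.sum_empty]
    positivity

/-- the hub row -/
def M9_hr (c : Fin n → ℕ) (x : Fin m → Fin n → ℕ) : Fin n → ℕ := fun a => c a - ∑ j, x j a

/-- the full table -/
def M9_ins (i0 : Fin (m + 1)) (c : Fin n → ℕ) (x : Fin m → Fin n → ℕ) : Fin (m + 1) → Fin n → ℕ :=
  i0.insertNth (α := fun _ => Fin n → ℕ) (M9_hr c x) x

theorem M9_ins_same (i0 : Fin (m + 1)) (c : Fin n → ℕ) (x : Fin m → Fin n → ℕ) :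
    M9_ins i0 c x i0 = M9_hr c x := by
  unfold M9_ins; simp

theorem M9_ins_succ (i0 : Fin (m + 1)) (c : Fin n → ℕ) (x : Fin m → Fin n → ℕ) (j : Fin m) :
    M9_ins i0 c x (i0.succAbove j) = x j := by
  unfold M9_ins; simp

theorem M9_mem_Tab {r : Fin m → ℕ} {c : Fin n → ℕ} {T : Fin m → Fin n → ℕ} :
    T ∈ TabF r c ↔ (∀ i, ∑ a, T i a = r i) ∧ ∀ a, ∑ i, T i a = c a := by
  unfold TabF
  rw [Finset.mem_filter]
  constructor
  · exact fun h => h.2
  · intro h
    refine ⟨?_, h⟩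
    rw [Fintype.mem_piFinset]
    intro j
    rw [Fintype.mem_piFinset]
    intro a
    rw [Finset.mem_range]
    have h1 : T j a ≤ ∑ i, T i a :=
      Finset.single_le_sum (f := fun i => T i a) (fun i _ => Nat.zero_le _) (Finset.mem_univ j)
    have h2 := h.2 a
    omega

theorem M9_ins_mem {r : Fin (m + 1) → ℕ} {c : Fin n → ℕ} (hrc : ∑ i, r i = ∑ a, c a)
    (i0 : Fin (m + 1)) {x : Fin m → Fin n → ℕ}
    (hx : x ∈ Om c (fun j => r (i0.succAbove j))) : M9_ins i0 c x ∈ TabF r c := by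
  rw [mem_Om] at hx
  rw [M9_mem_Tab]
  have hcol : ∀ a, M9_hr c x a + ∑ j, x j a = c a := by
    intro a
    have := hx.2 a
    unfold M9_hr
    omega
  constructor
  · intro i
    rcases Fin.eq_self_or_eq_succAbove i0 i with rfl | ⟨j, rfl⟩
    · rw [M9_ins_same]
      have h1 : ∑ a, (M9_hr c x a + ∑ j, x j a) = ∑ a, c a :=
        Finset.sum_congr rfl fun a _ => hcol a
      rw [Finset.sum_add_distrib, Finset.sum_comm (f := fun a j => x j a)] at h1
      have h2 : ∑ j, ∑ a, x j a = ∑ j, r (i.succAbove j) :=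
        Finset.sum_congr rfl fun j _ => hx.1 j
      rw [h2] at h1
      rw [Fin.sum_univ_succAbove r i] at hrc
      omega
    · rw [M9_ins_succ]
      exact hx.1 j
  · intro a
    rw [Fin.sum_univ_succAbove _ i0, M9_ins_same]
    simp only [M9_ins_succ]
    exact hcol a

theorem M9_sum_Tab {r : Fin (m + 1) → ℕ} {c : Fin n → ℕ} (hrc : ∑ i, r i = ∑ a, c a)
    (i0 : Fin (m + 1)) (F : (Fin (m + 1) → Fin n → ℕ) → ℝ) :
    ∑ T ∈ TabF r c, F T = ∑ x ∈ Om c (fun j => r (i0.succAbove j)), F (M9_ins i0 c x) := by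
  symm
  refine Finset.sum_bij' (fun x _ => M9_ins i0 c x) (fun T _ => fun j => T (i0.succAbove j))
    ?_ ?_ ?_ ?_ ?_
  · intro x hx
    exact M9_ins_mem hrc i0 hx
  · intro T hT
    rw [M9_mem_Tab] at hT
    rw [mem_Om]
    refine ⟨fun j => hT.1 _, fun a => ?_⟩
    have := hT.2 a
    rw [Fin.sum_univ_succAbove _ i0] at this
    omega
  · intro x hx
    funext j
    exact M9_ins_succ i0 c x j
  · intro T hT
    rw [M9_mem_Tab] at hT
    funext i
    rcases Fin.eq_self_or_eq_succAbove i0 i with rfl | ⟨j, rfl⟩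
    · rw [M9_ins_same]
      funext a
      have := hT.2 a
      rw [Fin.sum_univ_succAbove _ i] at this
      change c a - ∑ j, T (i.succAbove j) a = T i a
      omega
    · rw [M9_ins_succ]
  · intro x hx
    rfl

/-- a hub switch is a switch of the table -/
theorem M9_sw {c : Fin n → ℕ} {R : Fin m → ℕ} (i0 : Fin (m + 1)) {x : Fin m → Fin n → ℕ}
    (hx : x ∈ Om c R) {l : Fin m} {p q : Fin n} (hpq : q ≠ p) (hp : ∑ i, x i p < c p)
    (hq : x l q ≠ 0) :
    swF (i0.succAbove l) i0 q p (M9_ins i0 c x) = M9_ins i0 c (x + E l p - E l q) := by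
  have hne : ∀ j, i0.succAbove j ≠ i0 := fun j => Fin.succAbove_ne i0 j
  funext i
  rcases Fin.eq_self_or_eq_succAbove i0 i with rfl | ⟨j, rfl⟩
  · rw [M9_ins_same]
    funext a
    unfold swF
    simp only [Pi.add_apply, Pi.sub_apply, M9_ins_same]
    rw [E_ne_row (Ne.symm (hne l)), E_ne_row (Ne.symm (hne l))]
    unfold M9_hr
    have hq' : (x + E l p) l q ≠ 0 := by
      simp only [Pi.add_apply]; omega
    have h1 := M9_sub_col hq' a
    have h2 : ∑ j, (x + E l p) j a = ∑ j, x j a + e1 p a := by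
      simp only [Pi.add_apply, Finset.sum_add_distrib, E_col_sum]
    rw [h2] at h1
    have h3 := (mem_Om.1 hx).2 a
    have h4 : x l q ≤ ∑ j, x j q :=
      Finset.single_le_sum (f := fun i => x i q) (fun i _ => Nat.zero_le _) (Finset.mem_univ l)
    simp only [E_apply, true_and]
    have h5 : e1 q a = if a = q then 1 else 0 := rfl
    have h6 : e1 p a = if a = p then 1 else 0 := rfl
    rw [h5, h6] at h1
    by_cases ha : a = q
    · have hap : a ≠ p := fun h => hpq (ha ▸ h)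
      rw [if_pos ha, if_neg hap] at h1 ⊢
      rw [← ha] at h4 hq
      omega
    · by_cases hap : a = p
      · rw [if_neg ha, if_pos hap] at h1 ⊢
        rw [← hap] at hp
        omega
      · rw [if_neg ha, if_neg hap] at h1 ⊢
        omega
  · rw [M9_ins_succ]
    funext a
    unfold swF
    simp only [Pi.add_apply, Pi.sub_apply, M9_ins_succ]
    rw [E_ne_row (hne j), E_ne_row (hne j)]
    have h1 : ∀ b : Fin n, E (i0.succAbove l) b (i0.succAbove j) a = E l b j a := by
      intro b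
      simp [E]
    rw [h1, h1]
    omega

theorem M9_DU_le_EE {r : Fin (m + 1) → ℕ} {c : Fin n → ℕ} (hrc : ∑ i, r i = ∑ a, c a)
    (i0 : Fin (m + 1)) (f : (Fin (m + 1) → Fin n → ℕ) → ℝ) :
    M9_DU c (fun j => r (i0.succAbove j)) (fun x => f (M9_ins i0 c x)) ≤ EEF r c f := by
  set R : Fin m → ℕ := fun j => r (i0.succAbove j) with hR
  set g : (Fin m → Fin n → ℕ) → ℝ := fun x => f (M9_ins i0 c x) with hg
  -- rewrite one class
  have h1 : ∀ l p q, M9_D c R g l p q = ∑ x ∈ Om c R, if ∑ i, x i p < c p then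
      (if (x + E l p) l q ≠ 0 then (g x - g (x + E l p - E l q)) ^ 2 else 0) else 0 := by
    intro l p q
    rw [level1 c R l p (fun x => if (x + E l p) l q ≠ 0 then
      (g x - g (x + E l p - E l q)) ^ 2 else 0)]
    unfold M9_D
    refine Finset.sum_congr rfl fun Y _ => ?_
    by_cases hp : Y l p ≠ 0
    · have he : Y - E l p + E l p = Y := sub_add_of_le (E_le_iff.2 hp)
      rw [if_pos hp, he]
      by_cases hq : Y l q ≠ 0
      · rw [if_pos ⟨hp, hq⟩, if_pos hq]
      · rw [if_neg (fun h => hq h.2), if_neg hq]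
    · rw [if_neg hp, if_neg (fun h => hp h.1)]
  unfold EEF
  rw [M9_sum_Tab hrc i0]
  unfold M9_DU
  simp only [h1]
  have h2 : ∑ l, ∑ p, ∑ q, ∑ x ∈ Om c R, (if ∑ i, x i p < c p then
      (if (x + E l p) l q ≠ 0 then (g x - g (x + E l p - E l q)) ^ 2 else 0) else 0) =
      ∑ x ∈ Om c R, ∑ l, ∑ p, ∑ q, (if ∑ i, x i p < c p then
      (if (x + E l p) l q ≠ 0 then (g x - g (x + E l p - E l q)) ^ 2 else 0) else 0) := by
    have h3 : ∀ l p, ∑ q, ∑ x ∈ Om c R, (if ∑ i, x i p < c p then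
      (if (x + E l p) l q ≠ 0 then (g x - g (x + E l p - E l q)) ^ 2 else 0) else 0) =
      ∑ x ∈ Om c R, ∑ q, (if ∑ i, x i p < c p then
      (if (x + E l p) l q ≠ 0 then (g x - g (x + E l p - E l q)) ^ 2 else 0) else 0) :=
      fun l p => Finset.sum_comm
    simp only [h3]
    have h4 : ∀ l, ∑ p, ∑ x ∈ Om c R, ∑ q, (if ∑ i, x i p < c p then
      (if (x + E l p) l q ≠ 0 then (g x - g (x + E l p - E l q)) ^ 2 else 0) else 0) =
      ∑ x ∈ Om c R, ∑ p, ∑ q, (if ∑ i, x i p < c p then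
      (if (x + E l p) l q ≠ 0 then (g x - g (x + E l p - E l q)) ^ 2 else 0) else 0) :=
      fun l => Finset.sum_comm
    simp only [h4]
    exact Finset.sum_comm
  rw [h2]
  refine Finset.sum_le_sum fun x hx => ?_
  -- the table sum restricted to switches with the hub
  set G : Fin (m + 1) → Fin (m + 1) → Fin n → Fin n → ℝ := fun i k a b =>
    if swOK i k a b (M9_ins i0 c x) then
      (f (swF i k a b (M9_ins i0 c x)) - f (M9_ins i0 c x)) ^ 2 else 0 with hG
  have hGn : ∀ i k a b, 0 ≤ G i k a b := by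
    intro i k a b
    simp only [hG]
    split_ifs
    · positivity
    · exact le_rfl
  have h5 : ∑ l, ∑ p, ∑ q, G (i0.succAbove l) i0 q p ≤ ∑ i, ∑ k, ∑ a, ∑ b, G i k a b := by
    have h6 : ∀ i, ∑ p, ∑ q, G i i0 q p ≤ ∑ k, ∑ a, ∑ b, G i k a b := by
      intro i
      rw [Finset.sum_comm (f := fun p q => G i i0 q p)]
      exact Finset.single_le_sum (f := fun k => ∑ a, ∑ b, G i k a b)
        (fun k _ => Finset.sum_nonneg fun a _ => Finset.sum_nonneg fun b _ => hGn i k a b)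
        (Finset.mem_univ i0)
    refine le_trans (Finset.sum_le_sum fun l _ => h6 (i0.succAbove l)) ?_
    rw [Fin.sum_univ_succAbove (fun i => ∑ k, ∑ a, ∑ b, G i k a b) i0]
    have : 0 ≤ ∑ k, ∑ a, ∑ b, G i0 k a b :=
      Finset.sum_nonneg fun k _ => Finset.sum_nonneg fun a _ => Finset.sum_nonneg fun b _ =>
        hGn i0 k a b
    linarith
  refine le_trans ?_ h5
  refine Finset.sum_le_sum fun l _ => Finset.sum_le_sum fun p _ => Finset.sum_le_sum fun q _ => ?_
  by_cases hp : ∑ i, x i p < c p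
  · rw [if_pos hp]
    by_cases hpq : q = p
    · have he : x + E l p - E l q = x := by
        rw [hpq]; funext i a; simp
      rw [he, sub_self]
      have := hGn (i0.succAbove l) i0 q p
      split_ifs
      · simpa using this
      · exact this
    · have hq : (x + E l p) l q = x l q := by
        simp only [Pi.add_apply]
        rw [E_ne_col hpq]
        omega
      rw [hq]
      by_cases hxq : x l q ≠ 0
      · rw [if_pos hxq]
        have hok : swOK (i0.succAbove l) i0 q p (M9_ins i0 c x) := by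
          refine ⟨Fin.succAbove_ne i0 l, hpq, ?_, ?_⟩
          · rw [M9_ins_succ]; exact hxq
          · rw [M9_ins_same]
            unfold M9_hr
            omega
        simp only [hG]
        rw [if_pos hok, M9_sw i0 hx hpq hp hxq]
        apply le_of_eq
        simp only [hg]
        ring
      · rw [if_neg hxq]
        exact hGn _ _ _ _
  · rw [if_neg hp]
    exact hGn _ _ _ _

theorem M9_EE_nonneg (r : Fin m → ℕ) (c : Fin n → ℕ) (f : (Fin m → Fin n → ℕ) → ℝ) :
    0 ≤ EEF r c f := by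
  unfold EEF
  refine Finset.sum_nonneg fun T _ => Finset.sum_nonneg fun i _ => Finset.sum_nonneg fun k _ =>
    Finset.sum_nonneg fun a _ => Finset.sum_nonneg fun b _ => ?_
  split_ifs
  · positivity
  · exact le_rfl

/-- if all tables coincide there is nothing to prove -/
theorem M9_trivial (r : Fin m → ℕ) (c : Fin n → ℕ) (f : (Fin m → Fin n → ℕ) → ℝ)
    (hf : ∑ T ∈ TabF r c, f T = 0) (h : ∀ T ∈ TabF r c, ∀ T' ∈ TabF r c, T = T') :
    ∑ T ∈ TabF r c, f T ^ 2 = 0 := by
  refine Finset.sum_eq_zero fun T hT => ?_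
  have h1 : TabF r c = {T} := by
    refine Finset.eq_singleton_iff_unique_mem.2 ⟨hT, fun T' hT' => h T' hT' T hT⟩
  rw [h1, Finset.sum_singleton] at hf
  rw [hf]; norm_num

/-- M9, with the Poincaré inequality of the hub chain as input -/
theorem M9_of (H : ∀ (m n : ℕ) (c : Fin n → ℕ) (R : Fin m → ℕ) (u : (Fin m → Fin n → ℕ) → ℝ),
      (∀ j, R j + 1 + ∑ i, R i ≤ ∑ a, c a) → ∑ x ∈ Om c R, u x = 0 →
      ∑ x ∈ Om c R, u x ^ 2 ≤ 7 * n * ((∑ a, c a : ℕ) + 1 : ℝ) ^ 6 * ∑ j, DD c R u j)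
    (r : Fin m → ℕ) (c : Fin n → ℕ) (f : (Fin m → Fin n → ℕ) → ℝ)
    (hf : ∑ T ∈ TabF r c, f T = 0) :
    ∑ T ∈ TabF r c, f T ^ 2 ≤
      35 * m * (n + 1) ^ 2 * ((∑ a, c a : ℕ) + 2 : ℝ) ^ 8 * EEF r c f := by
  have hEE := M9_EE_nonneg r c f
  rcases Nat.eq_zero_or_pos m with hm | hm
  · subst hm
    rw [M9_trivial r c f hf (fun T _ T' _ => Subsingleton.elim T T')]
    simp
  obtain ⟨m, rfl⟩ : ∃ k, m = k + 1 := ⟨m - 1, by omega⟩
  by_cases hne : (TabF r c).Nonempty
  · obtain ⟨T0, hT0⟩ := hne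
    rw [M9_mem_Tab] at hT0
    have hrc : ∑ i, r i = ∑ a, c a := by
      rw [← Finset.sum_congr rfl fun i _ => hT0.1 i, ← Finset.sum_congr rfl fun a _ => hT0.2 a]
      exact Finset.sum_comm
    obtain ⟨i0, hi0⟩ := Finite.exists_max r
    rcases Nat.eq_zero_or_pos (r i0) with hr0 | hr0
    · rw [M9_trivial r c f hf]
      · positivity
      · have hz : ∀ T ∈ TabF r c, T = 0 := by
          intro T hT
          rw [M9_mem_Tab] at hT
          funext i a
          have h1 : ∑ a, T i a = 0 := by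
            rw [hT.1 i]
            have := hi0 i
            omega
          exact (Finset.sum_eq_zero_iff.1 h1) a (Finset.mem_univ a)
        intro T hT T' hT'
        rw [hz T hT, hz T' hT']
    · set R : Fin m → ℕ := fun j => r (i0.succAbove j) with hR
      have hsum : r i0 + ∑ i, R i = ∑ a, c a := by
        rw [← hrc, Fin.sum_univ_succAbove r i0]
      have hcsum : ∑ a, M9_c c a = 1 + ∑ a, c a := by
        rw [Fin.sum_univ_succ]; simp [M9_c]
      have hP : ∀ u : (Fin m → Fin (n + 1) → ℕ) → ℝ, ∑ x ∈ Om (M9_c c) R, u x = 0 →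
          ∑ x ∈ Om (M9_c c) R, u x ^ 2 ≤
          7 * ((n + 1 : ℕ) : ℝ) * ((∑ a, M9_c c a : ℕ) + 1 : ℝ) ^ 6 *
            ∑ j, DD (M9_c c) R u j := by
        intro u hu
        refine H m (n + 1) (M9_c c) R u ?_ hu
        intro j
        have := hi0 (i0.succAbove j)
        have h3 : R j = r (i0.succAbove j) := rfl
        omega
      have h1 := M9_hub c R (fun x => f (M9_ins i0 c x)) _ (by positivity)
        (by omega) hP (by rw [← M9_sum_Tab hrc i0 f]; exact hf)
      rw [← M9_sum_Tab hrc i0 (fun T => f T ^ 2)] at h1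
      refine le_trans h1 ?_
      have h2 := M9_DU_le_EE hrc i0 f
      have h3 : (3 + 9 * (m : ℝ) * n) * M9_DU c R (fun x => f (M9_ins i0 c x)) ≤
          (10 * (((m + 1 : ℕ) : ℝ)) * (n + 1)) * EEF r c f := by
        refine mul_le_mul ?_ h2 (M9_DU_nonneg _ _ _) (by positivity)
        push_cast
        have hm0 : (0 : ℝ) ≤ m := Nat.cast_nonneg m
        have hn0 : (0 : ℝ) ≤ n := Nat.cast_nonneg n
        nlinarith [mul_nonneg hm0 hn0]
      have h4 : (((∑ a, M9_c c a : ℕ) : ℝ) + 1) = ((∑ a, c a : ℕ) + 2 : ℝ) := by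
        rw [hcsum]; push_cast; ring
      rw [h4]
      have h5 : ((∑ a, c a : ℕ) + 1 : ℝ) ^ 2 ≤ ((∑ a, c a : ℕ) + 2 : ℝ) ^ 2 := by
        have : (0 : ℝ) ≤ (∑ a, c a : ℕ) := Nat.cast_nonneg _
        nlinarith
      calc 7 * ((n + 1 : ℕ) : ℝ) * ((∑ a, c a : ℕ) + 2 : ℝ) ^ 6 *
            (1 / 2 * ((∑ a, c a : ℕ) + 1 : ℝ) ^ 2 *
              ((3 + 9 * m * n) * M9_DU c R (fun x => f (M9_ins i0 c x))))
          ≤ 7 * ((n + 1 : ℕ) : ℝ) * ((∑ a, c a : ℕ) + 2 : ℝ) ^ 6 *
            (1 / 2 * ((∑ a, c a : ℕ) + 2 : ℝ) ^ 2 *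
              ((10 * (((m + 1 : ℕ) : ℝ)) * (n + 1)) * EEF r c f)) := by
            refine mul_le_mul_of_nonneg_left ?_ (by positivity)
            refine mul_le_mul (mul_le_mul_of_nonneg_left h5 (by norm_num)) h3 ?_ (by positivity)
            exact mul_nonneg (by positivity) (M9_DU_nonneg _ _ _)
        _ = 35 * ((m + 1 : ℕ) : ℝ) * (n + 1) ^ 2 * ((∑ a, c a : ℕ) + 2 : ℝ) ^ 8 * EEF r c f := by
            push_cast; ring
  · rw [Finset.not_nonempty_iff_eq_empty] at hne
    rw [hne, Finset.sum_empty]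
    positivity

end Vale.Agent.P328
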