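import Vale.Agent.Lib.P328.MixE

/-!
P328: contingency tables, the lazy switch chain, and its basic properties.
-/

open Finset

namespace Vale.Agent.P328

variable {m n : ℕ}

/-- contingency tables with row sums `r` and column sums `c` -/
def Tab (r : Fin m → ℕ) (c : Fin n → ℕ) : Type :=
  {X : Fin m → Fin n → ℕ // (∀ i, ∑ a, X i a = r i) ∧ ∀ a, ∑ i, X i a = c a}

/-- the switch `X i a + 1, X k b + 1, X i b - 1, X k a - 1`, if it is allowed -/
def switch (q : (Fin m × Fin m) × (Fin n × Fin n)) (X : Fin m → Fin n → ℕ) :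
    Fin m → Fin n → ℕ :=
  if q.1.1 ≠ q.1.2 ∧ q.2.1 ≠ q.2.2 ∧ 0 < X q.1.1 q.2.2 ∧ 0 < X q.1.2 q.2.1 then
    fun i a => X i a
      + (if (i = q.1.1 ∧ a = q.2.1) ∨ (i = q.1.2 ∧ a = q.2.2) then 1 else 0)
      - (if (i = q.1.1 ∧ a = q.2.2) ∨ (i = q.1.2 ∧ a = q.2.1) then 1 else 0)
  else X

theorem Tab.entry_le {r : Fin m → ℕ} {c : Fin n → ℕ} (X : Tab r c) (i : Fin m) (a : Fin n) :
    X.1 i a ≤ ∑ i, r i := by
  have h1 : X.1 i a ≤ ∑ a, X.1 i a :=
    Finset.single_le_sum (f := fun a => X.1 i a) (fun _ _ => Nat.zero_le _) (Finset.mem_univ a)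
  rw [X.2.1 i] at h1
  exact h1.trans (Finset.single_le_sum (f := r) (fun _ _ => Nat.zero_le _) (Finset.mem_univ i))

/-- tables as functions with bounded values -/
def Tab.toFin {r : Fin m → ℕ} {c : Fin n → ℕ} (X : Tab r c) :
    Fin m → Fin n → Fin ((∑ i, r i) + 1) :=
  fun i a => ⟨X.1 i a, Nat.lt_succ_of_le (X.entry_le i a)⟩

theorem Tab.toFin_inj (r : Fin m → ℕ) (c : Fin n → ℕ) :
    Function.Injective (Tab.toFin (r := r) (c := c)) := by
  intro X Y h
  apply Subtype.ext
  funext i a
  have := congrFun (congrFun h i) a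
  exact congrArg Fin.val this

noncomputable instance (r : Fin m → ℕ) (c : Fin n → ℕ) : Fintype (Tab r c) :=
  Fintype.ofInjective _ (Tab.toFin_inj r c)

noncomputable instance (r : Fin m → ℕ) (c : Fin n → ℕ) : DecidableEq (Tab r c) :=
  Classical.decEq _

theorem card_Tab (r : Fin m → ℕ) (c : Fin n → ℕ) :
    Fintype.card (Tab r c) ≤ ((∑ i, r i) + 1) ^ (m * n) := by
  refine (Fintype.card_le_of_injective _ (Tab.toFin_inj r c)).trans (le_of_eq ?_)
  rw [Fintype.card_fun, Fintype.card_fun, Fintype.card_fin, Fintype.card_fin, Fintype.card_fin,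
    ← pow_mul, mul_comm]

private theorem sw_row (i k j : Fin m) (a b : Fin n) (hik : i ≠ k) (_ : a ≠ b)
    (X : Fin m → Fin n → ℕ) (h1 : 0 < X i b) (h2 : 0 < X k a) :
    ∑ x, (X j x + (if (j = i ∧ x = a) ∨ (j = k ∧ x = b) then 1 else 0)
      - (if (j = i ∧ x = b) ∨ (j = k ∧ x = a) then 1 else 0)) = ∑ x, X j x := by
  by_cases hj : j = i
  · subst hj
    simp only [true_and, hik, false_and, or_false]
    have e : ∀ x, (X j x + (if x = a then 1 else 0) - (if x = b then 1 else 0))
        + (if x = b then 1 else 0) = X j x + (if x = a then 1 else 0) := by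
      intro x
      have : (if x = b then 1 else 0) ≤ X j x + (if x = a then 1 else 0) := by
        split_ifs with hb ha
        · omega
        · rw [hb]; omega
        · omega
        · omega
      omega
    have s := Finset.sum_congr (rfl : (univ : Finset (Fin n)) = univ) fun x _ => e x
    rw [Finset.sum_add_distrib, Finset.sum_add_distrib] at s
    simp only [Finset.sum_ite_eq', Finset.mem_univ, if_true] at s
    omega
  · by_cases hk : j = k
    · subst hk
      simp only [hj, false_and, false_or, true_and]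
      have e : ∀ x, (X j x + (if x = b then 1 else 0) - (if x = a then 1 else 0))
          + (if x = a then 1 else 0) = X j x + (if x = b then 1 else 0) := by
        intro x
        have : (if x = a then 1 else 0) ≤ X j x + (if x = b then 1 else 0) := by
          split_ifs with hb ha
          · omega
          · rw [hb]; omega
          · omega
          · omega
        omega
      have s := Finset.sum_congr (rfl : (univ : Finset (Fin n)) = univ) fun x _ => e x
      rw [Finset.sum_add_distrib, Finset.sum_add_distrib] at s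
      simp only [Finset.sum_ite_eq', Finset.mem_univ, if_true] at s
      omega
    · simp [hj, hk]

theorem switch_mem {r : Fin m → ℕ} {c : Fin n → ℕ} (q : (Fin m × Fin m) × (Fin n × Fin n))
    {X : Fin m → Fin n → ℕ} (h : (∀ i, ∑ a, X i a = r i) ∧ ∀ a, ∑ i, X i a = c a) :
    (∀ i, ∑ a, switch q X i a = r i) ∧ ∀ a, ∑ i, switch q X i a = c a := by
  unfold switch
  split_ifs with hq
  · obtain ⟨⟨i, k⟩, a, b⟩ := q
    simp only at hq ⊢
    refine ⟨fun j => ?_, fun x => ?_⟩
    · rw [← h.1 j]
      exact sw_row i k j a b hq.1 hq.2.1 X hq.2.2.1 hq.2.2.2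
    · rw [← h.2 x]
      have := sw_row a b x i k hq.2.1 hq.1 (fun y z => X z y) hq.2.2.2 hq.2.2.1
      refine Eq.trans (Finset.sum_congr rfl fun j _ => ?_) this
      have e1 : ((j = i ∧ x = a) ∨ (j = k ∧ x = b)) ↔ ((x = a ∧ j = i) ∨ (x = b ∧ j = k)) := by
        tauto
      have e2 : ((j = i ∧ x = b) ∨ (j = k ∧ x = a)) ↔ ((x = a ∧ j = k) ∨ (x = b ∧ j = i)) := by
        tauto
      simp only [e1, e2]
  · exact h

/-- the switch on tables -/
def sw {r : Fin m → ℕ} {c : Fin n → ℕ} (q : (Fin m × Fin m) × (Fin n × Fin n)) (X : Tab r c) :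
    Tab r c := ⟨switch q X.1, switch_mem q X.2⟩

/-- transition matrix of the lazy switch chain: stay with probability `1/2`, otherwise choose two
ordered pairs of rows and of columns uniformly and perform the switch if it is allowed -/
noncomputable def K (r : Fin m → ℕ) (c : Fin n → ℕ) : Matrix (Tab r c) (Tab r c) ℝ :=
  fun X Y => (if X = Y then 1 / 2 else 0) + (1 / 2) *
    ((univ.filter fun q : (Fin m × Fin m) × (Fin n × Fin n) => sw q X = Y).card : ℝ)
      / ((m : ℝ) ^ 2 * (n : ℝ) ^ 2)

/-- the reversed switch -/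
def qrev (q : (Fin m × Fin m) × (Fin n × Fin n)) : (Fin m × Fin m) × (Fin n × Fin n) :=
  (q.1, (q.2.2, q.2.1))

theorem qrev_inj : Function.Injective (qrev (m := m) (n := n)) := by
  rintro ⟨⟨i, k⟩, a, b⟩ ⟨⟨i', k'⟩, a', b'⟩ h
  simp only [qrev, Prod.mk.injEq] at h ⊢
  tauto

theorem switch_rev (q : (Fin m × Fin m) × (Fin n × Fin n)) (X : Fin m → Fin n → ℕ)
    (h : switch q X ≠ X) : switch (qrev q) (switch q X) = X := by
  obtain ⟨⟨i, k⟩, a, b⟩ := q
  by_cases hq : i ≠ k ∧ a ≠ b ∧ 0 < X i b ∧ 0 < X k a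
  · have e : switch ((i, k), (a, b)) X = fun j x => X j x
        + (if (j = i ∧ x = a) ∨ (j = k ∧ x = b) then 1 else 0)
        - (if (j = i ∧ x = b) ∨ (j = k ∧ x = a) then 1 else 0) := by
      unfold switch
      simp only
      rw [if_pos hq]
    obtain ⟨h1, h2, h3, h4⟩ := hq
    rw [e]
    unfold switch qrev
    simp only
    rw [if_pos]
    · funext j x
      by_cases c1 : j = i
      · subst c1
        simp only [true_and, h1, false_and, or_false]
        by_cases d1 : x = a
        · subst d1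
          simp only [if_true, h2, if_false]
          omega
        · by_cases d2 : x = b
          · subst d2
            simp only [d1, if_false, if_true]
            omega
          · simp only [d1, d2, if_false]
            omega
      · by_cases c2 : j = k
        · subst c2
          simp only [c1, false_and, false_or, true_and]
          by_cases d1 : x = a
          · subst d1
            simp only [if_true, h2, if_false]
            omega
          · by_cases d2 : x = b
            · subst d2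
              simp only [d1, if_false, if_true]
              omega
            · simp only [d1, d2, if_false]
              omega
        · simp only [c1, c2, false_and, or_self, if_false]
          omega
    · refine ⟨h1, h2.symm, ?_, ?_⟩
      · simp [h1, h2]
      · simp [h1.symm, h2.symm]
  · exfalso
    apply h
    unfold switch
    simp only
    rw [if_neg hq]

theorem sw_rev {r : Fin m → ℕ} {c : Fin n → ℕ} (q : (Fin m × Fin m) × (Fin n × Fin n))
    (X : Tab r c) (h : sw q X ≠ X) : sw (qrev q) (sw q X) = X := by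
  apply Subtype.ext
  refine switch_rev q X.1 fun h' => h (Subtype.ext h')

theorem K_symm (r : Fin m → ℕ) (c : Fin n → ℕ) (X Y : Tab r c) : K r c X Y = K r c Y X := by
  by_cases hXY : X = Y
  · rw [hXY]
  · have key : ∀ X Y : Tab r c, X ≠ Y →
        (univ.filter fun q : (Fin m × Fin m) × (Fin n × Fin n) => sw q X = Y).card
          ≤ (univ.filter fun q : (Fin m × Fin m) × (Fin n × Fin n) => sw q Y = X).card := by
      intro X Y h
      refine Finset.card_le_card_of_injOn qrev ?_ (qrev_inj.injOn)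
      intro q hq
      have hq' : sw q X = Y := by simpa using hq
      have h1 : sw q X ≠ X := by rw [hq']; exact Ne.symm h
      have h2 := sw_rev q X h1
      rw [hq'] at h2
      simpa using h2
    unfold K
    rw [if_neg hXY, if_neg (Ne.symm hXY), le_antisymm (key X Y hXY) (key Y X (Ne.symm hXY))]

theorem K_nonneg (r : Fin m → ℕ) (c : Fin n → ℕ) (X Y : Tab r c) : 0 ≤ K r c X Y := by
  unfold K
  split_ifs <;> positivity

theorem K_lazy (r : Fin m → ℕ) (c : Fin n → ℕ) (X : Tab r c) : 1 / 2 ≤ K r c X X := by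
  unfold K
  rw [if_pos rfl]
  have : 0 ≤ (1 / 2) *
    ((univ.filter fun q : (Fin m × Fin m) × (Fin n × Fin n) => sw q X = X).card : ℝ)
      / ((m : ℝ) ^ 2 * (n : ℝ) ^ 2) := by positivity
  linarith

/-- sums against the switch part -/
theorem K_sum (r : Fin m → ℕ) (c : Fin n → ℕ) (X : Tab r c) (g : Tab r c → ℝ) :
    ∑ Y, K r c X Y * g Y = g X / 2 + (∑ q, g (sw q X)) / (2 * ((m : ℝ) ^ 2 * (n : ℝ) ^ 2)) := by
  have h1 : ∀ Y, K r c X Y * g Y = (if X = Y then g Y / 2 else 0)
      + (∑ q : (Fin m × Fin m) × (Fin n × Fin n), if sw q X = Y then g Y else 0)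
        / (2 * ((m : ℝ) ^ 2 * (n : ℝ) ^ 2)) := by
    intro Y
    unfold K
    rw [← Finset.sum_filter, Finset.sum_const, nsmul_eq_mul]
    split_ifs <;> ring
  simp only [h1]
  rw [Finset.sum_add_distrib, ← Finset.sum_div, Finset.sum_comm]
  simp

theorem K_row (r : Fin m → ℕ) (c : Fin n → ℕ) (hm : 0 < m) (hn : 0 < n) (X : Tab r c) :
    ∑ Y, K r c X Y = 1 := by
  have h := K_sum r c X (fun _ => 1)
  simp only [mul_one, Finset.sum_const, Finset.card_univ, Fintype.card_prod, Fintype.card_fin,
    nsmul_eq_mul] at h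
  rw [h]
  have h1 : (0 : ℝ) < m := by exact_mod_cast hm
  have h2 : (0 : ℝ) < n := by exact_mod_cast hn
  push_cast
  field_simp
  norm_num

/-- Dirichlet form of the chain -/
theorem K_dirichlet (r : Fin m → ℕ) (c : Fin n → ℕ) (f : Tab r c → ℝ) :
    ∑ X, ∑ Y, K r c X Y * (f X - f Y) ^ 2 / 2
      = (∑ X : Tab r c, ∑ q, (f X - f (sw q X)) ^ 2) / (4 * ((m : ℝ) ^ 2 * (n : ℝ) ^ 2)) := by
  have h1 : ∀ X : Tab r c, ∑ Y, K r c X Y * (f X - f Y) ^ 2 / 2
      = (∑ q, (f X - f (sw q X)) ^ 2) / (4 * ((m : ℝ) ^ 2 * (n : ℝ) ^ 2)) := by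
    intro X
    rw [← Finset.sum_div, K_sum r c X (fun Y => (f X - f Y) ^ 2)]
    simp only [sub_self]
    ring
  simp only [h1]
  rw [Finset.sum_div]

/-- from a Poincare inequality for the switches to mixing -/
theorem mix_of_poincare (r : Fin m → ℕ) (c : Fin n → ℕ) (hm : 0 < m) (hn : 0 < n)
    (C : ℝ) (hC : 0 < C)
    (hgap : ∀ f : Tab r c → ℝ, ∑ X, f X = 0 →
      ∑ X, f X ^ 2 ≤ C * ∑ X : Tab r c, ∑ q, (f X - f (sw q X)) ^ 2)
    (ε : ℝ) (hε : 0 < ε) (hε1 : ε ≤ 1) (t : ℕ)
    (ht : 4 * (m : ℝ) ^ 2 * (n : ℝ) ^ 2 * C * ((m : ℝ) * n * Real.log ((∑ i, r i : ℕ) + 1)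
      + 2 * Real.log (1 / ε)) ≤ t) (X : Tab r c) :
    (1 / 2) * ∑ Y, |((K r c) ^ t) X Y - 1 / (Fintype.card (Tab r c) : ℝ)| ≤ ε := by
  have h1 : (0 : ℝ) < m := by exact_mod_cast hm
  have h2 : (0 : ℝ) < n := by exact_mod_cast hn
  have hcard : 0 < Fintype.card (Tab r c) := Fintype.card_pos_iff.2 ⟨X⟩
  refine mixing_eps (K r c) (K_symm r c) (K_row r c hm hn) (K_nonneg r c) (K_lazy r c)
    (4 * (m : ℝ) ^ 2 * (n : ℝ) ^ 2 * C) (by positivity) ?_ ε hε t ?_ X
  · intro f hf
    rw [K_dirichlet]
    refine (hgap f hf).trans (le_of_eq ?_)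
    field_simp
  · refine le_trans ?_ ht
    refine mul_le_mul_of_nonneg_left ?_ (by positivity)
    have h3 : Real.log (Fintype.card (Tab r c)) ≤ (m : ℝ) * n * Real.log ((∑ i, r i : ℕ) + 1) := by
      have h4 : (Fintype.card (Tab r c) : ℝ) ≤ (((∑ i, r i : ℕ) : ℝ) + 1) ^ (m * n) := by
        exact_mod_cast card_Tab r c
      calc Real.log (Fintype.card (Tab r c)) ≤ Real.log ((((∑ i, r i : ℕ) : ℝ) + 1) ^ (m * n)) :=
            Real.log_le_log (by exact_mod_cast hcard) h4
        _ = (m : ℝ) * n * Real.log ((∑ i, r i : ℕ) + 1) := by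
            rw [Real.log_pow]
            push_cast
            ring
    have h5 : 0 ≤ Real.log (1 / ε) := Real.log_nonneg (by rw [le_div_iff₀ hε]; linarith)
    linarith

end Vale.Agent.P328
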