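import Vale.Agent.Lib.P328.M9C
import Vale.Agent.Lib.P328.Std

/-!
P328, module M9: the Poincaré inequality of the switch chain in the form used for mixing.
-/

namespace Vale.Agent.P328

open Finset

variable {m n : ℕ}

/-- extension by zero of a function on tables -/
noncomputable def M9_ext {r : Fin m → ℕ} {c : Fin n → ℕ} (f : Tab r c → ℝ)
    (T : Fin m → Fin n → ℕ) : ℝ :=
  if h : (∀ i, ∑ a, T i a = r i) ∧ ∀ a, ∑ i, T i a = c a then f ⟨T, h⟩ else 0

theorem M9_ext_val {r : Fin m → ℕ} {c : Fin n → ℕ} (f : Tab r c → ℝ) (X : Tab r c) :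
    M9_ext f X.1 = f X := by
  unfold M9_ext
  rw [dif_pos X.2]
  rfl

theorem M9_sum_sub {r : Fin m → ℕ} {c : Fin n → ℕ} (F : (Fin m → Fin n → ℕ) → ℝ) :
    ∑ T ∈ TabF r c, F T = ∑ X : Tab r c, F X.1 := by
  symm
  refine Finset.sum_bij (fun X _ => X.1) ?_ ?_ ?_ ?_
  · intro X _
    exact M9_mem_Tab.2 X.2
  · intro X _ Y _ h
    exact Subtype.ext h
  · intro T hT
    exact ⟨⟨T, M9_mem_Tab.1 hT⟩, Finset.mem_univ _, rfl⟩
  · intro X _
    rfl

theorem M9_switch_eq {i k : Fin m} {a b : Fin n} {T : Fin m → Fin n → ℕ}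
    (h : swOK i k a b T) : swF i k a b T = switch ((i, k), (b, a)) T := by
  obtain ⟨hik, hab, h1, h2⟩ := h
  unfold switch
  rw [if_pos ⟨hik, Ne.symm hab, Nat.pos_of_ne_zero h1, Nat.pos_of_ne_zero h2⟩]
  funext j d
  unfold swF
  simp only [Pi.add_apply, Pi.sub_apply, E_apply]
  by_cases hj : j = i
  · subst hj
    have hjk : ¬ j = k := hik
    by_cases hd : d = a
    · subst hd
      have hdb : ¬ d = b := hab
      simp [hjk, hdb]
    · by_cases hd' : d = b
      · subst hd'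
        simp [hjk, hd]
      · simp [hjk, hd, hd']
  · by_cases hk : j = k
    · subst hk
      by_cases hd : d = a
      · subst hd
        have hdb : ¬ d = b := hab
        simp [hj, hdb]
      · by_cases hd' : d = b
        · subst hd'
          simp [hj, hd]
        · simp [hj, hd, hd']
    · simp [hj, hk]

theorem M9_EE_le {r : Fin m → ℕ} {c : Fin n → ℕ} (f : Tab r c → ℝ) :
    EEF r c (M9_ext f) ≤ ∑ X : Tab r c, ∑ q, (f X - f (sw q X)) ^ 2 := by
  unfold EEF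
  rw [M9_sum_sub]
  refine Finset.sum_le_sum fun X _ => ?_
  have h1 : ∑ q : (Fin m × Fin m) × (Fin n × Fin n), (f X - f (sw q X)) ^ 2 =
      ∑ i, ∑ k, ∑ b, ∑ a, (f X - f (sw ((i, k), (b, a)) X)) ^ 2 := by
    rw [Fintype.sum_prod_type, Fintype.sum_prod_type]
    refine Finset.sum_congr rfl fun i _ => Finset.sum_congr rfl fun k _ => ?_
    rw [Fintype.sum_prod_type]
  rw [h1]
  refine Finset.sum_le_sum fun i _ => Finset.sum_le_sum fun k _ => ?_
  rw [Finset.sum_comm]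
  refine Finset.sum_le_sum fun b _ => Finset.sum_le_sum fun a _ => ?_
  split_ifs with h
  · rw [M9_switch_eq h]
    have h2 : M9_ext f (switch ((i, k), (b, a)) X.1) = f (sw ((i, k), (b, a)) X) :=
      M9_ext_val f (sw ((i, k), (b, a)) X)
    rw [h2, M9_ext_val]
    apply le_of_eq
    ring
  · positivity

/-- M9 in the form needed for `mix_of_poincare` -/
theorem M9_gap (H : ∀ (m n : ℕ) (c : Fin n → ℕ) (R : Fin m → ℕ) (u : (Fin m → Fin n → ℕ) → ℝ),
      (∀ j, R j + 1 + ∑ i, R i ≤ ∑ a, c a) → ∑ x ∈ Om c R, u x = 0 →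
      ∑ x ∈ Om c R, u x ^ 2 ≤ 7 * n * ((∑ a, c a : ℕ) + 1 : ℝ) ^ 6 * ∑ j, DD c R u j)
    (r : Fin m → ℕ) (c : Fin n → ℕ) (f : Tab r c → ℝ) (hf : ∑ X, f X = 0) :
    ∑ X, f X ^ 2 ≤
      35 * m * (n + 1) ^ 2 * ((∑ a, c a : ℕ) + 2 : ℝ) ^ 8 *
        ∑ X : Tab r c, ∑ q, (f X - f (sw q X)) ^ 2 := by
  have h1 := M9_of H r c (M9_ext f) (by
    rw [M9_sum_sub]
    simp only [M9_ext_val]
    exact hf)
  rw [M9_sum_sub] at h1
  simp only [M9_ext_val] at h1
  exact h1.trans (mul_le_mul_of_nonneg_left (M9_EE_le f) (by positivity))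

end Vale.Agent.P328
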