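import Vale.Agent.Lib.P335.Mix

/-!
P328, module M10 (general part): a lazy symmetric chain with a Poincare inequality is `ε`-close to
the uniform law after `C (log |Ω| + 2 log (1/ε))` steps.
-/

open Finset

namespace Vale.Agent.P328

theorem mixing_eps {Ω : Type} [Fintype Ω] [DecidableEq Ω] (P : Matrix Ω Ω ℝ)
    (hsym : ∀ x y, P x y = P y x) (hrow : ∀ x, ∑ y, P x y = 1) (hnn : ∀ x y, 0 ≤ P x y)
    (hlazy : ∀ x, 1 / 2 ≤ P x x) (C : ℝ) (hC : 0 < C)
    (hgap : ∀ f : Ω → ℝ, ∑ x, f x = 0 →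
      ∑ x, f x ^ 2 ≤ C * (∑ x, ∑ y, P x y * (f x - f y) ^ 2 / 2))
    (ε : ℝ) (hε : 0 < ε)
    (t : ℕ) (ht : C * (Real.log (Fintype.card Ω) + 2 * Real.log (1 / ε)) ≤ t) (x : Ω) :
    (1 / 2) * ∑ y, |(P ^ t) x y - 1 / (Fintype.card Ω : ℝ)| ≤ ε := by
  have : Nonempty Ω := ⟨x⟩
  set N : ℝ := (Fintype.card Ω : ℝ) with hN
  have hNpos : 0 < N := by
    rw [hN]
    exact_mod_cast Fintype.card_pos
  set f : Ω → ℝ := fun y => (if y = x then 1 else 0) - 1 / N with hf
  have hfs : ∑ y, f y = 0 := by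
    simp only [hf, Finset.sum_sub_distrib, Finset.sum_ite_eq', Finset.mem_univ, if_true,
      Finset.sum_const, Finset.card_univ, nsmul_eq_mul]
    rw [← hN]
    field_simp
    ring
  have hf2 : ∑ y, f y ^ 2 ≤ 1 := by
    have e1 : ∀ y, f y ^ 2 = (if y = x then 1 - 2 / N else 0) + 1 / N ^ 2 := by
      intro y
      simp only [hf]
      split_ifs
      · ring
      · ring
    simp only [e1, Finset.sum_add_distrib, Finset.sum_ite_eq', Finset.mem_univ, if_true,
      Finset.sum_const, Finset.card_univ, nsmul_eq_mul]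
    rw [← hN]
    have e2 : N * (1 / N ^ 2) = 1 / N := by field_simp
    rw [e2]
    have : 0 < 1 / N := by positivity
    have e3 : 2 / N = 2 * (1 / N) := by ring
    rw [e3]
    linarith
  have hmain := Vale.Agent.Lib.P335.mix_pow P hsym hrow hnn hlazy C hC hgap f hfs t
  have hsymt : ∀ (s : ℕ) (y z : Ω), (P ^ s) y z = (P ^ s) z y := by
    intro s
    have h1 : P.transpose = P := by
      ext y z
      exact hsym z y
    intro y z
    have h2 : (P ^ s).transpose = P ^ s := by rw [Matrix.transpose_pow, h1]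
    exact congrFun (congrFun h2 z) y |>.symm ▸ rfl
  have hrowt : ∀ (s : ℕ) (y : Ω), ∑ z, (P ^ s) y z = 1 := by
    intro s
    induction s with
    | zero => intro y; simp [Matrix.one_apply]
    | succ s ih =>
      intro y
      rw [pow_succ']
      simp only [Matrix.mul_apply]
      rw [Finset.sum_comm]
      simp only [← Finset.mul_sum, ih, mul_one, hrow]
  have hval : ∀ y, (P ^ t).mulVec f y = (P ^ t) x y - 1 / N := by
    intro y
    simp only [Matrix.mulVec, dotProduct, hf, mul_sub, Finset.sum_sub_distrib, mul_ite, mul_one,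
      mul_zero, Finset.sum_ite_eq', Finset.mem_univ, if_true, ← Finset.sum_mul]
    rw [hrowt, one_mul, hsymt]
  have hsq : ∑ y, ((P ^ t) x y - 1 / N) ^ 2 ≤ ε ^ 2 / N := by
    have h1 := hmain.2
    simp only [hval] at h1
    refine h1.trans ?_
    have h2 : Real.exp (-(t / C)) ≤ ε ^ 2 / N := by
      have h3 : Real.log N + 2 * Real.log (1 / ε) ≤ t / C := by
        rw [le_div_iff₀ hC]
        linarith
      have h4 : Real.log N + 2 * Real.log (1 / ε) = -Real.log (ε ^ 2 / N) := by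
        rw [Real.log_div (by positivity) hNpos.ne', Real.log_pow, one_div, Real.log_inv]
        push_cast
        ring
      calc Real.exp (-(t / C)) ≤ Real.exp (Real.log (ε ^ 2 / N)) := by
            apply Real.exp_le_exp.2
            linarith
        _ = ε ^ 2 / N := Real.exp_log (by positivity)
    have h4 : 0 ≤ ∑ y, f y ^ 2 := Finset.sum_nonneg fun y _ => sq_nonneg _
    calc Real.exp (-(t / C)) * ∑ y, f y ^ 2 ≤ (ε ^ 2 / N) * 1 :=
          mul_le_mul h2 hf2 h4 (by positivity)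
      _ = ε ^ 2 / N := mul_one _
  have hcs := Finset.sum_mul_sq_le_sq_mul_sq (univ : Finset Ω) (fun _ => (1 : ℝ))
    (fun y => |(P ^ t) x y - 1 / N|)
  simp only [one_mul, one_pow, sq_abs, Finset.sum_const, Finset.card_univ, nsmul_eq_mul,
    mul_one] at hcs
  rw [← hN] at hcs
  have h5 : (∑ y, |(P ^ t) x y - 1 / N|) ^ 2 ≤ ε ^ 2 := by
    refine hcs.trans ?_
    calc N * ∑ y, ((P ^ t) x y - 1 / N) ^ 2 ≤ N * (ε ^ 2 / N) := by gcongr
      _ = ε ^ 2 := by field_simp
  have h6 : ∑ y, |(P ^ t) x y - 1 / N| ≤ ε :=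
    abs_le_of_sq_le_sq' h5 hε.le |>.2
  linarith

end Vale.Agent.P328
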