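import Vale.Agent.Lib.P328.Std

/-!
P328: pairs of tables at bounded distance are compared with the switch energy.
-/

open Finset

namespace Vale.Agent.P328

variable {m n : ℕ} {r : Fin m → ℕ} {c : Fin n → ℕ}

/-- the distance of two tables -/
def tdist (X Y : Tab r c) : ℕ := ∑ i, ∑ a, ((X.1 i a : ℤ) - (Y.1 i a : ℤ)).natAbs

theorem tdist_zero {X Y : Tab r c} (h : tdist X Y = 0) : X = Y := by
  unfold tdist at h
  rw [Finset.sum_eq_zero_iff] at h
  apply Subtype.ext
  funext i a
  have h1 := h i (Finset.mem_univ i)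
  rw [Finset.sum_eq_zero_iff] at h1
  have h2 := h1 a (Finset.mem_univ a)
  omega

/-- a switch which lowers the distance by two -/
theorem tdist_step {X Y : Tab r c} (h : X ≠ Y) : ∃ q, tdist (sw q X) Y + 2 ≤ tdist X Y := by
  obtain ⟨i, a, hia⟩ : ∃ i a, Y.1 i a < X.1 i a := by
    by_contra hc
    push Not at hc
    apply h
    apply Subtype.ext
    funext i a
    have h1 : ∑ a, X.1 i a = ∑ a, Y.1 i a := by rw [X.2.1 i, Y.2.1 i]
    exact (Finset.sum_eq_sum_iff_of_le fun a _ => hc i a).1 h1 a (Finset.mem_univ a)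
  obtain ⟨k, hka⟩ : ∃ k, X.1 k a < Y.1 k a := by
    by_contra hc
    push Not at hc
    have h1 : ∑ i, Y.1 i a = ∑ i, X.1 i a := by rw [X.2.2 a, Y.2.2 a]
    have := (Finset.sum_eq_sum_iff_of_le fun i _ => hc i).1 h1 i (Finset.mem_univ i)
    omega
  obtain ⟨b, hkb⟩ : ∃ b, Y.1 k b < X.1 k b := by
    by_contra hc
    push Not at hc
    have h1 : ∑ b, X.1 k b = ∑ b, Y.1 k b := by rw [X.2.1 k, Y.2.1 k]
    have := (Finset.sum_eq_sum_iff_of_le fun b _ => hc b).1 h1 a (Finset.mem_univ a)
    omega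
  have hik : i ≠ k := by
    rintro rfl
    omega
  have hab : a ≠ b := by
    rintro rfl
    omega
  refine ⟨((i, k), (b, a)), ?_⟩
  have hval : ∀ j x, (sw ((i, k), (b, a)) X).1 j x = X.1 j x
      + (if (j = i ∧ x = b) ∨ (j = k ∧ x = a) then 1 else 0)
      - (if (j = i ∧ x = a) ∨ (j = k ∧ x = b) then 1 else 0) := by
    intro j x
    show switch ((i, k), (b, a)) X.1 j x = _
    unfold switch
    simp only
    rw [if_pos ⟨hik, hab.symm, by omega, by omega⟩]
  have hpt : ∀ j x, (((sw ((i, k), (b, a)) X).1 j x : ℤ) - (Y.1 j x : ℤ)).natAbs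
      + ((if j = i then if x = a then 1 else 0 else 0)
        + (if j = k then if x = b then 1 else 0 else 0)
        + (if j = k then if x = a then 1 else 0 else 0))
      ≤ ((X.1 j x : ℤ) - (Y.1 j x : ℤ)).natAbs + (if j = i then if x = b then 1 else 0 else 0) := by
    intro j x
    rw [hval]
    by_cases c1 : j = i
    · subst c1
      simp only [true_and, hik, false_and, or_false, if_true, if_false]
      by_cases d1 : x = a
      · subst d1
        simp only [hab, if_true, if_false]
        omega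
      · by_cases d2 : x = b
        · subst d2
          simp only [d1, if_true, if_false]
          omega
        · simp only [d1, d2, if_false]
          omega
    · by_cases c2 : j = k
      · subst c2
        simp only [c1, false_and, false_or, true_and, if_true, if_false]
        by_cases d1 : x = a
        · subst d1
          simp only [hab, if_true, if_false]
          omega
        · by_cases d2 : x = b
          · subst d2
            simp only [d1, if_true, if_false]
            omega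
          · simp only [d1, d2, if_false]
            omega
      · simp only [c1, c2, false_and, or_self, if_false]
        omega
  have hs := Finset.sum_le_sum fun j (_ : j ∈ (univ : Finset (Fin m))) =>
    Finset.sum_le_sum fun x (_ : x ∈ (univ : Finset (Fin n))) => hpt j x
  simp only [Finset.sum_add_distrib] at hs
  have e1 : ∀ (j₀ : Fin m) (x₀ : Fin n),
      ∑ j : Fin m, ∑ x : Fin n, (if j = j₀ then if x = x₀ then 1 else 0 else 0) = 1 := by
    intro j₀ x₀
    rw [Finset.sum_eq_single j₀]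
    · simp
    · intro j _ hj
      simp [hj]
    · intro hj
      exact absurd (Finset.mem_univ _) hj
  rw [e1, e1, e1, e1] at hs
  unfold tdist
  omega

/-- the switch energy -/
noncomputable def EN (f : Tab r c → ℝ) : ℝ := ∑ X : Tab r c, ∑ q, (f X - f (sw q X)) ^ 2

theorem EN_nonneg (f : Tab r c → ℝ) : 0 ≤ EN f :=
  Finset.sum_nonneg fun _ _ => Finset.sum_nonneg fun _ _ => sq_nonneg _

/-- a sum over a family with multiplicity at most `B` -/
theorem sum_mult {α : Type*} (S : Finset α) (p : α → Tab r c) (B : ℕ)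
    (hB : ∀ X, (S.filter (fun s => p s = X)).card ≤ B) (g : Tab r c → ℝ) (hg : ∀ X, 0 ≤ g X) :
    ∑ s ∈ S, g (p s) ≤ B * ∑ X, g X := by
  have h1 : ∑ s ∈ S, g (p s) = ∑ X : Tab r c, ∑ s ∈ S.filter (fun s => p s = X), g (p s) := by
    rw [Finset.sum_fiberwise]
  rw [h1, Finset.mul_sum]
  refine Finset.sum_le_sum fun X _ => ?_
  have h2 : ∑ s ∈ S.filter (fun s => p s = X), g (p s)
      = ∑ s ∈ S.filter (fun s => p s = X), g X := by
    refine Finset.sum_congr rfl fun s hs => ?_
    rw [(Finset.mem_filter.1 hs).2]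
  rw [h2, Finset.sum_const, nsmul_eq_mul]
  exact mul_le_mul_of_nonneg_right (by exact_mod_cast hB X) (hg X)

/-- comparison along paths -/
theorem path_aux {α : Type*} (S : Finset α) (p' : α → Tab r c) (f : Tab r c → ℝ) (k : ℕ) :
    ∀ (p : α → Tab r c) (B : ℕ), (∀ X, (S.filter (fun s => p s = X)).card ≤ B) →
      (∀ s ∈ S, tdist (p s) (p' s) ≤ 2 * k) →
      ∑ s ∈ S, (f (p s) - f (p' s)) ^ 2
        ≤ B * (2 * ((m : ℝ) ^ 2 * (n : ℝ) ^ 2) + 4) ^ k * EN f := by
  classical
  induction k with
  | zero =>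
    intro p B hB hd
    have h0 : ∑ s ∈ S, (f (p s) - f (p' s)) ^ 2 = 0 := by
      refine Finset.sum_eq_zero fun s hs => ?_
      rw [tdist_zero (Nat.le_zero.1 (hd s hs))]
      ring
    rw [h0]
    have := EN_nonneg f
    positivity
  | succ k ih =>
    intro p B hB hd
    have hch : ∀ s, ∃ Z : Tab r c, (s ∈ S → tdist Z (p' s) ≤ 2 * k) ∧
        (Z = p s ∨ ∃ q, sw q (p s) = Z) := by
      intro s
      by_cases hs : s ∈ S
      · by_cases h : p s = p' s
        · refine ⟨p s, fun _ => ?_, Or.inl rfl⟩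
          rw [← h]
          simp [tdist]
        · obtain ⟨q, hq⟩ := tdist_step h
          refine ⟨sw q (p s), fun _ => ?_, Or.inr ⟨q, rfl⟩⟩
          have := hd s hs
          omega
      · exact ⟨p s, fun h => absurd h hs, Or.inl rfl⟩
    choose p1 hp1 hp2 using hch
    have hen : ∀ s, (f (p s) - f (p1 s)) ^ 2
        ≤ ∑ q : (Fin m × Fin m) × (Fin n × Fin n), (f (p s) - f (sw q (p s))) ^ 2 := by
      intro s
      rcases hp2 s with h | ⟨q, hq⟩
      · rw [h, sub_self]
        have : (0 : ℝ) ≤ ∑ q : (Fin m × Fin m) × (Fin n × Fin n), (f (p s) - f (sw q (p s))) ^ 2 :=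
          Finset.sum_nonneg fun _ _ => sq_nonneg _
        simpa using this
      · rw [← hq]
        exact Finset.single_le_sum (f := fun q => (f (p s) - f (sw q (p s))) ^ 2)
          (fun _ _ => sq_nonneg _) (Finset.mem_univ q)
    have h1 : ∑ s ∈ S, (f (p s) - f (p1 s)) ^ 2 ≤ B * EN f := by
      refine (Finset.sum_le_sum fun s _ => hen s).trans ?_
      exact sum_mult S p B hB (fun X => ∑ q, (f X - f (sw q X)) ^ 2)
        fun X => Finset.sum_nonneg fun _ _ => sq_nonneg _
    have hB1 : ∀ X, (S.filter (fun s => p1 s = X)).card ≤ (m ^ 2 * n ^ 2 + 1) * B := by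
      intro X
      have hsub : S.filter (fun s => p1 s = X) ⊆
          (insert X (univ.image fun q => sw q X)).biUnion fun Z => S.filter (fun s => p s = Z) := by
        intro s hs
        rw [Finset.mem_filter] at hs
        rw [Finset.mem_biUnion]
        refine ⟨p s, ?_, Finset.mem_filter.2 ⟨hs.1, rfl⟩⟩
        rw [Finset.mem_insert]
        by_cases hX : p s = X
        · exact Or.inl hX
        · right
          rcases hp2 s with h | ⟨q, hq⟩
          · exact absurd (h.symm.trans hs.2) hX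
          · refine Finset.mem_image.2 ⟨qrev q, Finset.mem_univ _, ?_⟩
            have h3 : sw q (p s) = X := hq.trans hs.2
            rw [← h3]
            refine sw_rev q (p s) ?_
            rw [h3]
            exact fun h => hX h.symm
      refine (Finset.card_le_card hsub).trans (Finset.card_biUnion_le.trans ?_)
      refine (Finset.sum_le_sum fun Z _ => hB Z).trans ?_
      rw [Finset.sum_const, smul_eq_mul]
      refine Nat.mul_le_mul_right _ ?_
      refine (Finset.card_insert_le _ _).trans ?_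
      refine Nat.succ_le_succ (Finset.card_image_le.trans ?_)
      rw [Finset.card_univ, Fintype.card_prod, Fintype.card_prod, Fintype.card_prod,
        Fintype.card_fin, Fintype.card_fin]
      exact le_of_eq (by ring)
    have h2 := ih p1 ((m ^ 2 * n ^ 2 + 1) * B) hB1 fun s hs => hp1 s hs
    have h3 : ∑ s ∈ S, (f (p s) - f (p' s)) ^ 2
        ≤ 2 * ∑ s ∈ S, (f (p s) - f (p1 s)) ^ 2 + 2 * ∑ s ∈ S, (f (p1 s) - f (p' s)) ^ 2 := by
      rw [Finset.mul_sum, Finset.mul_sum, ← Finset.sum_add_distrib]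
      refine Finset.sum_le_sum fun s _ => ?_
      nlinarith [sq_nonneg ((f (p s) - f (p1 s)) - (f (p1 s) - f (p' s)))]
    refine h3.trans ?_
    push_cast at h2
    have hE := EN_nonneg f
    have hA : (1 : ℝ) ≤ (2 * ((m : ℝ) ^ 2 * (n : ℝ) ^ 2) + 4) ^ k := by
      apply one_le_pow₀
      have : (0 : ℝ) ≤ (m : ℝ) ^ 2 * (n : ℝ) ^ 2 := by positivity
      linarith
    have hBE : 0 ≤ (B : ℝ) * EN f := by positivity
    have h4 : (B : ℝ) * EN f ≤ (2 * ((m : ℝ) ^ 2 * (n : ℝ) ^ 2) + 4) ^ k * (B * EN f) :=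
      le_mul_of_one_le_left hBE hA
    calc 2 * ∑ s ∈ S, (f (p s) - f (p1 s)) ^ 2 + 2 * ∑ s ∈ S, (f (p1 s) - f (p' s)) ^ 2
        ≤ 2 * (B * EN f) + 2 * (((m : ℝ) ^ 2 * (n : ℝ) ^ 2 + 1) * B
          * (2 * ((m : ℝ) ^ 2 * (n : ℝ) ^ 2) + 4) ^ k * EN f) := by linarith
      _ ≤ B * (2 * ((m : ℝ) ^ 2 * (n : ℝ) ^ 2) + 4) ^ (k + 1) * EN f := by
          have e : (B : ℝ) * (2 * ((m : ℝ) ^ 2 * (n : ℝ) ^ 2) + 4) ^ (k + 1) * EN f
              = (2 * ((m : ℝ) ^ 2 * (n : ℝ) ^ 2) + 4)
                * ((2 * ((m : ℝ) ^ 2 * (n : ℝ) ^ 2) + 4) ^ k * (B * EN f)) := by ring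
          rw [e]
          linarith

/-- comparison with the switch energy: pairs of tables at distance at most 8 -/
theorem path_energy {α : Type*} (S : Finset α) (p p' : α → Tab r c) (B : ℕ)
    (hB : ∀ X, (S.filter (fun s => p s = X)).card ≤ B)
    (hd : ∀ s ∈ S, tdist (p s) (p' s) ≤ 8) (f : Tab r c → ℝ) :
    ∑ s ∈ S, (f (p s) - f (p' s)) ^ 2
      ≤ B * (2 * ((m : ℝ) ^ 2 * (n : ℝ) ^ 2) + 4) ^ 4
        * ∑ X : Tab r c, ∑ q, (f X - f (sw q X)) ^ 2 :=
  path_aux S p' f 4 p B hB fun s hs => hd s hs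

end Vale.Agent.P328
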