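import Vale.Agent.Lib.P328.HBDefs

/-!
P328: the northwest corner table is a table, and the law of one resampling.
-/

open Finset

namespace Vale.Agent.P328

variable {m n : ℕ}

/-! ### northwest corner -/

theorem nw_psum (c : Fin n → ℕ) (a : Fin n) :
    ∑ x ∈ univ.filter (fun x : Fin n => x ≤ a), c x
      = ∑ x ∈ univ.filter (fun x : Fin n => x.val < a.val + 1), c x := by
  refine Finset.sum_congr (Finset.filter_congr fun x _ => ?_) fun _ _ => rfl
  rw [Nat.lt_succ_iff]
  exact Iff.rfl

theorem nw_mono (c : Fin n → ℕ) {s t : ℕ} (h : s ≤ t) :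
    ∑ x ∈ univ.filter (fun x : Fin n => x.val < s), c x
      ≤ ∑ x ∈ univ.filter (fun x : Fin n => x.val < t), c x := by
  refine Finset.sum_le_sum_of_subset fun x hx => ?_
  rw [Finset.mem_filter] at hx ⊢
  exact ⟨hx.1, lt_of_lt_of_le hx.2 h⟩

theorem nw_sum (c : Fin n → ℕ) (p q : ℕ) (hpq : p ≤ q) (hq : q ≤ ∑ a, c a) :
    ∑ a : Fin n, (min q (∑ x ∈ univ.filter (fun x : Fin n => x ≤ a), c x)
      - max p (∑ x ∈ univ.filter (fun x : Fin n => x < a), c x)) = q - p := by
  have h1 : ∀ a : Fin n, (min q (∑ x ∈ univ.filter (fun x : Fin n => x ≤ a), c x)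
      - max p (∑ x ∈ univ.filter (fun x : Fin n => x < a), c x))
      = (fun t : ℕ => max p (min q (∑ x ∈ univ.filter (fun x : Fin n => x.val < t + 1), c x))
        - max p (min q (∑ x ∈ univ.filter (fun x : Fin n => x.val < t), c x))) a.val := by
    intro a
    rw [nw_psum]
    have h2 : ∑ x ∈ univ.filter (fun x : Fin n => x < a), c x
        = ∑ x ∈ univ.filter (fun x : Fin n => x.val < a.val), c x := rfl
    rw [h2]
    have h3 := nw_mono c (Nat.le_succ a.val)
    simp only [Nat.succ_eq_add_one] at h3
    simp only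
    generalize ∑ x ∈ univ.filter (fun x : Fin n => x.val < a.val + 1), c x = u at *
    generalize ∑ x ∈ univ.filter (fun x : Fin n => x.val < a.val), c x = v at *
    omega
  rw [Finset.sum_congr rfl fun a _ => h1 a, Fin.sum_univ_eq_sum_range
    (fun t : ℕ => max p (min q (∑ x ∈ univ.filter (fun x : Fin n => x.val < t + 1), c x))
        - max p (min q (∑ x ∈ univ.filter (fun x : Fin n => x.val < t), c x))) n]
  have hmono : Monotone fun t : ℕ =>
      max p (min q (∑ x ∈ univ.filter (fun x : Fin n => x.val < t), c x)) := by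
    intro s t hst
    have h3 := nw_mono c hst
    simp only
    omega
  refine (Finset.sum_range_tsub hmono n).trans ?_
  · have e1 : ∑ x ∈ univ.filter (fun x : Fin n => x.val < n), c x = ∑ a, c a := by
      refine Finset.sum_congr ?_ fun _ _ => rfl
      exact Finset.filter_true_of_mem fun x _ => x.2
    have e2 : ∑ x ∈ univ.filter (fun x : Fin n => x.val < 0), c x = 0 := by
      rw [Finset.filter_false_of_mem fun x _ => Nat.not_lt_zero _, Finset.sum_empty]
    rw [e1, e2]
    omega

theorem nwTab_row (r : Fin m → ℕ) (c : Fin n → ℕ) (h : ∑ i, r i = ∑ a, c a) (i : Fin m) :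
    ∑ a, nwTab r c i a = r i := by
  unfold nwTab
  have e1 : ∑ j ∈ univ.filter (fun j : Fin m => j ≤ i), r j
      = ∑ j ∈ univ.filter (fun j : Fin m => j < i), r j + r i := by
    have : univ.filter (fun j : Fin m => j ≤ i) = insert i (univ.filter (fun j : Fin m => j < i)) := by
      ext j
      simp only [Finset.mem_filter, Finset.mem_univ, true_and, Finset.mem_insert]
      exact le_iff_eq_or_lt
    rw [this, Finset.sum_insert (by simp)]
    exact Nat.add_comm _ _
  have e2 : ∑ j ∈ univ.filter (fun j : Fin m => j ≤ i), r j ≤ ∑ a, c a := by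
    rw [← h]
    exact Finset.sum_le_sum_of_subset (Finset.filter_subset _ _)
  rw [nw_sum c _ _ (by omega) e2]
  omega

theorem nwTab_comm (r : Fin m → ℕ) (c : Fin n → ℕ) (i : Fin m) (a : Fin n) :
    nwTab r c i a = nwTab c r a i := by
  unfold nwTab
  rw [min_comm, max_comm]

theorem nwTab_mem (r : Fin m → ℕ) (c : Fin n → ℕ) (h : ∑ i, r i = ∑ a, c a) :
    (∀ i, ∑ a, nwTab r c i a = r i) ∧ ∀ a, ∑ i, nwTab r c i a = c a := by
  refine ⟨nwTab_row r c h, fun a => ?_⟩
  simp only [nwTab_comm r c]
  exact nwTab_row c r h.symm a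

/-! ### resampling a block -/

theorem sum_two {ι : Type*} [Fintype ι] [DecidableEq ι] (f g : ι → ℕ) {a b : ι} (hab : a ≠ b)
    (h : ∀ x, x ≠ a → x ≠ b → g x = f x) (h2 : g a + g b = f a + f b) : ∑ x, g x = ∑ x, f x := by
  have hb : b ∈ univ.erase a := Finset.mem_erase.2 ⟨hab.symm, Finset.mem_univ b⟩
  rw [← Finset.add_sum_erase univ g (Finset.mem_univ a),
    ← Finset.add_sum_erase univ f (Finset.mem_univ a),
    ← Finset.add_sum_erase _ g hb, ← Finset.add_sum_erase _ f hb]
  have h3 : ∑ x ∈ (univ.erase a).erase b, g x = ∑ x ∈ (univ.erase a).erase b, f x := by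
    refine Finset.sum_congr rfl fun x hx => ?_
    rw [Finset.mem_erase, Finset.mem_erase] at hx
    exact h x hx.2.1 hx.1
  rw [h3]
  omega

/-- the values after resampling -/
theorem resample_val {i k : Fin m} {a b : Fin n} (hik : i ≠ k) (hab : a ≠ b) (w : ℕ)
    (X : Fin m → Fin n → ℕ) :
    ∃ s, s = w % (min (X i a) (X k b) + min (X i b) (X k a) + 1) ∧
      resample i k a b w X i a = X i a - min (X i a) (X k b) + s ∧
      resample i k a b w X k b = X k b - min (X i a) (X k b) + s ∧
      resample i k a b w X i b = X i b + min (X i a) (X k b) - s ∧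
      resample i k a b w X k a = X k a + min (X i a) (X k b) - s ∧
      ∀ j x, ¬ ((j = i ∨ j = k) ∧ (x = a ∨ x = b)) → resample i k a b w X j x = X j x := by
  refine ⟨_, rfl, ?_, ?_, ?_, ?_, ?_⟩
  all_goals
    unfold resample
    rw [if_neg (by tauto)]
  · rw [if_pos (Or.inl ⟨rfl, rfl⟩)]
  · rw [if_pos (Or.inr ⟨rfl, rfl⟩)]
  · rw [if_neg (by rintro (⟨_, h⟩ | ⟨h, _⟩); exacts [hab h.symm, hik h]), if_pos (Or.inl ⟨rfl, rfl⟩)]
  · rw [if_neg (by rintro (⟨h, _⟩ | ⟨_, h⟩); exacts [hik h.symm, hab h]), if_pos (Or.inr ⟨rfl, rfl⟩)]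
  · intro j x h
    rw [if_neg (by tauto), if_neg (by tauto)]

theorem resample_mem : ∀ (r : Fin m → ℕ) (c : Fin n → ℕ) (i k : Fin m) (a b : Fin n) (w : ℕ)
    (X : Fin m → Fin n → ℕ), ((∀ i, ∑ a, X i a = r i) ∧ ∀ a, ∑ i, X i a = c a) →
    (∀ j, ∑ x, resample i k a b w X j x = r j) ∧ ∀ x, ∑ j, resample i k a b w X j x = c x := by
  intro r c i k a b w X h
  by_cases hd : i = k ∨ a = b
  · have e : resample i k a b w X = X := by
      unfold resample
      rw [if_pos hd]
    rw [e]
    exact h
  · push Not at hd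
    obtain ⟨hik, hab⟩ := hd
    obtain ⟨s, hs, h1, h2, h3, h4, h5⟩ := resample_val hik hab w X
    have hs' : s ≤ min (X i a) (X k b) + min (X i b) (X k a) := by
      rw [hs]
      exact Nat.lt_succ_iff.1 (Nat.mod_lt _ (Nat.succ_pos _))
    refine ⟨fun j => ?_, fun x => ?_⟩
    · rw [← h.1 j]
      refine sum_two _ _ hab (fun x hxa hxb => h5 j x (by tauto)) ?_
      by_cases hji : j = i
      · subst hji
        omega
      · by_cases hjk : j = k
        · subst hjk
          omega
        · rw [h5 j a (by tauto), h5 j b (by tauto)]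
    · rw [← h.2 x]
      refine sum_two (fun j => X j x) (fun j => resample i k a b w X j x) hik
        (fun j hji hjk => h5 j x (by tauto)) ?_
      by_cases hxa : x = a
      · subst hxa
        omega
      · by_cases hxb : x = b
        · subst hxb
          omega
        · rw [h5 i x (by tauto), h5 k x (by tauto)]

/-- a table which agrees with `X` outside the block is a shift of `X` -/
theorem agreeOff_val {r : Fin m → ℕ} {c : Fin n → ℕ} {i k : Fin m} {a b : Fin n} (hik : i ≠ k)
    (hab : a ≠ b) {X Y : Tab r c} (h : agreeOff i k a b X Y) :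
    Y.1 i a + Y.1 i b = X.1 i a + X.1 i b ∧ Y.1 i a + Y.1 k a = X.1 i a + X.1 k a ∧
      Y.1 k a + Y.1 k b = X.1 k a + X.1 k b := by
  have key : ∀ {ι : Type} [Fintype ι] [DecidableEq ι] (f g : ι → ℕ) {a b : ι} (_ : a ≠ b)
      (_ : ∀ x, x ≠ a → x ≠ b → g x = f x) (_ : ∑ x, g x = ∑ x, f x), g a + g b = f a + f b := by
    intro ι _ _ f g a b hab h hs
    have hb : b ∈ univ.erase a := Finset.mem_erase.2 ⟨hab.symm, Finset.mem_univ b⟩
    rw [← Finset.add_sum_erase univ g (Finset.mem_univ a),
      ← Finset.add_sum_erase univ f (Finset.mem_univ a),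
      ← Finset.add_sum_erase _ g hb, ← Finset.add_sum_erase _ f hb] at hs
    have h3 : ∑ x ∈ (univ.erase a).erase b, g x = ∑ x ∈ (univ.erase a).erase b, f x := by
      refine Finset.sum_congr rfl fun x hx => ?_
      rw [Finset.mem_erase, Finset.mem_erase] at hx
      exact h x hx.2.1 hx.1
    rw [h3] at hs
    omega
  refine ⟨?_, ?_, ?_⟩
  · refine key (X.1 i) (Y.1 i) hab (fun x hxa hxb => (h i x (by tauto)).symm) ?_
    rw [X.2.1 i, Y.2.1 i]
  · refine key (fun j => X.1 j a) (fun j => Y.1 j a) hik
      (fun j hji hjk => (h j a (by tauto)).symm) ?_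
    rw [X.2.2 a, Y.2.2 a]
  · refine key (X.1 k) (Y.1 k) hab (fun x hxa hxb => (h k x (by tauto)).symm) ?_
    rw [X.2.1 k, Y.2.1 k]

theorem agreeOff_degenerate {r : Fin m → ℕ} {c : Fin n → ℕ} {i k : Fin m} {a b : Fin n}
    (hd : i = k ∨ a = b) {X Y : Tab r c} : agreeOff i k a b X Y ↔ X = Y := by
  constructor
  · intro h
    have key : ∀ {ι : Type} [Fintype ι] [DecidableEq ι] (f g : ι → ℕ) (a : ι)
        (_ : ∀ x, x ≠ a → f x = g x) (_ : ∑ x, f x = ∑ x, g x), f a = g a := by
      intro ι _ _ f g a h hs
      rw [← Finset.add_sum_erase univ g (Finset.mem_univ a),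
        ← Finset.add_sum_erase univ f (Finset.mem_univ a)] at hs
      have h3 : ∑ x ∈ univ.erase a, f x = ∑ x ∈ univ.erase a, g x := by
        refine Finset.sum_congr rfl fun x hx => ?_
        rw [Finset.mem_erase] at hx
        exact h x hx.1
      rw [h3] at hs
      omega
    apply Subtype.ext
    funext j x
    rcases hd with rfl | rfl
    · by_cases hj : j = i
      · subst hj
        refine key (fun j => X.1 j x) (fun j => Y.1 j x) j (fun l hl => h l x (by tauto)) ?_
        rw [X.2.2 x, Y.2.2 x]
      · exact h j x (by tauto)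
    · by_cases hx : x = a
      · subst hx
        refine key (X.1 j) (Y.1 j) x (fun l hl => h j l (by tauto)) ?_
        rw [X.2.1 j, Y.2.1 j]
      · exact h j x (by tauto)
  · rintro rfl
    exact fun _ _ _ => rfl

open Classical in
theorem resample_law : ∀ (r : Fin m → ℕ) (c : Fin n → ℕ) (X Y : Tab r c) (i k : Fin m)
    (a b : Fin n),
    (∑ s ∈ range (min (X.1 i a) (X.1 k b) + min (X.1 i b) (X.1 k a) + 1),
      if resample i k a b s X.1 = Y.1 then (1 : ℝ) else 0) /
      ((min (X.1 i a) (X.1 k b) + min (X.1 i b) (X.1 k a) + 1 : ℕ) : ℝ) =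
    if agreeOff i k a b X Y then
      1 / ((univ.filter fun Z : Tab r c => agreeOff i k a b X Z).card : ℝ) else 0 := by
  intro r c X Y i k a b
  set L := min (X.1 i a) (X.1 k b) + min (X.1 i b) (X.1 k a) + 1 with hL
  have hLpos : (0 : ℝ) < (L : ℝ) := by
    rw [hL]
    exact_mod_cast Nat.succ_pos _
  by_cases hd : i = k ∨ a = b
  · have e : ∀ s, resample i k a b s X.1 = X.1 := by
      intro s
      unfold resample
      rw [if_pos hd]
    have e2 : (univ.filter fun Z : Tab r c => agreeOff i k a b X Z) = {X} := by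
      ext Z
      simp only [Finset.mem_filter, Finset.mem_univ, true_and, agreeOff_degenerate hd,
        Finset.mem_singleton]
      exact eq_comm
    rw [e2]
    simp only [e, agreeOff_degenerate hd]
    by_cases hXY : X = Y
    · subst hXY
      simp only [if_true, Finset.sum_const, Finset.card_range, nsmul_eq_mul, mul_one,
        Finset.card_singleton, Nat.cast_one, div_one]
      exact div_self hLpos.ne'
    · have hXY' : ¬ X.1 = Y.1 := fun h => hXY (Subtype.ext h)
      simp [hXY, hXY']
  · push Not at hd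
    obtain ⟨hik, hab⟩ := hd
    -- the resampled tables
    have hval : ∀ s ∈ range L, ∀ Z : Tab r c, (resample i k a b s X.1 = Z.1 ↔
        agreeOff i k a b X Z ∧ Z.1 i a = X.1 i a - min (X.1 i a) (X.1 k b) + s) := by
      intro s hs Z
      rw [Finset.mem_range] at hs
      obtain ⟨s', hs', h1, h2, h3, h4, h5⟩ := resample_val hik hab s X.1
      rw [Nat.mod_eq_of_lt (by omega)] at hs'
      subst hs'
      constructor
      · intro h
        refine ⟨fun j x hjx => ?_, ?_⟩
        · rw [← h]
          exact (h5 j x hjx).symm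
        · rw [← h]
          exact h1
      · rintro ⟨h, hz⟩
        obtain ⟨g1, g2, g3⟩ := agreeOff_val hik hab h
        funext j x
        by_cases hjx : (j = i ∨ j = k) ∧ (x = a ∨ x = b)
        · rcases hjx with ⟨rfl | rfl, rfl | rfl⟩
          · rw [h1, hz]
          · rw [h3]; omega
          · rw [h4]; omega
          · rw [h2]; omega
        · rw [h5 j x hjx]
          exact h j x hjx
    have hcard : (univ.filter fun Z : Tab r c => agreeOff i k a b X Z).card = L := by
      have h0 : ∀ s, ∃ Z : Tab r c, Z.1 = resample i k a b s X.1 :=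
        fun s => ⟨⟨_, resample_mem r c i k a b s X.1 X.2⟩, rfl⟩
      choose Z hZ using h0
      have : (univ.filter fun Z : Tab r c => agreeOff i k a b X Z) = (range L).image Z := by
        ext Y
        rw [Finset.mem_filter, Finset.mem_image]
        constructor
        · rintro ⟨_, h⟩
          obtain ⟨g1, g2, g3⟩ := agreeOff_val hik hab h
          refine ⟨Y.1 i a - (X.1 i a - min (X.1 i a) (X.1 k b)), ?_, ?_⟩
          · rw [Finset.mem_range]
            omega
          · apply Subtype.ext
            rw [hZ]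
            refine (hval _ ?_ Y).2 ⟨h, ?_⟩
            · rw [Finset.mem_range]
              omega
            · omega
        · rintro ⟨s, hs, rfl⟩
          exact ⟨Finset.mem_univ _, ((hval s hs (Z s)).1 (hZ s).symm).1⟩
      rw [this, Finset.card_image_of_injOn, Finset.card_range]
      intro s hs t ht hst
      have h1 := ((hval s (by simpa using hs) (Z s)).1 (hZ s).symm).2
      have h2 := ((hval t (by simpa using ht) (Z t)).1 (hZ t).symm).2
      rw [hst] at h1
      omega
    rw [hcard]
    by_cases h : agreeOff i k a b X Y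
    · rw [if_pos h]
      congr 1
      obtain ⟨g1, g2, g3⟩ := agreeOff_val hik hab h
      rw [Finset.sum_eq_single (Y.1 i a - (X.1 i a - min (X.1 i a) (X.1 k b)))]
      · rw [if_pos]
        refine (hval _ ?_ Y).2 ⟨h, ?_⟩
        · rw [Finset.mem_range]
          omega
        · omega
      · intro s hs hne
        rw [if_neg]
        intro h2
        have := ((hval s hs Y).1 h2).2
        omega
      · intro hn
        exfalso
        apply hn
        rw [Finset.mem_range]
        omega
    · rw [if_neg h]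
      rw [Finset.sum_eq_zero, zero_div]
      intro s hs
      rw [if_neg]
      intro h2
      exact h ((hval s hs Y).1 h2).1

end Vale.Agent.P328
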