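import Vale.Agent.Lib.P328.HBDefs

/-!
P328, sampler, general part: the bias of `w % l` for a uniform word `w`, hybrid argument for one
step, and accumulation of the errors over many steps.
-/

namespace Vale.Agent.P328

open Finset

/-- number of words with a given residue -/
theorem Samp_card_mod (M l : ℕ) (hl : 0 < l) (s : Fin l) :
    ((univ.filter fun w : Fin M => (⟨(w : ℕ) % l, Nat.mod_lt _ hl⟩ : Fin l) = s).card) =
      M / l + if (s : ℕ) < M % l then 1 else 0 := by
  have h1 : (univ.filter fun w : Fin M => (⟨(w : ℕ) % l, Nat.mod_lt _ hl⟩ : Fin l) = s).card =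
      Nat.count (fun w => w ≡ s [MOD l]) M := by
    rw [Nat.count_eq_card_filter_range]
    refine Finset.card_bij (fun w _ => (w : ℕ)) ?_ ?_ ?_
    · intro w hw
      simp only [mem_filter, mem_univ, true_and, mem_range] at hw ⊢
      refine ⟨w.2, ?_⟩
      have := congrArg Fin.val hw
      simp only at this
      rw [Nat.ModEq, this, Nat.mod_eq_of_lt s.2]
    · intro w _ w' _ h
      exact Fin.ext h
    · intro v hv
      simp only [mem_filter, mem_range] at hv
      refine ⟨⟨v, hv.1⟩, ?_, rfl⟩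
      simp only [mem_filter, mem_univ, true_and]
      apply Fin.ext
      simp only
      have := hv.2
      rw [Nat.ModEq, Nat.mod_eq_of_lt s.2] at this
      exact this
  rw [h1, Nat.count_modEq_card _ hl, Nat.mod_eq_of_lt s.2]

theorem Samp_mod_bias (M l : ℕ) (hM : 0 < M) (hl : 0 < l) (s : Fin l) :
    |((univ.filter fun w : Fin M => (⟨(w : ℕ) % l, Nat.mod_lt _ hl⟩ : Fin l) = s).card : ℝ) / M -
      1 / l| ≤ 1 / M := by
  rw [Samp_card_mod M l hl]
  have hM' : (0 : ℝ) < M := by exact_mod_cast hM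
  have hl' : (0 : ℝ) < l := by exact_mod_cast hl
  have h1 : ((l : ℝ) * (M / l : ℕ)) + (M % l : ℕ) = M := by
    exact_mod_cast Nat.div_add_mod M l
  have h2 : ((M % l : ℕ) : ℝ) < l := by exact_mod_cast Nat.mod_lt M hl
  have h3 : (0 : ℝ) ≤ ((M % l : ℕ) : ℝ) := by positivity
  set q : ℝ := ((M / l : ℕ) : ℝ)
  set t : ℝ := ((M % l : ℕ) : ℝ)
  have e : ((M / l + (if (s : ℕ) < M % l then 1 else 0) : ℕ) : ℝ) =
      q + (if (s : ℕ) < M % l then 1 else 0) := by
    push_cast
    rfl
  rw [e]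
  have e2 : (q + (if (s : ℕ) < M % l then (1 : ℝ) else 0)) / M - 1 / l =
      (((if (s : ℕ) < M % l then (1 : ℝ) else 0) * l - t) / l) / M := by
    field_simp
    linarith
  rw [e2, abs_div, abs_of_pos hM']
  refine div_le_div_of_nonneg_right ?_ hM'.le
  rw [abs_div, abs_of_pos hl', div_le_one hl', abs_le]
  split_ifs
  · constructor <;> linarith
  · constructor <;> linarith

variable {Ω : Type} [Fintype Ω]

/-- replacing a residue of a uniform word by a uniform residue, for vector valued functions -/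
theorem Samp_avg_mod (M l : ℕ) (hM : 0 < M) (hl : 0 < l) (g : Fin l → Ω → ℝ)
    (hg : ∀ s, ∑ y, |g s y| ≤ 1) :
    ∑ y, |(∑ w : Fin M, g ⟨(w : ℕ) % l, Nat.mod_lt _ hl⟩ y) / M - (∑ s : Fin l, g s y) / l| ≤
      (l : ℝ) / M := by
  have h1 : ∀ y, ∑ w : Fin M, g ⟨(w : ℕ) % l, Nat.mod_lt _ hl⟩ y = ∑ s : Fin l,
      ((univ.filter fun w : Fin M => (⟨(w : ℕ) % l, Nat.mod_lt _ hl⟩ : Fin l) = s).card : ℝ) *
        g s y := by
    intro y
    rw [← Finset.sum_fiberwise (univ : Finset (Fin M))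
      (fun w => (⟨(w : ℕ) % l, Nat.mod_lt _ hl⟩ : Fin l))]
    refine sum_congr rfl fun s _ => ?_
    rw [← nsmul_eq_mul, ← sum_const]
    refine sum_congr rfl fun w hw => ?_
    rw [(mem_filter.1 hw).2]
  have h2 : ∀ y, |(∑ w : Fin M, g ⟨(w : ℕ) % l, Nat.mod_lt _ hl⟩ y) / M -
      (∑ s : Fin l, g s y) / l| ≤ ∑ s : Fin l, (1 / (M : ℝ)) * |g s y| := by
    intro y
    rw [h1, sum_div, sum_div, ← sum_sub_distrib]
    refine (abs_sum_le_sum_abs _ _).trans (sum_le_sum fun s _ => ?_)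
    have e : (((univ.filter fun w : Fin M =>
        (⟨(w : ℕ) % l, Nat.mod_lt _ hl⟩ : Fin l) = s).card : ℝ) * g s y) / M - g s y / l =
        (((univ.filter fun w : Fin M =>
          (⟨(w : ℕ) % l, Nat.mod_lt _ hl⟩ : Fin l) = s).card : ℝ) / M - 1 / l) * g s y := by
      ring
    rw [e, abs_mul]
    exact mul_le_mul_of_nonneg_right (Samp_mod_bias M l hM hl s) (abs_nonneg _)
  calc ∑ y, |(∑ w : Fin M, g ⟨(w : ℕ) % l, Nat.mod_lt _ hl⟩ y) / M - (∑ s : Fin l, g s y) / l|
      ≤ ∑ y, ∑ s : Fin l, (1 / (M : ℝ)) * |g s y| := sum_le_sum fun y _ => h2 y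
    _ = ∑ s : Fin l, (1 / (M : ℝ)) * ∑ y, |g s y| := by
        rw [sum_comm]
        exact sum_congr rfl fun s _ => by rw [mul_sum]
    _ ≤ ∑ s : Fin l, (1 / (M : ℝ)) * 1 := by
        refine sum_le_sum fun s _ => mul_le_mul_of_nonneg_left (hg s) (by positivity)
    _ = (l : ℝ) / M := by
        rw [sum_const, card_univ, Fintype.card_fin, nsmul_eq_mul]
        ring

/-- one level of the hybrid argument -/
theorem Samp_hyb (M l : ℕ) (hM : 0 < M) (hl : 0 < l) (G H : Fin l → Ω → ℝ) (δ : ℝ)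
    (hH : ∀ s, ∑ y, |H s y| ≤ 1) (hd : ∀ s, ∑ y, |G s y - H s y| ≤ δ) :
    ∑ y, |(∑ w : Fin M, G ⟨(w : ℕ) % l, Nat.mod_lt _ hl⟩ y) / M - (∑ s : Fin l, H s y) / l| ≤
      (l : ℝ) / M + δ := by
  have hM' : (0 : ℝ) < M := by exact_mod_cast hM
  have h1 : ∀ y, |(∑ w : Fin M, G ⟨(w : ℕ) % l, Nat.mod_lt _ hl⟩ y) / M -
      (∑ s : Fin l, H s y) / l| ≤
      |(∑ w : Fin M, H ⟨(w : ℕ) % l, Nat.mod_lt _ hl⟩ y) / M - (∑ s : Fin l, H s y) / l| +
      (∑ w : Fin M, |G ⟨(w : ℕ) % l, Nat.mod_lt _ hl⟩ y - H ⟨(w : ℕ) % l, Nat.mod_lt _ hl⟩ y|) / M := by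
    intro y
    have e : (∑ w : Fin M, G ⟨(w : ℕ) % l, Nat.mod_lt _ hl⟩ y) / M - (∑ s : Fin l, H s y) / l =
        ((∑ w : Fin M, H ⟨(w : ℕ) % l, Nat.mod_lt _ hl⟩ y) / M - (∑ s : Fin l, H s y) / l) +
        (∑ w : Fin M, (G ⟨(w : ℕ) % l, Nat.mod_lt _ hl⟩ y -
          H ⟨(w : ℕ) % l, Nat.mod_lt _ hl⟩ y)) / M := by
      rw [sum_sub_distrib]
      ring
    rw [e]
    refine (abs_add_le _ _).trans (add_le_add le_rfl ?_)
    rw [abs_div, abs_of_pos hM']
    exact div_le_div_of_nonneg_right (abs_sum_le_sum_abs _ _) hM'.le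
  refine (sum_le_sum fun y _ => h1 y).trans ?_
  rw [sum_add_distrib]
  refine add_le_add (Samp_avg_mod M l hM hl H hH) ?_
  rw [← sum_div, sum_comm, div_le_iff₀ hM']
  refine (sum_le_sum fun w _ => hd _).trans (le_of_eq ?_)
  rw [sum_const, card_univ, Fintype.card_fin, nsmul_eq_mul]
  ring

/-- an average of probability vectors is a probability vector -/
theorem Samp_avg_one (l : ℕ) (hl : 0 < l) (H : Fin l → Ω → ℝ) (hH : ∀ s, ∑ y, |H s y| ≤ 1) :
    ∑ y, |(∑ s : Fin l, H s y) / l| ≤ 1 := by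
  have hl' : (0 : ℝ) < l := by exact_mod_cast hl
  calc ∑ y, |(∑ s : Fin l, H s y) / l| ≤ ∑ y, (∑ s : Fin l, |H s y|) / l := by
        refine sum_le_sum fun y _ => ?_
        rw [abs_div, abs_of_pos hl']
        exact div_le_div_of_nonneg_right (abs_sum_le_sum_abs _ _) hl'.le
    _ ≤ 1 := by
        rw [← sum_div, sum_comm, div_le_one hl']
        refine (sum_le_sum fun s _ => hH s).trans (le_of_eq ?_)
        simp

/-- the first coordinate of a tuple -/
theorem Samp_sum_cons {W : Type} [Fintype W] (k : ℕ) (F : (Fin (k + 1) → W) → ℝ) :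
    ∑ w, F w = ∑ a : W, ∑ v : Fin k → W, F (Fin.cons a v) := by
  rw [← Fintype.sum_prod_type']
  exact (Equiv.sum_comp (Fin.consEquiv fun _ => W) F).symm

variable [DecidableEq Ω] {W : Type} [Fintype W]

/-- run of a random step -/
def Srun (st : W → Ω → Ω) (x : Ω) : List W → Ω
  | [] => x
  | w :: l => st w (Srun st x l)

/-- the law of `T` independent steps -/
noncomputable def Slaw (st : W → Ω → Ω) (x : Ω) (T : ℕ) (y : Ω) : ℝ :=
  ((univ.filter fun w : Fin T → W => Srun st x (List.ofFn w) = y).card : ℝ) /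
    (Fintype.card W : ℝ) ^ T

omit [Fintype Ω] in
theorem Slaw_nonneg (st : W → Ω → Ω) (x : Ω) (T : ℕ) (y : Ω) : 0 ≤ Slaw st x T y := by
  unfold Slaw; positivity

theorem Slaw_sum [Nonempty W] (st : W → Ω → Ω) (x : Ω) (T : ℕ) : ∑ y, Slaw st x T y = 1 := by
  unfold Slaw
  rw [← sum_div]
  have h1 : ∑ y, ((univ.filter fun w : Fin T → W => Srun st x (List.ofFn w) = y).card : ℝ) =
      (Fintype.card W : ℝ) ^ T := by
    have h2 : ∑ y, (univ.filter fun w : Fin T → W => Srun st x (List.ofFn w) = y).card =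
        (univ : Finset (Fin T → W)).card :=
      (Finset.card_eq_sum_card_fiberwise (fun w _ => mem_univ _)).symm
    rw [card_univ, Fintype.card_fun, Fintype.card_fin] at h2
    exact_mod_cast h2
  rw [h1]
  have : (0 : ℝ) < Fintype.card W := by exact_mod_cast Fintype.card_pos
  field_simp

theorem Slaw_succ (st : W → Ω → Ω) (x : Ω) (T : ℕ) (y : Ω) :
    Slaw st x (T + 1) y = ∑ z, Slaw st x T z *
      (((univ.filter fun w : W => st w z = y).card : ℝ) / (Fintype.card W : ℝ)) := by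
  have h1 : ((univ.filter fun w : Fin (T + 1) → W => Srun st x (List.ofFn w) = y).card : ℝ) =
      ∑ z, ((univ.filter fun w : Fin T → W => Srun st x (List.ofFn w) = z).card : ℝ) *
        ((univ.filter fun w : W => st w z = y).card : ℝ) := by
    have e1 : ((univ.filter fun w : Fin (T + 1) → W => Srun st x (List.ofFn w) = y).card : ℝ) =
        ∑ w : Fin (T + 1) → W, if Srun st x (List.ofFn w) = y then 1 else 0 := by
      rw [card_filter]
      push_cast
      rfl
    rw [e1, Samp_sum_cons, sum_comm]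
    have e2 : ∀ (v : Fin T → W) (a : W), Srun st x (List.ofFn (Fin.cons a v : Fin (T + 1) → W)) =
        st a (Srun st x (List.ofFn v)) := by
      intro v a
      rw [List.ofFn_succ]
      simp [Srun]
    simp only [e2]
    rw [← Finset.sum_fiberwise (univ : Finset (Fin T → W)) (fun v => Srun st x (List.ofFn v))]
    refine sum_congr rfl fun z _ => ?_
    rw [← nsmul_eq_mul, ← sum_const]
    refine sum_congr rfl fun v hv => ?_
    rw [(mem_filter.1 hv).2, card_filter]
    push_cast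
    rfl
  unfold Slaw
  rw [h1, sum_div]
  refine sum_congr rfl fun z _ => ?_
  rw [pow_succ]
  ring

/-- errors add up -/
theorem Slaw_tv [Nonempty W] (st : W → Ω → Ω) (P : Matrix Ω Ω ℝ) (hrow : ∀ x, ∑ y, P x y = 1)
    (hnn : ∀ x y, 0 ≤ P x y) (δ : ℝ)
    (hst : ∀ x, ∑ y, |((univ.filter fun w : W => st w x = y).card : ℝ) / (Fintype.card W : ℝ) -
      P x y| ≤ δ) (x : Ω) (T : ℕ) :
    ∑ y, |Slaw st x T y - (P ^ T) x y| ≤ T * δ := by
  induction T with
  | zero =>
    have : ∀ y, Slaw st x 0 y - (P ^ 0) x y = 0 := by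
      intro y
      simp only [Slaw, pow_zero, div_one, Matrix.one_apply, List.ofFn_zero, Srun]
      by_cases h : x = y
      · simp [h]
      · simp [h]
    simp only [this, abs_zero, sum_const_zero]
    simp
  | succ T ih =>
    have h1 : ∀ y, Slaw st x (T + 1) y - (P ^ (T + 1)) x y =
        ∑ z, (Slaw st x T z * (((univ.filter fun w : W => st w z = y).card : ℝ) /
          (Fintype.card W : ℝ) - P z y) + (Slaw st x T z - (P ^ T) x z) * P z y) := by
      intro y
      rw [Slaw_succ, pow_succ, Matrix.mul_apply, ← sum_sub_distrib]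
      refine sum_congr rfl fun z _ => ?_
      ring
    calc ∑ y, |Slaw st x (T + 1) y - (P ^ (T + 1)) x y|
        ≤ ∑ y, ∑ z, (Slaw st x T z * |((univ.filter fun w : W => st w z = y).card : ℝ) /
          (Fintype.card W : ℝ) - P z y| + |Slaw st x T z - (P ^ T) x z| * P z y) := by
          refine sum_le_sum fun y _ => ?_
          rw [h1]
          refine (abs_sum_le_sum_abs _ _).trans (sum_le_sum fun z _ => ?_)
          refine (abs_add_le _ _).trans ?_
          rw [abs_mul, abs_mul, abs_of_nonneg (Slaw_nonneg st x T z), abs_of_nonneg (hnn z y)]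
      _ = (∑ z, Slaw st x T z * ∑ y, |((univ.filter fun w : W => st w z = y).card : ℝ) /
          (Fintype.card W : ℝ) - P z y|) + ∑ z, |Slaw st x T z - (P ^ T) x z| := by
          rw [sum_comm]
          simp_rw [sum_add_distrib, ← mul_sum, hrow, mul_one]
      _ ≤ (∑ z, Slaw st x T z * δ) + T * δ :=
          add_le_add (sum_le_sum fun z _ =>
            mul_le_mul_of_nonneg_left (hst z) (Slaw_nonneg st x T z)) ih
      _ = ((T + 1 : ℕ) : ℝ) * δ := by
          rw [← sum_mul, Slaw_sum]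
          push_cast
          ring

end Vale.Agent.P328
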