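import Vale.Agent.Lib.P328.SampA

/-!
P328, sampler: one step of the sampler is close to the heat-bath chain.
-/

namespace Vale.Agent.P328

open Finset

variable {m n : ℕ}

/-- number of values of a block -/
def Samp_len {r : Fin m → ℕ} {c : Fin n → ℕ} (X : Tab r c) (i k : Fin m) (a b : Fin n) : ℕ :=
  min (X.1 i a) (X.1 k b) + min (X.1 i b) (X.1 k a) + 1

/-- the margins are preserved -/
def SampMem (m n : ℕ) : Prop := ∀ (r : Fin m → ℕ) (c : Fin n → ℕ) (i k : Fin m) (a b : Fin n) (w : ℕ)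
  (X : Fin m → Fin n → ℕ), ((∀ i, ∑ a, X i a = r i) ∧ ∀ a, ∑ i, X i a = c a) →
  (∀ j, ∑ x, resample i k a b w X j x = r j) ∧ ∀ x, ∑ j, resample i k a b w X j x = c x

open Classical in
/-- the law of one resampling -/
def SampLaw (m n : ℕ) : Prop := ∀ (r : Fin m → ℕ) (c : Fin n → ℕ) (X Y : Tab r c) (i k : Fin m)
  (a b : Fin n),
  (∑ s ∈ range (min (X.1 i a) (X.1 k b) + min (X.1 i b) (X.1 k a) + 1),
    if resample i k a b s X.1 = Y.1 then (1 : ℝ) else 0) /
    ((min (X.1 i a) (X.1 k b) + min (X.1 i b) (X.1 k a) + 1 : ℕ) : ℝ) =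
  if agreeOff i k a b X Y then
    1 / ((univ.filter fun Z : Tab r c => agreeOff i k a b X Z).card : ℝ) else 0

/-- resampling on tables -/
def rsT (hmem : SampMem m n) {r : Fin m → ℕ} {c : Fin n → ℕ} (i k : Fin m) (a b : Fin n) (w : ℕ)
    (X : Tab r c) : Tab r c := ⟨resample i k a b w X.1, hmem r c i k a b w X.1 X.2⟩

/-- one step of the sampler on tables -/
def stT (hmem : SampMem m n) (hm : 0 < m) (hn : 0 < n) {r : Fin m → ℕ} {c : Fin n → ℕ} (M : ℕ)
    (w : Fin 6 → Fin M) (X : Tab r c) : Tab r c :=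
  if (w 0 : ℕ) % 2 = 0 then X else
    rsT hmem ⟨w 1 % m, Nat.mod_lt _ hm⟩ ⟨w 2 % m, Nat.mod_lt _ hm⟩
      ⟨w 3 % n, Nat.mod_lt _ hn⟩ ⟨w 4 % n, Nat.mod_lt _ hn⟩ (w 5) X

theorem stT_val (hmem : SampMem m n) (hm : 0 < m) (hn : 0 < n) {r : Fin m → ℕ} {c : Fin n → ℕ}
    (M : ℕ) (w : Fin 6 → Fin M) (X : Tab r c) :
    (stT hmem hm hn M w X).1 = sampleStep hm hn (fun j => (w j : ℕ)) X.1 := by
  unfold stT sampleStep
  split_ifs
  · rfl
  · rfl

theorem rsT_mod (hmem : SampMem m n) {r : Fin m → ℕ} {c : Fin n → ℕ} (i k : Fin m) (a b : Fin n)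
    (w : ℕ) (X : Tab r c) : rsT hmem i k a b (w % Samp_len X i k a b) X = rsT hmem i k a b w X := by
  apply Subtype.ext
  unfold rsT resample Samp_len
  simp only
  split_ifs
  · rfl
  · simp only [Nat.mod_mod]

/-- indicator vector -/
noncomputable def dl {Ω : Type} [DecidableEq Ω] (x y : Ω) : ℝ := if x = y then 1 else 0

theorem dl_eq {Ω : Type} [DecidableEq Ω] {x y : Ω} (h : x = y) : dl x y = 1 := if_pos h

theorem dl_ne {Ω : Type} [DecidableEq Ω] {x y : Ω} (h : x ≠ y) : dl x y = 0 := if_neg h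

theorem rsT_iff (hmem : SampMem m n) {r : Fin m → ℕ} {c : Fin n → ℕ} (i k : Fin m) (a b : Fin n)
    (w : ℕ) (X Y : Tab r c) : rsT hmem i k a b w X = Y ↔ resample i k a b w X.1 = Y.1 :=
  ⟨fun h => congrArg Subtype.val h, fun h => Subtype.ext h⟩

theorem dl_norm {Ω : Type} [Fintype Ω] [DecidableEq Ω] (x : Ω) : ∑ y, |dl x y| ≤ 1 := by
  have : ∀ y, |dl x y| = if x = y then 1 else 0 := by
    intro y
    unfold dl
    split_ifs <;> simp
  simp only [this]
  simp

section steps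

variable (hmem : SampMem m n) (hlaw : SampLaw m n) (hm : 0 < m) (hn : 0 < n)
  {r : Fin m → ℕ} {c : Fin n → ℕ} (M : ℕ) (hM : 0 < M) (X : Tab r c)

/-- the ideal block law -/
noncomputable def I5 (i k : Fin m) (a b : Fin n) (Y : Tab r c) : ℝ :=
  (∑ s : Fin (Samp_len X i k a b), dl (rsT hmem i k a b s X) Y) / (Samp_len X i k a b : ℝ)

noncomputable def I4 (i k : Fin m) (a : Fin n) (Y : Tab r c) : ℝ :=
  (∑ b : Fin n, I5 hmem X i k a b Y) / n

noncomputable def I3 (i k : Fin m) (Y : Tab r c) : ℝ := (∑ a : Fin n, I4 hmem X i k a Y) / n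

noncomputable def I2 (i : Fin m) (Y : Tab r c) : ℝ := (∑ k : Fin m, I3 hmem X i k Y) / m

noncomputable def I1 (Y : Tab r c) : ℝ := (∑ i : Fin m, I2 hmem X i Y) / m

theorem I5_norm (i k : Fin m) (a b : Fin n) : ∑ Y, |I5 hmem X i k a b Y| ≤ 1 :=
  Samp_avg_one (Samp_len X i k a b) (Nat.succ_pos _)
    (fun s Y => dl (rsT hmem i k a b s X) Y) fun s => dl_norm _

include hn in
theorem I4_norm (i k : Fin m) (a : Fin n) : ∑ Y, |I4 hmem X i k a Y| ≤ 1 :=
  Samp_avg_one n hn (fun b Y => I5 hmem X i k a b Y) fun b => I5_norm hmem X i k a b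

include hn in
theorem I3_norm (i k : Fin m) : ∑ Y, |I3 hmem X i k Y| ≤ 1 :=
  Samp_avg_one n hn (fun a Y => I4 hmem X i k a Y) fun a => I4_norm hmem hn X i k a

include hm hn in
theorem I2_norm (i : Fin m) : ∑ Y, |I2 hmem X i Y| ≤ 1 :=
  Samp_avg_one m hm (fun k Y => I3 hmem X i k Y) fun k => I3_norm hmem hn X i k

include hm hn in
theorem I1_norm : ∑ Y, |I1 hmem X Y| ≤ 1 :=
  Samp_avg_one m hm (fun i Y => I2 hmem X i Y) fun i => I2_norm hmem hm hn X i

/-- the actual laws -/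
noncomputable def A5 (i k : Fin m) (a b : Fin n) (Y : Tab r c) : ℝ :=
  (∑ w : Fin M, dl (rsT hmem i k a b w X) Y) / M

noncomputable def A4 (i k : Fin m) (a : Fin n) (Y : Tab r c) : ℝ :=
  (∑ w : Fin M, A5 hmem M X i k a ⟨w % n, Nat.mod_lt _ hn⟩ Y) / M

noncomputable def A3 (i k : Fin m) (Y : Tab r c) : ℝ :=
  (∑ w : Fin M, A4 hmem hn M X i k ⟨w % n, Nat.mod_lt _ hn⟩ Y) / M

noncomputable def A2 (i : Fin m) (Y : Tab r c) : ℝ :=
  (∑ w : Fin M, A3 hmem hn M X i ⟨w % m, Nat.mod_lt _ hm⟩ Y) / M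

noncomputable def A1 (Y : Tab r c) : ℝ :=
  (∑ w : Fin M, A2 hmem hm hn M X ⟨w % m, Nat.mod_lt _ hm⟩ Y) / M

include hM in
theorem A5_le (i k : Fin m) (a b : Fin n) :
    ∑ Y, |A5 hmem M X i k a b Y - I5 hmem X i k a b Y| ≤ (2 * (∑ i, r i : ℕ) + 1 : ℝ) / M := by
  have h1 := Samp_avg_mod M (Samp_len X i k a b) hM (Nat.succ_pos _)
    (fun s Y => dl (rsT hmem i k a b s X) Y) fun s => dl_norm _
  have h2 : (Samp_len X i k a b : ℝ) ≤ 2 * (∑ i, r i : ℕ) + 1 := by
    have h3 : Samp_len X i k a b ≤ 2 * (∑ i, r i) + 1 := by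
      unfold Samp_len
      have := min_le_left (X.1 i a) (X.1 k b)
      have := min_le_left (X.1 i b) (X.1 k a)
      have := X.entry_le i a
      have := X.entry_le i b
      omega
    exact_mod_cast h3
  refine le_trans (le_of_eq ?_) (h1.trans (div_le_div_of_nonneg_right h2 (by positivity)))
  refine sum_congr rfl fun Y _ => ?_
  unfold A5 I5
  simp only [rsT_mod]

include hM in
theorem A4_le (i k : Fin m) (a : Fin n) :
    ∑ Y, |A4 hmem hn M X i k a Y - I4 hmem X i k a Y| ≤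
      (n : ℝ) / M + (2 * (∑ i, r i : ℕ) + 1 : ℝ) / M :=
  Samp_hyb M n hM hn (fun b Y => A5 hmem M X i k a b Y) (fun b Y => I5 hmem X i k a b Y) _
    (fun b => I5_norm hmem X i k a b) fun b => A5_le hmem M hM X i k a b

include hM in
theorem A3_le (i k : Fin m) :
    ∑ Y, |A3 hmem hn M X i k Y - I3 hmem X i k Y| ≤
      (n : ℝ) / M + ((n : ℝ) / M + (2 * (∑ i, r i : ℕ) + 1 : ℝ) / M) :=
  Samp_hyb M n hM hn (fun a Y => A4 hmem hn M X i k a Y) (fun a Y => I4 hmem X i k a Y) _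
    (fun a => I4_norm hmem hn X i k a) fun a => A4_le hmem hn M hM X i k a

include hM in
theorem A2_le (i : Fin m) :
    ∑ Y, |A2 hmem hm hn M X i Y - I2 hmem X i Y| ≤
      (m : ℝ) / M + ((n : ℝ) / M + ((n : ℝ) / M + (2 * (∑ i, r i : ℕ) + 1 : ℝ) / M)) :=
  Samp_hyb M m hM hm (fun k Y => A3 hmem hn M X i k Y) (fun k Y => I3 hmem X i k Y) _
    (fun k => I3_norm hmem hn X i k) fun k => A3_le hmem hn M hM X i k

include hM in
theorem A1_le :
    ∑ Y, |A1 hmem hm hn M X Y - I1 hmem X Y| ≤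
      (m : ℝ) / M + ((m : ℝ) / M + ((n : ℝ) / M + ((n : ℝ) / M +
        (2 * (∑ i, r i : ℕ) + 1 : ℝ) / M))) :=
  Samp_hyb M m hM hm (fun i Y => A2 hmem hm hn M X i Y) (fun i Y => I2 hmem X i Y) _
    (fun i => I2_norm hmem hm hn X i) fun i => A2_le hmem hm hn M hM X i

/-- coin -/
noncomputable def G0 (s : Fin 2) (Y : Tab r c) : ℝ :=
  if s = 0 then dl X Y else A1 hmem hm hn M X Y

noncomputable def H0 (s : Fin 2) (Y : Tab r c) : ℝ := if s = 0 then dl X Y else I1 hmem X Y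

include hM in
theorem A0_le :
    ∑ Y, |(∑ w : Fin M, G0 hmem hm hn M X ⟨w % 2, Nat.mod_lt _ (by norm_num)⟩ Y) / M -
      (∑ s : Fin 2, H0 hmem X s Y) / (2 : ℕ)| ≤
      ((2 : ℕ) : ℝ) / M + ((m : ℝ) / M + ((m : ℝ) / M + ((n : ℝ) / M + ((n : ℝ) / M +
        (2 * (∑ i, r i : ℕ) + 1 : ℝ) / M)))) := by
  refine Samp_hyb M 2 hM (by norm_num) (fun s Y => G0 hmem hm hn M X s Y)
    (fun s Y => H0 hmem X s Y) _ (fun s => ?_) fun s => ?_
  · unfold H0
    split_ifs
    · exact dl_norm X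
    · exact I1_norm hmem hm hn X
  · unfold G0 H0
    split_ifs
    · simp only [sub_self, abs_zero, sum_const_zero]
      positivity
    · exact A1_le hmem hm hn M hM X

theorem sum_six (F : (Fin 6 → Fin M) → ℝ) : ∑ w, F w =
    ∑ w0 : Fin M, ∑ w1 : Fin M, ∑ w2 : Fin M, ∑ w3 : Fin M, ∑ w4 : Fin M, ∑ w5 : Fin M,
      F (Fin.cons w0 (Fin.cons w1 (Fin.cons w2 (Fin.cons w3 (Fin.cons w4
        (Fin.cons w5 finZeroElim)))))) := by
  rw [Samp_sum_cons]
  refine sum_congr rfl fun w0 _ => ?_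
  rw [Samp_sum_cons]
  refine sum_congr rfl fun w1 _ => ?_
  rw [Samp_sum_cons]
  refine sum_congr rfl fun w2 _ => ?_
  rw [Samp_sum_cons]
  refine sum_congr rfl fun w3 _ => ?_
  rw [Samp_sum_cons]
  refine sum_congr rfl fun w4 _ => ?_
  rw [Samp_sum_cons]
  refine sum_congr rfl fun w5 _ => ?_
  rw [Fintype.sum_unique]
  congr 1

include hM in
theorem step_count (Y : Tab r c) :
    ((univ.filter fun w : Fin 6 → Fin M => stT hmem hm hn M w X = Y).card : ℝ) / (M : ℝ) ^ 6 =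
      (∑ w : Fin M, G0 hmem hm hn M X ⟨w % 2, Nat.mod_lt _ (by norm_num)⟩ Y) / M := by
  have h1 : ((univ.filter fun w : Fin 6 → Fin M => stT hmem hm hn M w X = Y).card : ℝ) =
      ∑ w : Fin 6 → Fin M, dl (stT hmem hm hn M w X) Y := by
    rw [card_filter]
    push_cast
    rfl
  rw [h1, sum_six]
  have hM' : (M : ℝ) ≠ 0 := by
    have : (0 : ℝ) < M := by exact_mod_cast hM
    exact this.ne'
  have key : ∀ w0 : Fin M, (∑ w1 : Fin M, ∑ w2 : Fin M, ∑ w3 : Fin M, ∑ w4 : Fin M, ∑ w5 : Fin M,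
      dl (stT hmem hm hn M (Fin.cons w0 (Fin.cons w1 (Fin.cons w2 (Fin.cons w3 (Fin.cons w4
        (Fin.cons w5 finZeroElim)))))) X) Y) =
      (M : ℝ) ^ 5 * G0 hmem hm hn M X ⟨w0 % 2, Nat.mod_lt _ (by norm_num)⟩ Y := by
    intro w0
    by_cases h : (w0 : ℕ) % 2 = 0
    · have e : ∀ w1 w2 w3 w4 w5 : Fin M, stT hmem hm hn M (Fin.cons w0 (Fin.cons w1 (Fin.cons w2
          (Fin.cons w3 (Fin.cons w4 (Fin.cons w5 finZeroElim)))))) X = X := by
        intro w1 w2 w3 w4 w5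
        unfold stT
        exact if_pos h
      simp only [e]
      have e2 : G0 hmem hm hn M X ⟨w0 % 2, Nat.mod_lt _ (by norm_num)⟩ Y = dl X Y := by
        unfold G0
        rw [if_pos (Fin.ext h)]
      rw [e2]
      simp only [sum_const, card_univ, Fintype.card_fin, nsmul_eq_mul]
      ring
    · have e : ∀ w1 w2 w3 w4 w5 : Fin M, stT hmem hm hn M (Fin.cons w0 (Fin.cons w1 (Fin.cons w2
          (Fin.cons w3 (Fin.cons w4 (Fin.cons w5 finZeroElim)))))) X =
          rsT hmem ⟨w1 % m, Nat.mod_lt _ hm⟩ ⟨w2 % m, Nat.mod_lt _ hm⟩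
            ⟨w3 % n, Nat.mod_lt _ hn⟩ ⟨w4 % n, Nat.mod_lt _ hn⟩ w5 X := by
        intro w1 w2 w3 w4 w5
        unfold stT
        exact if_neg h
      simp only [e]
      have e2 : G0 hmem hm hn M X ⟨w0 % 2, Nat.mod_lt _ (by norm_num)⟩ Y =
          A1 hmem hm hn M X Y := by
        unfold G0
        rw [if_neg (fun h' => h (congrArg Fin.val h'))]
      rw [e2]
      simp only [A1, A2, A3, A4, A5, ← sum_div]
      field_simp
  simp only [key, ← mul_sum]
  field_simp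

include hlaw hn in
theorem I1_eq (Y : Tab r c) : I1 hmem X Y = (1 / ((m : ℝ) ^ 2 * (n : ℝ) ^ 2)) *
    ∑ i : Fin m, ∑ k : Fin m, ∑ a : Fin n, ∑ b : Fin n,
      (open Classical in if agreeOff i k a b X Y then
        1 / ((univ.filter fun Z : Tab r c => agreeOff i k a b X Z).card : ℝ) else 0) := by
  have h5 : ∀ i k a b, I5 hmem X i k a b Y = (open Classical in if agreeOff i k a b X Y then
        1 / ((univ.filter fun Z : Tab r c => agreeOff i k a b X Z).card : ℝ) else 0) := by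
    intro i k a b
    rw [← hlaw r c X Y i k a b]
    unfold I5
    rw [Finset.sum_range]
    unfold Samp_len
    congr 1
    refine sum_congr rfl fun s _ => ?_
    by_cases h : resample i k a b s X.1 = Y.1
    · rw [if_pos h, dl_eq ((rsT_iff hmem i k a b s X Y).2 h)]
    · rw [if_neg h, dl_ne (fun h' => h ((rsT_iff hmem i k a b s X Y).1 h'))]
  simp only [I1, I2, I3, I4, h5, ← sum_div]
  field_simp

include hlaw hM in
theorem step_tv :
    ∑ Y, |((univ.filter fun w : Fin 6 → Fin M => stT hmem hm hn M w X = Y).card : ℝ) /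
      (Fintype.card (Fin 6 → Fin M) : ℝ) - HB r c X Y| ≤
      (2 * (m + n + (∑ i, r i : ℕ)) + 3 : ℝ) / M := by
  have h := A0_le hmem hm hn M hM X
  refine le_trans (le_of_eq ?_) (h.trans (le_of_eq ?_))
  · refine sum_congr rfl fun Y _ => ?_
    rw [← step_count hmem hm hn M hM X Y]
    have e1 : (Fintype.card (Fin 6 → Fin M) : ℝ) = (M : ℝ) ^ 6 := by
      rw [Fintype.card_fun, Fintype.card_fin, Fintype.card_fin]
      push_cast
      rfl
    have e2 : (∑ s : Fin 2, H0 hmem X s Y) / (2 : ℕ) = HB r c X Y := by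
      rw [Fin.sum_univ_two]
      have e3 : H0 hmem X 0 Y = dl X Y := by
        unfold H0
        rw [if_pos rfl]
      have e4 : H0 hmem X 1 Y = I1 hmem X Y := by
        unfold H0
        rw [if_neg (by decide)]
      rw [e3, e4, I1_eq hmem hlaw hn X Y]
      unfold HB dl
      split_ifs
      · push_cast
        ring
      · push_cast
        ring
    rw [e1, e2]
  · push_cast
    ring

end steps

end Vale.Agent.P328
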