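import Vale.Agent.Lib.P328.SampB

/-!
P328, sampler: from mixing of the heat-bath chain to an explicit randomized sampler.
-/

namespace Vale.Agent.P328

open Finset

variable {m n : ℕ}

/-- the run on tables and the run of the sampler -/
theorem Srun_val (hmem : SampMem m n) (hm : 0 < m) (hn : 0 < n) {r : Fin m → ℕ} {c : Fin n → ℕ}
    (M : ℕ) (X : Tab r c) (hX : X.1 = nwTab r c) (l : List (Fin 6 → Fin M)) :
    (Srun (stT hmem hm hn M) X l).1 =
      sampleRun hm hn r c (l.map fun w j => (w j : ℕ)) := by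
  induction l with
  | nil => exact hX
  | cons w l ih =>
    rw [List.map_cons]
    change (stT hmem hm hn M w (Srun (stT hmem hm hn M) X l)).1 = sampleStep hm hn
      (fun j => (w j : ℕ)) (sampleRun hm hn r c (l.map fun w j => (w j : ℕ)))
    rw [stT_val, ih]

theorem sampler_tv (hmem : SampMem m n) (hlaw : SampLaw m n) (hm : 0 < m) (hn : 0 < n)
    {r : Fin m → ℕ} {c : Fin n → ℕ} (hnw : (∀ i, ∑ a, nwTab r c i a = r i) ∧
      ∀ a, ∑ i, nwTab r c i a = c a)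
    (hrow : ∀ X : Tab r c, ∑ Y, HB r c X Y = 1) (hnn : ∀ X Y : Tab r c, 0 ≤ HB r c X Y)
    (T B : ℕ) (δ : ℝ) (hmix : ∀ X : Tab r c,
      (1 / 2) * ∑ Y, |(HB r c ^ T) X Y - 1 / (Fintype.card (Tab r c) : ℝ)| ≤ δ) :
    (∀ w : Fin T → Fin 6 → Fin (2 ^ B),
      (∀ i, ∑ a, sampleRun hm hn r c (List.ofFn fun t j => (w t j : ℕ)) i a = r i) ∧
      ∀ a, ∑ i, sampleRun hm hn r c (List.ofFn fun t j => (w t j : ℕ)) i a = c a) ∧
    (1 / 2) * ∑ Y : Tab r c, |((univ.filter fun w : Fin T → Fin 6 → Fin (2 ^ B) =>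
      sampleRun hm hn r c (List.ofFn fun t j => (w t j : ℕ)) = Y.1).card : ℝ) /
        (2 ^ B) ^ (6 * T) - 1 / (Fintype.card (Tab r c) : ℝ)| ≤
      δ + T * ((2 * (m + n + (∑ i, r i : ℕ)) + 3 : ℝ) / 2 ^ B) / 2 := by
  have hM : 0 < 2 ^ B := by positivity
  have hne : Nonempty (Fin (2 ^ B)) := ⟨⟨0, hM⟩⟩
  set X0 : Tab r c := ⟨nwTab r c, hnw⟩ with hX0
  have hrun : ∀ w : Fin T → Fin 6 → Fin (2 ^ B),
      (Srun (stT hmem hm hn (2 ^ B)) X0 (List.ofFn w)).1 =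
        sampleRun hm hn r c (List.ofFn fun t j => (w t j : ℕ)) := by
    intro w
    rw [Srun_val hmem hm hn (2 ^ B) X0 rfl, List.map_ofFn]
    rfl
  refine ⟨fun w => ?_, ?_⟩
  · rw [← hrun w]
    exact (Srun (stT hmem hm hn (2 ^ B)) X0 (List.ofFn w)).2
  · have h1 := Slaw_tv (stT hmem hm hn (r := r) (c := c) (2 ^ B)) (HB r c) hrow hnn
      ((2 * (m + n + (∑ i, r i : ℕ)) + 3 : ℝ) / (2 ^ B : ℕ))
      (fun X => step_tv hmem hlaw hm hn (2 ^ B) hM X) X0 T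
    have h2 : ∀ Y : Tab r c, ((univ.filter fun w : Fin T → Fin 6 → Fin (2 ^ B) =>
      sampleRun hm hn r c (List.ofFn fun t j => (w t j : ℕ)) = Y.1).card : ℝ) /
        (2 ^ B) ^ (6 * T) = Slaw (stT hmem hm hn (2 ^ B)) X0 T Y := by
      intro Y
      unfold Slaw
      have e1 : (univ.filter fun w : Fin T → Fin 6 → Fin (2 ^ B) =>
          sampleRun hm hn r c (List.ofFn fun t j => (w t j : ℕ)) = Y.1) =
          univ.filter fun w : Fin T → Fin 6 → Fin (2 ^ B) =>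
            Srun (stT hmem hm hn (2 ^ B)) X0 (List.ofFn w) = Y := by
        ext w
        simp only [mem_filter, mem_univ, true_and]
        rw [← hrun w]
        exact ⟨fun h => Subtype.ext h, fun h => congrArg Subtype.val h⟩
      rw [e1, Fintype.card_fun, Fintype.card_fin, Fintype.card_fin]
      push_cast
      rw [← pow_mul, ← pow_mul, ← pow_mul]
    have h3 := hmix X0
    have h4 : ∑ Y : Tab r c, |((univ.filter fun w : Fin T → Fin 6 → Fin (2 ^ B) =>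
      sampleRun hm hn r c (List.ofFn fun t j => (w t j : ℕ)) = Y.1).card : ℝ) /
        (2 ^ B) ^ (6 * T) - 1 / (Fintype.card (Tab r c) : ℝ)| ≤
        ∑ Y, |Slaw (stT hmem hm hn (2 ^ B)) X0 T Y - (HB r c ^ T) X0 Y| +
        ∑ Y, |(HB r c ^ T) X0 Y - 1 / (Fintype.card (Tab r c) : ℝ)| := by
      rw [← sum_add_distrib]
      refine sum_le_sum fun Y _ => ?_
      rw [h2 Y]
      exact abs_sub_le _ _ _
    push_cast at h1
    push_cast at h4 ⊢
    linarith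

/-- mixing in polynomial time, as a hypothesis -/
def MixPoly (A : ℕ) : Prop := ∀ (m n : ℕ) (_ : 0 < m) (_ : 0 < n) (r : Fin m → ℕ) (c : Fin n → ℕ)
  (ε : ℝ), 0 < ε → ε ≤ 1 → ∀ t : ℕ,
  ((m : ℝ) + n + Real.log (2 + (∑ i, r i : ℕ)) + Real.log (1 / ε)) ^ A ≤ t → ∀ X : Tab r c,
  (1 / 2) * ∑ Y, |(HB r c ^ t) X Y - 1 / (Fintype.card (Tab r c) : ℝ)| ≤ ε

theorem Samp_B_bound (A L : ℕ) (hL : 2 ≤ L) : (A + 4 + 4) * L ≤ L ^ (A + 4) := by
  have h1 : ∀ k : ℕ, k + 8 ≤ 2 ^ (k + 3) := by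
    intro k
    induction k with
    | zero => norm_num
    | succ k ih => rw [show k + 1 + 3 = (k + 3) + 1 by ring, pow_succ]; omega
  calc (A + 4 + 4) * L ≤ 2 ^ (A + 3) * L := Nat.mul_le_mul_right L (h1 A)
    _ ≤ L ^ (A + 3) * L := Nat.mul_le_mul_right L (Nat.pow_le_pow_left hL _)
    _ = L ^ (A + 4) := by rw [← pow_succ]

theorem sampler_of_mix (hmem : ∀ m n, SampMem m n) (hlaw : ∀ m n, SampLaw m n)
    (hnw : ∀ (m n : ℕ) (r : Fin m → ℕ) (c : Fin n → ℕ), ∑ i, r i = ∑ a, c a →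
      (∀ i, ∑ a, nwTab r c i a = r i) ∧ ∀ a, ∑ i, nwTab r c i a = c a)
    (hrow : ∀ (m n : ℕ) (_ : 0 < m) (_ : 0 < n) (r : Fin m → ℕ) (c : Fin n → ℕ) (X : Tab r c),
      ∑ Y, HB r c X Y = 1)
    (hnn : ∀ (m n : ℕ) (r : Fin m → ℕ) (c : Fin n → ℕ) (X Y : Tab r c), 0 ≤ HB r c X Y)
    (A0 : ℕ) (hmix : MixPoly A0) :
    ∀ (m n : ℕ) (hm : 0 < m) (hn : 0 < n) (r : Fin m → ℕ) (c : Fin n → ℕ)
      (_ : ∑ i, r i = ∑ a, c a) (e L T : ℕ) (_ : L = m + n + Nat.size (∑ i, r i) + e)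
      (_ : T = L ^ (2 * A0 + 4)),
      (∀ w : Fin T → Fin 6 → Fin (2 ^ T),
        (∀ i, ∑ a, sampleRun hm hn r c (List.ofFn fun t j => (w t j : ℕ)) i a = r i) ∧
        ∀ a, ∑ i, sampleRun hm hn r c (List.ofFn fun t j => (w t j : ℕ)) i a = c a) ∧
      (1 / 2) * ∑ Y : Tab r c, |((univ.filter fun w : Fin T → Fin 6 → Fin (2 ^ T) =>
        sampleRun hm hn r c (List.ofFn fun t j => (w t j : ℕ)) = Y.1).card : ℝ) /
          (2 ^ T) ^ (6 * T) - 1 / (Fintype.card (Tab r c) : ℝ)| ≤ 1 / 2 ^ e := by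
  intro m n hm hn r c hrc e L T hL hT
  set N : ℕ := ∑ i, r i with hN
  have hL2 : 2 ≤ L := by omega
  have hN2 : N < 2 ^ Nat.size N := Nat.lt_size_self N
  have hε : (0 : ℝ) < 1 / 2 ^ (e + 1) := by positivity
  have hε1 : (1 : ℝ) / 2 ^ (e + 1) ≤ 1 := by
    rw [div_le_one (by positivity)]
    exact one_le_pow₀ (by norm_num)
  have hlog2 : Real.log 2 ≤ 1 := by
    have := Real.log_le_sub_one_of_pos (show (0 : ℝ) < 2 by norm_num)
    linarith
  have hlog2' : 0 ≤ Real.log 2 := Real.log_nonneg (by norm_num)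
  -- the number of steps
  have hsteps : ((m : ℝ) + n + Real.log (2 + (∑ i, r i : ℕ)) +
      Real.log (1 / (1 / 2 ^ (e + 1)))) ^ A0 ≤ (T : ℝ) := by
    have e1 : Real.log (1 / (1 / (2 : ℝ) ^ (e + 1))) ≤ e + 1 := by
      rw [one_div_one_div, Real.log_pow]
      push_cast
      nlinarith
    have e0 : 0 ≤ Real.log (1 / (1 / (2 : ℝ) ^ (e + 1))) := by
      rw [one_div_one_div]
      exact Real.log_nonneg (one_le_pow₀ (by norm_num))
    have e2 : Real.log (2 + (∑ i, r i : ℕ)) ≤ Nat.size N + 1 := by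
      have h1 : (2 + N : ℝ) ≤ 2 ^ (Nat.size N + 1) := by
        have : 2 + N ≤ 2 ^ (Nat.size N + 1) := by
          rw [pow_succ]
          have : 1 ≤ 2 ^ Nat.size N := Nat.one_le_two_pow
          omega
        exact_mod_cast this
      calc Real.log (2 + (∑ i, r i : ℕ)) ≤ Real.log (2 ^ (Nat.size N + 1)) :=
            Real.log_le_log (by positivity) h1
        _ = ((Nat.size N : ℝ) + 1) * Real.log 2 := by rw [Real.log_pow]; push_cast; ring
        _ ≤ Nat.size N + 1 := by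
            have : (0 : ℝ) ≤ (Nat.size N : ℝ) + 1 := by positivity
            nlinarith
    have e3 : 0 ≤ Real.log (2 + (∑ i, r i : ℕ)) := by
      refine Real.log_nonneg ?_
      have : (0 : ℝ) ≤ (∑ i, r i : ℕ) := by positivity
      linarith
    have e4 : ((m : ℝ) + n + Real.log (2 + (∑ i, r i : ℕ)) +
        Real.log (1 / (1 / 2 ^ (e + 1)))) ≤ (L : ℝ) ^ 2 := by
      have h1 : (L : ℝ) = m + n + Nat.size N + e := by rw [hL]; push_cast; ring
      have h2 : (2 : ℝ) ≤ L := by exact_mod_cast hL2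
      nlinarith
    have e5 : ((m : ℝ) + n + Real.log (2 + (∑ i, r i : ℕ)) +
        Real.log (1 / (1 / 2 ^ (e + 1)))) ^ A0 ≤ ((L : ℝ) ^ 2) ^ A0 := by
      refine pow_le_pow_left₀ ?_ e4 _
      positivity
    refine e5.trans ?_
    rw [← pow_mul, hT]
    push_cast
    refine pow_le_pow_right₀ ?_ (by omega)
    have h2 : (2 : ℝ) ≤ L := by exact_mod_cast hL2
    linarith
  have hm1 := hmix m n hm hn r c (1 / 2 ^ (e + 1)) hε hε1 T hsteps
  have h := sampler_tv (hmem m n) (hlaw m n) hm hn (hnw m n r c hrc) (hrow m n hm hn r c)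
    (hnn m n r c) T T (1 / 2 ^ (e + 1)) hm1
  refine ⟨h.1, h.2.trans ?_⟩
  -- the bias of the words
  have hb : (2 : ℝ) ^ e * (T * (2 * (m + n + (∑ i, r i : ℕ)) + 3)) ≤ 2 ^ T := by
    have h1 : 2 ^ e * (T * (2 * (m + n + N) + 3)) ≤ 2 ^ T := by
      have h2 : 2 ^ e ≤ 2 ^ L := Nat.pow_le_pow_right (by norm_num) (by omega)
      have h3 : T ≤ 2 ^ (L * (2 * A0 + 4)) := by
        rw [hT, pow_mul]
        exact Nat.pow_le_pow_left (Nat.lt_two_pow_self).le _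
      have h4 : 2 * (m + n + N) + 3 ≤ 2 ^ (L + 3) := by
        have h5 : m + n ≤ L := by omega
        have h6 : L < 2 ^ L := Nat.lt_two_pow_self
        have h7 : 2 ^ Nat.size N ≤ 2 ^ L := Nat.pow_le_pow_right (by norm_num) (by omega)
        rw [pow_add]
        omega
      have h8 : e + 1 ≤ L := by omega
      calc 2 ^ e * (T * (2 * (m + n + N) + 3)) ≤
            2 ^ L * (2 ^ (L * (2 * A0 + 4)) * 2 ^ (L + 3)) :=
            Nat.mul_le_mul h2 (Nat.mul_le_mul h3 h4)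
        _ = 2 ^ (L + (L * (2 * A0 + 4) + (L + 3))) := by rw [← pow_add, ← pow_add]
        _ ≤ 2 ^ T := by
            refine Nat.pow_le_pow_right (by norm_num) ?_
            have h9 := Samp_B_bound (2 * A0) L hL2
            rw [← hT] at h9
            nlinarith
    have h2 : ((2 ^ e * (T * (2 * (m + n + N) + 3)) : ℕ) : ℝ) ≤ ((2 ^ T : ℕ) : ℝ) := by
      exact_mod_cast h1
    simpa only [Nat.cast_mul, Nat.cast_pow, Nat.cast_add, Nat.cast_ofNat] using h2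
  have hT0 : (0 : ℝ) < 2 ^ T := by positivity
  have he0 : (0 : ℝ) < 2 ^ e := by positivity
  have e6 : (T : ℝ) * ((2 * (m + n + (∑ i, r i : ℕ)) + 3 : ℝ) / 2 ^ T) / 2 ≤ 1 / 2 ^ (e + 1) := by
    rw [pow_succ, div_le_div_iff₀ (by norm_num) (by positivity), ← mul_div_assoc,
      div_mul_eq_mul_div, div_le_iff₀ hT0]
    linarith
  have e7 : (1 : ℝ) / 2 ^ e = 1 / 2 ^ (e + 1) + 1 / 2 ^ (e + 1) := by
    rw [pow_succ]
    field_simp
    norm_num
  rw [e7]
  linarith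

end Vale.Agent.P328
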